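import Vale.Agent.P021.SavedSum

namespace Vale.Agent.P021

def certf (a : ℕ) : ℕ :=
  let g := (5399 * a + 3599) / 3600
  let k := 5 * a + 1 + a % 2 - 2 * g
  let x := 1000000000000 * (3600 * g - 5399 * a) / (1800 * a * g)
  let y := 1000000000000 * (3600 * k - 7202 * a) / (1800 * a * k)
  bif Nat.ble x y then x else y

def certs : ℕ → ℕ → ℕ
  | 0, s => certf s
  | d + 1, s => certs d s + certs d (s + 2 ^ d)

theorem certs_eq (d s : ℕ) : certs d s = ∑ i ∈ Finset.range (2 ^ d), certf (s + i) := by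
  induction d generalizing s with
  | zero => simp [certs]
  | succ d ih =>
    rw [certs, ih, ih, pow_succ, mul_two, Finset.sum_range_add]
    simp only [add_assoc]

theorem certf_eq (a : ℕ) : certf a =
    min (1000000000000 * (3600 * gam 1800 a - 5399 * a) / (1800 * a * gam 1800 a))
      (1000000000000 * (3600 * kap 1800 a - 7202 * a) / (1800 * a * kap 1800 a)) := by
  have hg : (5399 * a + 3599) / 3600 = gam 1800 a := by
    unfold gam
    norm_num
  have hk : 5 * a + 1 + a % 2 - 2 * gam 1800 a = kap 1800 a := rfl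
  unfold certf
  simp only [hg, hk]
  rcases h : Nat.ble (1000000000000 * (3600 * gam 1800 a - 5399 * a) / (1800 * a * gam 1800 a))
      (1000000000000 * (3600 * kap 1800 a - 7202 * a) / (1800 * a * kap 1800 a)) with _ | _
  · have : ¬ (_ ≤ _) := fun h' => Bool.noConfusion (h.symm.trans (Nat.ble_eq.mpr h'))
    rw [cond_false, min_eq_right (not_le.mp this).le]
  · rw [cond_true, min_eq_left (Nat.ble_eq.mp h)]

theorem div_cast_le (D u v m : ℕ) (hv : v ≤ u) :
    ((D * (u - v) / m : ℕ) : ℝ) ≤ D * (((u : ℝ) - v) / m) := by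
  calc ((D * (u - v) / m : ℕ) : ℝ) ≤ ((D * (u - v) : ℕ) : ℝ) / m := Nat.cast_div_le
    _ = D * (((u : ℝ) - v) / m) := by
      push_cast [Nat.cast_sub hv]
      ring

theorem certf_le (a : ℕ) (ha : 1 ≤ a) : (certf a : ℝ) ≤ 1000000000000 * max 0 (gap 1800 a) := by
  rw [certf_eq]
  have hg1 : 1 ≤ gam 1800 a := gam_pos 1800 a (by norm_num) ha
  have hk1 : 1 ≤ kap 1800 a := (kap_pos 1800 a (by norm_num) ha).1
  have ha' : (0 : ℝ) < a := by exact_mod_cast ha
  have hg' : (0 : ℝ) < gam 1800 a := by exact_mod_cast hg1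
  have hk' : (0 : ℝ) < kap 1800 a := by exact_mod_cast hk1
  rcases le_total (5399 * a) (3600 * gam 1800 a) with h1 | h1
  · rcases le_total (7202 * a) (3600 * kap 1800 a) with h2 | h2
    · have e1 := div_cast_le 1000000000000 _ _ (1800 * a * gam 1800 a) h1
      have e2 := div_cast_le 1000000000000 _ _ (1800 * a * kap 1800 a) h2
      rw [Nat.cast_min]
      have e3 : min (((3600 * gam 1800 a : ℕ) - (5399 * a : ℕ) : ℝ) / (1800 * a * gam 1800 a : ℕ))
          (((3600 * kap 1800 a : ℕ) - (7202 * a : ℕ) : ℝ) / (1800 * a * kap 1800 a : ℕ)) ≤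
          gap 1800 a := by
        have l1 : ((3600 * gam 1800 a : ℕ) - (5399 * a : ℕ) : ℝ) / (1800 * a * gam 1800 a : ℕ) =
            2 / a - ((3 * 1800 - 1 : ℕ) : ℝ) / (1800 * gam 1800 a : ℕ) := by
          push_cast
          field_simp
          ring
        have l2 : ((3600 * kap 1800 a : ℕ) - (7202 * a : ℕ) : ℝ) / (1800 * a * kap 1800 a : ℕ) =
            2 / a - ((4 * 1800 + 2 : ℕ) : ℝ) / (1800 * kap 1800 a : ℕ) := by
          push_cast
          norm_num
          field_simp
          ring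
        rw [l1, l2]
        unfold gap lo
        rcases max_choice (((3 * 1800 - 1 : ℕ) : ℝ) / (1800 * gam 1800 a : ℕ))
          (((4 * 1800 + 2 : ℕ) : ℝ) / (1800 * kap 1800 a : ℕ)) with h | h
        · rw [h]; exact min_le_left _ _
        · rw [h]; exact min_le_right _ _
      calc min (((1000000000000 * (3600 * gam 1800 a - 5399 * a) / (1800 * a * gam 1800 a) : ℕ)) : ℝ)
            ((1000000000000 * (3600 * kap 1800 a - 7202 * a) / (1800 * a * kap 1800 a) : ℕ) : ℝ)
          ≤ min ((1000000000000 : ℕ) * (((3600 * gam 1800 a : ℕ) - (5399 * a : ℕ) : ℝ) / (1800 * a * gam 1800 a : ℕ)))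
            ((1000000000000 : ℕ) * (((3600 * kap 1800 a : ℕ) - (7202 * a : ℕ) : ℝ) / (1800 * a * kap 1800 a : ℕ))) :=
            min_le_min e1 e2
        _ = (1000000000000 : ℕ) * min (((3600 * gam 1800 a : ℕ) - (5399 * a : ℕ) : ℝ) / (1800 * a * gam 1800 a : ℕ))
            (((3600 * kap 1800 a : ℕ) - (7202 * a : ℕ) : ℝ) / (1800 * a * kap 1800 a : ℕ)) :=
            (mul_min_of_nonneg _ _ (by positivity)).symm
        _ ≤ 1000000000000 * max 0 (gap 1800 a) := by
            push_cast at e3 ⊢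
            gcongr
            exact e3.trans (le_max_right _ _)
    · rw [Nat.sub_eq_zero_of_le h2]
      simp
  · rw [Nat.sub_eq_zero_of_le h1]
    simp

set_option maxRecDepth 100000 in
theorem cert15 : Nat.ble 647639000000 (certs 15 1) = true := by
  decide +kernel

theorem gap_sum : 0.647639 ≤ ∑ a ∈ Finset.Icc 1 32768, max 0 (gap 1800 a) := by
  have h1 : 647639000000 ≤ certs 15 1 := Nat.ble_eq.mp cert15
  rw [certs_eq] at h1
  have h2 : (∑ i ∈ Finset.range (2 ^ 15), certf (1 + i) : ℕ) =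
      ∑ a ∈ Finset.Icc 1 32768, certf a := by
    rw [show Finset.Icc 1 32768 = Finset.Ico 1 32769 from rfl, Finset.sum_Ico_eq_sum_range]
    norm_num
  rw [h2] at h1
  have h3 : (647639000000 : ℝ) ≤ ∑ a ∈ Finset.Icc 1 32768, (certf a : ℝ) := by exact_mod_cast h1
  have h4 : ∑ a ∈ Finset.Icc 1 32768, (certf a : ℝ) ≤
      ∑ a ∈ Finset.Icc 1 32768, 1000000000000 * max 0 (gap 1800 a) :=
    Finset.sum_le_sum fun a ha => certf_le a (Finset.mem_Icc.mp ha).1
  rw [← Finset.mul_sum] at h4
  linarith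

end Vale.Agent.P021
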