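import Mathlib

open Filter Topology

namespace Vale.Agent.P021

/-- From good linear forms to an irrationality measure. -/
theorem diophantine_lemma (x τ σ : ℝ) (hτ : 0 < τ) (hσ : 0 < σ)
    (H : ∀ᶠ n : ℕ in atTop, ∀ p q : ℤ, 0 < q → ∃ P Q : ℤ,
      |(Q : ℝ)| ≤ Real.exp (τ * n) ∧ |(Q : ℝ) * x - P| ≤ Real.exp (-(σ * n)) ∧ Q * p ≠ P * q)
    (ν : ℝ) (hν : 1 + τ / σ < ν) :
    {pq : ℤ × ℤ | 2 ≤ pq.2 ∧ |x - pq.1 / pq.2| < (pq.2 : ℝ) ^ (-ν)}.Finite := by
  obtain ⟨N0, hN0⟩ := eventually_atTop.1 H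
  set δ : ℝ := ν - 1 - τ / σ with hδ
  have hδ0 : 0 < δ := by rw [hδ]; linarith
  -- for large `q` nothing
  have hlim : Tendsto (fun q : ℝ => q ^ (-δ)) atTop (𝓝 0) := tendsto_rpow_neg_atTop hδ0
  set C : ℝ := Real.exp τ * (2 : ℝ) ^ (τ / σ) with hC
  have hC0 : 0 < C := by positivity
  have hev : ∀ᶠ q : ℝ in atTop, q ^ (-δ) < 1 / (2 * C) :=
    (tendsto_order.1 hlim).2 _ (by positivity)
  obtain ⟨R1, hR1⟩ := eventually_atTop.1 hev
  set R : ℝ := max (max R1 (Real.exp (σ * N0))) 1 with hR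
  have key : ∀ p q : ℤ, 2 ≤ q → |x - p / q| < (q : ℝ) ^ (-ν) → (q : ℝ) < R := by
    intro p q hq hpq
    by_contra hcon
    push Not at hcon
    have hqR1 : R1 ≤ (q : ℝ) := le_trans (le_trans (le_max_left _ _) (le_max_left _ _)) hcon
    have hqN : Real.exp (σ * N0) ≤ (q : ℝ) :=
      le_trans (le_trans (le_max_right _ _) (le_max_left _ _)) hcon
    have hq2 : (2 : ℝ) ≤ q := by exact_mod_cast hq
    have hq0 : (0 : ℝ) < q := by linarith
    set L : ℝ := Real.log (2 * q) / σ with hL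
    have hlog0 : 0 < Real.log (2 * q) := Real.log_pos (by linarith)
    have hL0 : 0 < L := div_pos hlog0 hσ
    set n : ℕ := ⌈L⌉₊ with hn
    have hnL : L ≤ n := Nat.le_ceil _
    have hnU : (n : ℝ) < L + 1 := Nat.ceil_lt_add_one hL0.le
    have hN0n : N0 ≤ n := by
      have : (N0 : ℝ) ≤ L := by
        rw [hL, le_div_iff₀ hσ]
        have h1 : σ * N0 ≤ Real.log q := by
          rw [Real.le_log_iff_exp_le hq0]; exact hqN
        have h2 : Real.log q ≤ Real.log (2 * q) := Real.log_le_log hq0 (by linarith)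
        linarith
      exact_mod_cast this.trans hnL
    obtain ⟨P, Q, hQ, hPQ, hne⟩ := hN0 n hN0n p q (by omega)
    have hint : (1 : ℝ) ≤ |(Q : ℝ) * p - P * q| := by
      have : (1 : ℤ) ≤ |Q * p - P * q| := Int.one_le_abs (sub_ne_zero.2 hne)
      exact_mod_cast this
    have hid : (Q : ℝ) * p - P * q = q * (Q * x - P) - Q * (q * (x - p / q)) := by
      field_simp
      ring
    have h1 : |(Q : ℝ) * p - P * q| ≤ q * |Q * x - P| + |(Q : ℝ)| * (q * |x - p / q|) := by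
      rw [hid]
      refine (abs_sub _ _).trans ?_
      rw [abs_mul, abs_mul, abs_mul, abs_of_pos hq0]
    have hexpn : (q : ℝ) * |Q * x - P| ≤ 1 / 2 := by
      have h2 : Real.exp (-(σ * n)) ≤ 1 / (2 * q) := by
        have h3 : Real.log (2 * q) ≤ σ * n := by
          have := mul_le_mul_of_nonneg_left hnL hσ.le
          rw [hL] at this
          rwa [mul_div_cancel₀ _ hσ.ne'] at this
        rw [Real.exp_neg, one_div]
        apply inv_anti₀ (by positivity)
        calc (2 * q : ℝ) = Real.exp (Real.log (2 * q)) := (Real.exp_log (by positivity)).symm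
          _ ≤ _ := Real.exp_le_exp.2 h3
      calc (q : ℝ) * |Q * x - P| ≤ q * (1 / (2 * q)) :=
            mul_le_mul_of_nonneg_left (hPQ.trans h2) hq0.le
        _ = 1 / 2 := by field_simp
    have hexpQ : |(Q : ℝ)| ≤ C * (q : ℝ) ^ (τ / σ) := by
      refine hQ.trans ?_
      have h4 : τ * n ≤ τ + Real.log (2 * q) * (τ / σ) := by
        have := mul_le_mul_of_nonneg_left hnU.le hτ.le
        rw [hL] at this
        calc τ * n ≤ τ * (Real.log (2 * q) / σ + 1) := this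
          _ = _ := by ring
      calc Real.exp (τ * n) ≤ Real.exp (τ + Real.log (2 * q) * (τ / σ)) := Real.exp_le_exp.2 h4
        _ = Real.exp τ * (2 * q : ℝ) ^ (τ / σ) := by
          rw [Real.exp_add, Real.rpow_def_of_pos (by positivity : (0 : ℝ) < 2 * q)]
        _ = C * (q : ℝ) ^ (τ / σ) := by
          rw [Real.mul_rpow (by norm_num) hq0.le, hC, mul_assoc]
    have h5 : |(Q : ℝ)| * (q * |x - p / q|) ≤ C * (q : ℝ) ^ (-δ) := by
      calc |(Q : ℝ)| * (q * |x - p / q|) ≤ (C * (q : ℝ) ^ (τ / σ)) * (q * (q : ℝ) ^ (-ν)) := by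
            apply mul_le_mul hexpQ _ (by positivity) (by positivity)
            exact mul_le_mul_of_nonneg_left hpq.le hq0.le
        _ = C * ((q : ℝ) ^ (τ / σ) * ((q : ℝ) ^ (1 : ℝ) * (q : ℝ) ^ (-ν))) := by
          rw [Real.rpow_one]; ring
        _ = C * (q : ℝ) ^ (-δ) := by
          rw [← Real.rpow_add hq0, ← Real.rpow_add hq0]
          congr 2
          rw [hδ]; ring
    have h6 : C * (q : ℝ) ^ (-δ) < 1 / 2 := by
      have := mul_lt_mul_of_pos_left (hR1 q hqR1) hC0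
      calc C * (q : ℝ) ^ (-δ) < C * (1 / (2 * C)) := this
        _ = 1 / 2 := by field_simp
    linarith
  -- finiteness
  have hsub : {pq : ℤ × ℤ | 2 ≤ pq.2 ∧ |x - pq.1 / pq.2| < (pq.2 : ℝ) ^ (-ν)} ⊆
      (Set.Icc (-⌈R * (|x| + 1)⌉) ⌈R * (|x| + 1)⌉) ×ˢ (Set.Icc 0 ⌈R⌉) := by
    rintro ⟨p, q⟩ ⟨hq, hpq⟩
    simp only at hq hpq
    have hqR := key p q hq hpq
    have hq2 : (2 : ℝ) ≤ q := by exact_mod_cast hq
    have hq0 : (0 : ℝ) < q := by linarith
    have hν0 : 0 < ν := by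
      have : 0 < τ / σ := by positivity
      linarith
    have h1 : (q : ℝ) ^ (-ν) ≤ 1 :=
      Real.rpow_le_one_of_one_le_of_nonpos (by linarith) (by linarith)
    have h2 : |(p : ℝ)| ≤ q * (|x| + 1) := by
      have h3 : (p : ℝ) = q * (x - (x - p / q)) := by field_simp; ring
      have h4 : |x - (x - (p : ℝ) / q)| ≤ |x| + 1 := by
        refine (abs_sub _ _).trans ?_
        linarith
      rw [h3, abs_mul, abs_of_pos hq0]
      exact mul_le_mul_of_nonneg_left h4 hq0.le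
    have h5 : |(p : ℝ)| ≤ R * (|x| + 1) :=
      h2.trans (mul_le_mul_of_nonneg_right hqR.le (by positivity))
    have h6 := abs_le.1 h5
    refine ⟨⟨?_, ?_⟩, ⟨by omega, ?_⟩⟩
    · have : -((⌈R * (|x| + 1)⌉ : ℤ) : ℝ) ≤ p := by
        have := Int.le_ceil (R * (|x| + 1))
        linarith [h6.1]
      exact_mod_cast this
    · have : (p : ℝ) ≤ ((⌈R * (|x| + 1)⌉ : ℤ) : ℝ) := h6.2.trans (Int.le_ceil _)
      exact_mod_cast this
    · have : (q : ℝ) ≤ ((⌈R⌉ : ℤ) : ℝ) := hqR.le.trans (Int.le_ceil _)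
      exact_mod_cast this
  exact ((Set.finite_Icc _ _).prod (Set.finite_Icc _ _)).subset hsub

end Vale.Agent.P021
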