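import Vale.Agent.P021.Link

/-!
# P021: `Lf` as a circle integral
-/

open Polynomial Complex

namespace Vale.Agent.P021

section circ

variable {r : ℝ}

theorem ne_zero_of_sphere (h0 : 0 < r) {w : ℂ} (hw : w ∈ Metric.sphere (0 : ℂ) r) : w ≠ 0 := by
  intro h
  rw [h, mem_sphere_iff_norm] at hw
  simp at hw
  linarith

theorem one_sub_slit_of_sphere (h1 : r < 1) {w : ℂ} (hw : w ∈ Metric.sphere (0 : ℂ) r) :
    1 - w ∈ slitPlane := by
  left
  rw [mem_sphere_iff_norm, sub_zero] at hw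
  have := Complex.abs_re_le_norm w
  rw [hw] at this
  have h2 := (abs_le.mp this).2
  rw [Complex.sub_re, Complex.one_re]
  linarith

theorem one_sub_ne_of_sphere (h1 : r < 1) {w : ℂ} (hw : w ∈ Metric.sphere (0 : ℂ) r) :
    1 - w ≠ 0 := slitPlane_ne_zero (one_sub_slit_of_sphere h1 hw)

theorem cont_y (h0 : 0 < r) (h1 : r < 1) (j : ℤ) :
    ContinuousOn (fun w : ℂ => (w * (1 - w)) ^ j) (Metric.sphere (0 : ℂ) r) := by
  apply ContinuousOn.zpow₀
  · fun_prop
  · intro w hw
    left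
    exact mul_ne_zero (ne_zero_of_sphere h0 hw) (one_sub_ne_of_sphere h1 hw)

theorem circ_rec (h0 : 0 < r) (h1 : r < 1) (j : ℤ) :
    (j : ℂ) * (∮ w in C(0, r), (w * (1 - w)) ^ (j - 1)) =
      (4 * j + 2) * ∮ w in C(0, r), (w * (1 - w)) ^ j := by
  have h := circleIntegral.integral_eq_zero_of_hasDerivWithinAt (c := (0 : ℂ)) h0.le
    (f := fun w : ℂ => (1 - 2 * w) * (w * (1 - w)) ^ j)
    (f' := fun w : ℂ => j * (w * (1 - w)) ^ (j - 1) - (4 * j + 2) * (w * (1 - w)) ^ j)
    (fun w hw => (hasDerivAt_key j w (ne_zero_of_sphere h0 hw)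
      (one_sub_ne_of_sphere h1 hw)).hasDerivWithinAt)
  rw [circleIntegral.integral_sub, circleIntegral.integral_const_mul,
    circleIntegral.integral_const_mul] at h
  · exact sub_eq_zero.mp h
  · exact (continuousOn_const.mul (cont_y h0 h1 (j - 1))).circleIntegrable h0.le
  · exact (continuousOn_const.mul (cont_y h0 h1 j)).circleIntegrable h0.le

theorem circ_zero (h0 : 0 < r) : (∮ w in C(0, r), ((w * (1 - w)) ^ (0 : ℤ) : ℂ)) = 0 := by
  refine circleIntegral.integral_eq_zero_of_hasDerivWithinAt (c := (0 : ℂ)) h0.le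
    (f := fun w : ℂ => w) (fun w hw => ?_)
  rw [zpow_zero]
  exact (hasDerivAt_id' w).hasDerivWithinAt

theorem circ_neg_one (h0 : 0 < r) (h1 : r < 1) :
    (∮ w in C(0, r), ((w * (1 - w)) ^ (-1 : ℤ) : ℂ)) = 2 * Real.pi * I := by
  have e : Set.EqOn (fun w : ℂ => (w * (1 - w)) ^ (-1 : ℤ)) (fun w : ℂ => (w - 0)⁻¹ + (1 - w)⁻¹)
      (Metric.sphere (0 : ℂ) r) := by
    intro w hw
    have hw0 := ne_zero_of_sphere h0 hw
    have hw1 := one_sub_ne_of_sphere h1 hw
    simp only [zpow_neg_one, sub_zero]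
    field_simp
    ring
  rw [circleIntegral.integral_congr h0.le e, circleIntegral.integral_add]
  · rw [circleIntegral.integral_sub_inv_of_mem_ball (by simpa using h0)]
    have h := circleIntegral.integral_eq_zero_of_hasDerivWithinAt (c := (0 : ℂ)) h0.le
      (f := fun w : ℂ => -Complex.log (1 - w)) (f' := fun w : ℂ => (1 - w)⁻¹)
      (fun w hw => by
        have h2 : HasDerivAt (fun w : ℂ => 1 - w) (0 - 1) w :=
          (hasDerivAt_const w 1).sub (hasDerivAt_id' w)
        have h3 : HasDerivAt (fun w : ℂ => Complex.log (1 - w)) ((1 - w)⁻¹ * (0 - 1)) w :=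
          HasDerivAt.comp (h₂ := Complex.log) w
            (Complex.hasDerivAt_log (one_sub_slit_of_sphere h1 hw)) h2
        have h4 : HasDerivAt (fun w : ℂ => -Complex.log (1 - w)) _ w := h3.neg
        refine (h4.congr_deriv ?_).hasDerivWithinAt
        ring)
    rw [h, add_zero]
  · apply ContinuousOn.circleIntegrable h0.le
    apply ContinuousOn.inv₀ (by fun_prop)
    intro w hw
    rw [sub_zero]
    exact ne_zero_of_sphere h0 hw
  · apply ContinuousOn.circleIntegrable h0.le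
    apply ContinuousOn.inv₀ (by fun_prop)
    intro w hw
    exact one_sub_ne_of_sphere h1 hw

theorem circ_lam (h0 : 0 < r) (h1 : r < 1) (j : ℤ) :
    (∮ w in C(0, r), ((w * (1 - w)) ^ j : ℂ)) = 2 * Real.pi * I * (lam j : ℂ) := by
  have hpos : ∀ n : ℕ, (∮ w in C(0, r), ((w * (1 - w)) ^ (n : ℤ) : ℂ)) = 0 := by
    intro n
    induction n with
    | zero => exact circ_zero h0
    | succ n ih =>
      have h := circ_rec h0 h1 ((n + 1 : ℕ) : ℤ)
      have e : ((n + 1 : ℕ) : ℤ) - 1 = (n : ℤ) := by push_cast; ring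
      rw [e, ih, mul_zero] at h
      have hne : (4 * (((n + 1 : ℕ) : ℤ) : ℂ) + 2) ≠ 0 := by
        norm_cast
      rcases mul_eq_zero.mp h.symm with h' | h'
      · exact absurd h' hne
      · exact h'
  have hneg : ∀ n : ℕ, (∮ w in C(0, r), ((w * (1 - w)) ^ (-(n : ℤ) - 1) : ℂ)) =
      2 * Real.pi * I * (lam (-(n : ℤ) - 1) : ℂ) := by
    intro n
    induction n with
    | zero =>
      have h3 : lam (-((0 : ℕ) : ℤ) - 1) = 1 := by
        show lam (Int.negSucc 0) = 1
        unfold lam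
        simp
      rw [h3]
      simpa using circ_neg_one h0 h1
    | succ n ih =>
      have h := circ_rec h0 h1 (-(n : ℤ) - 1)
      have e : -((n + 1 : ℕ) : ℤ) - 1 = -(n : ℤ) - 1 - 1 := by push_cast; ring
      rw [e]
      have hne : ((-(n : ℤ) - 1 : ℤ) : ℂ) ≠ 0 := by
        have : (-(n : ℤ) - 1 : ℤ) ≠ 0 := by omega
        exact_mod_cast this
      rw [ih] at h
      have hl : (((-(n : ℤ) - 1 : ℤ) : ℂ)) * (lam (-(n : ℤ) - 1 - 1) : ℂ) =
          (4 * (((-(n : ℤ) - 1 : ℤ) : ℂ)) + 2) * (lam (-(n : ℤ) - 1) : ℂ) := by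
        have := lamRec (-(n : ℤ) - 1)
        exact_mod_cast sub_eq_zero.mp this
      apply mul_left_cancel₀ hne
      rw [h]
      linear_combination (-(2 * Real.pi * I)) * hl
  rcases le_or_gt 0 j with h | h
  · obtain ⟨n, rfl⟩ := Int.eq_ofNat_of_zero_le h
    rw [hpos n]
    have : lam (n : ℤ) = 0 := rfl
    rw [this]; simp
  · have e : j = -(((-j - 1).toNat : ℕ) : ℤ) - 1 := by omega
    rw [e]
    exact hneg _

theorem cont_poly (h0 : 0 < r) (h1 : r < 1) (c : ℤ) (N : ℚ[X]) :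
    ContinuousOn (fun w : ℂ => aeval (w * (1 - w)) N * (w * (1 - w)) ^ (-c))
      (Metric.sphere (0 : ℂ) r) := by
  apply ContinuousOn.mul
  · apply Continuous.continuousOn
    exact (Polynomial.continuous_aeval N).comp (by fun_prop)
  · exact cont_y h0 h1 (-c)

theorem circ_Lf (h0 : 0 < r) (h1 : r < 1) (c : ℤ) (N : ℚ[X]) :
    (∮ w in C(0, r), (aeval (w * (1 - w)) N * (w * (1 - w)) ^ (-c) : ℂ)) =
      2 * Real.pi * I * (Lf c N : ℂ) := by
  induction N using Polynomial.induction_on' with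
  | add p q hp hq =>
    have e : (fun w : ℂ => aeval (w * (1 - w)) (p + q) * (w * (1 - w)) ^ (-c)) =
        fun w : ℂ => aeval (w * (1 - w)) p * (w * (1 - w)) ^ (-c) +
          aeval (w * (1 - w)) q * (w * (1 - w)) ^ (-c) := by
      funext w; rw [map_add]; ring
    rw [e, circleIntegral.integral_add ((cont_poly h0 h1 c p).circleIntegrable h0.le)
      ((cont_poly h0 h1 c q).circleIntegrable h0.le), hp, hq, map_add]
    push_cast
    ring
  | monomial i a =>
    have e : Set.EqOn (fun w : ℂ => aeval (w * (1 - w)) (monomial i a) * (w * (1 - w)) ^ (-c))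
        (fun w : ℂ => (a : ℂ) * (w * (1 - w)) ^ ((i : ℤ) - c)) (Metric.sphere (0 : ℂ) r) := by
      intro w hw
      have hy : w * (1 - w) ≠ 0 := mul_ne_zero (ne_zero_of_sphere h0 hw)
        (one_sub_ne_of_sphere h1 hw)
      have e : (w * (1 - w)) ^ ((i : ℤ) - c) = (w * (1 - w)) ^ i * (w * (1 - w)) ^ (-c) := by
        rw [sub_eq_add_neg (i : ℤ) c, zpow_add₀ hy, zpow_natCast]
      simp only [Polynomial.aeval_monomial, e, eq_ratCast]
      ring
    rw [circleIntegral.integral_congr h0.le e, circleIntegral.integral_const_mul,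
      circ_lam h0 h1, Lf_monomial]
    push_cast
    ring

theorem Lf_bound (h0 : 0 < r) (h1 : r < 1) (c : ℤ) (N : ℚ[X]) (B : ℝ)
    (hB : ∀ w ∈ Metric.sphere (0 : ℂ) r, ‖aeval (w * (1 - w)) N * (w * (1 - w)) ^ (-c)‖ ≤ B) :
    |(Lf c N : ℝ)| ≤ r * B := by
  have h := circleIntegral.norm_integral_le_of_norm_le_const h0.le hB
  rw [circ_Lf h0 h1, norm_mul, norm_mul, norm_mul] at h
  simp only [norm_I, Complex.norm_ofNat, Complex.norm_real, Real.norm_eq_abs,
    abs_of_pos Real.pi_pos, mul_one] at h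
  have e : ‖(Lf c N : ℂ)‖ = |(Lf c N : ℝ)| := by
    rw [← Complex.ofReal_ratCast, Complex.norm_real, Real.norm_eq_abs]
  rw [e] at h
  have hpi := Real.pi_pos
  have h3 : 2 * Real.pi * |(Lf c N : ℝ)| ≤ 2 * Real.pi * (r * B) := by linarith
  exact le_of_mul_le_mul_left h3 (by positivity)

end circ

end Vale.Agent.P021
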