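import Vale.Agent.P021.Sup2
import Vale.Agent.P021.Circle

/-!
# P021: the growth bounds
-/

open Complex Polynomial

namespace Vale.Agent.P021

/-! ### the circle -/

theorem circ_forms (x y : ℝ) (s : ℝ) (hs : x ^ 2 + y ^ 2 = s) :
    na ⟨x, y⟩ = (1 - 4 * x + 4 * s) ^ 2 ∧
    nb ⟨x, y⟩ = (25 * s ^ 2 + 16 * s + 4 - 60 * s * x + 40 * x ^ 2 - 24 * x) *
      (25 * s ^ 2 + 6 * s + 1 - 40 * s * x + 20 * x ^ 2 - 8 * x) ∧
    nc ⟨x, y⟩ = s * (1 - 2 * x + s) := by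
  refine ⟨?_, ?_, ?_⟩
  · rw [na_eq, ← hs]; ring
  · rw [nb_eq, ← hs]
    congr 1
    · ring
    · ring
  · rw [nc_eq, ← hs]; ring

theorem pow_aux (p m : ℝ) : (p ^ 4) ^ 1800 * (m ^ 2) ^ 3600 = ((p * m) ^ 3600) ^ 2 := by ring

theorem pow_aux2 (q E : ℝ) : (q ^ 5399 * E) ^ 2 = (q ^ 2) ^ 5399 * E ^ 2 := by ring

theorem circ_num : ((57 / 35 : ℝ) ^ 4) ^ 1800 *
    ((1073 / 245 * (674 / 245) : ℝ) ^ 2) ^ 3600 ≤
    ((506 / 1225 : ℝ) ^ 2) ^ 5399 * Real.exp 15489.4482 ^ 2 := by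
  have h := num_big_real 41222514 506 2100875 1225 (10 ^ 10) 3600 5399 15489
    27182818283 15654 num_big_nat (by norm_num) (by norm_num) (by norm_num)
    (Real.exp 15489.4482) exp_big_bound
  rw [pow_aux, ← pow_aux2]
  have e : (57 / 35 : ℝ) * (1073 / 245 * (674 / 245)) =
      ((41222514 : ℕ) : ℝ) / ((2100875 : ℕ) : ℝ) := by
    push_cast; norm_num
  have e2 : (506 / 1225 : ℝ) = ((506 : ℕ) : ℝ) / ((1225 : ℕ) : ℝ) := by push_cast; rfl
  rw [e, e2]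
  exact pow_le_pow_left₀ (by positivity) h 2

theorem circ_bound (w : ℂ) (hw : w ∈ Metric.sphere (0 : ℂ) (11 / 35)) :
    na w ^ 1800 * nb w ^ 3600 ≤ nc w ^ 5399 * Real.exp 15489.4482 ^ 2 ∧ 1 / 100 ≤ nc w ∧
      nc w ≤ 100 := by
  obtain ⟨x, y⟩ := w
  rw [mem_sphere_iff_norm, sub_zero] at hw
  have hs : x ^ 2 + y ^ 2 = 121 / 1225 := by
    have h := Complex.normSq_eq_norm_sq (⟨x, y⟩ : ℂ)
    rw [hw, Complex.normSq_apply] at h
    simp only at h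
    nlinarith
  obtain ⟨e1, e2, e3⟩ := circ_forms x y _ hs
  have hx : x ^ 2 ≤ (11 / 35) ^ 2 := by nlinarith [sq_nonneg y]
  have hx1 : x ≤ 11 / 35 := by nlinarith
  have hx2 : -(11 / 35) ≤ x := by nlinarith
  obtain ⟨t, ht⟩ : ∃ t, t = (x * (35 / 11) + 1) / 2 := ⟨_, rfl⟩
  have ht0 : 0 ≤ t := by rw [ht]; linarith
  have ht1 : t ≤ 1 := by rw [ht]; linarith
  have hxt : x = 11 / 35 * (2 * t - 1) := by rw [ht]; ring
  have f1 : na ⟨x, y⟩ = (qd 3249 (-3080) 0 t / 1225) ^ 2 := by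
    rw [e1, hxt]; unfold qd; ring
  have f2 : nb ⟨x, y⟩ = (qd 1151329 (-2077768) 948640 t / 60025) *
      (qd 454276 (-925232) 474320 t / 60025) := by
    rw [e2, hxt]; unfold qd; ring
  have f3 : nc ⟨x, y⟩ = 121 / 1225 * (qd 2116 (-1540) 0 t / 1225) := by
    rw [e3, hxt]; unfold qd; ring
  have q1 : 0 < qd 3249 (-3080) 0 t :=
    qd_pos (by norm_num) (by norm_num) (by norm_num) ht0 ht1
  have q2 : 0 < qd 1151329 (-2077768) 948640 t :=
    qd_pos (by norm_num) (by norm_num) (by norm_num) ht0 ht1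
  have q3 : 0 < qd 454276 (-925232) 474320 t := by
    unfold qd; nlinarith [sq_nonneg (t - 9753 / 10000)]
  have q4 : 0 < qd 2116 (-1540) 0 t :=
    qd_pos (by norm_num) (by norm_num) (by norm_num) ht0 ht1
  have hm := circ_mono ht0 ht1
  refine ⟨?_, ?_, ?_⟩
  · refine combine (a0 := (57 / 35) ^ 4) (b0 := (1073 / 245 * (674 / 245)) ^ 2)
      (c0 := (506 / 1225) ^ 2) ?_ ?_ ?_ (by norm_num) (by norm_num) (by norm_num)
      (by positivity) ?_ circ_num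
    · rw [f1]; positivity
    · rw [f2]; positivity
    · rw [f3]; positivity
    · have g1 : (57 / 35 : ℝ) ^ 4 = (qd 3249 (-3080) 0 0 / 1225) ^ 2 := by
        unfold qd; norm_num
      have g2 : (1073 / 245 * (674 / 245) : ℝ) ^ 2 =
          (qd 1151329 (-2077768) 948640 0 / 60025) *
          (qd 454276 (-925232) 474320 0 / 60025) := by
        unfold qd; norm_num
      have g3 : (506 / 1225 : ℝ) ^ 2 =
          121 / 1225 * (qd 2116 (-1540) 0 0 / 1225) := by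
        unfold qd; norm_num
      have r1 : 0 < qd 3249 (-3080) 0 0 := by unfold qd; norm_num
      have r2 : 0 < qd 1151329 (-2077768) 948640 0 := by unfold qd; norm_num
      have r3 : 0 < qd 454276 (-925232) 474320 0 := by unfold qd; norm_num
      have r4 : 0 < qd 2116 (-1540) 0 0 := by unfold qd; norm_num
      rw [f1, f2, f3, g1, g2, g3]
      rw [Real.log_pow _ 2, Real.log_pow _ 2,
        Real.log_mul (by positivity) (by positivity), Real.log_mul (by positivity) (by positivity),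
        Real.log_mul (by positivity) (by positivity), Real.log_mul (by positivity) (by positivity),
        Real.log_div q1.ne' (by norm_num), Real.log_div q2.ne' (by norm_num),
        Real.log_div q3.ne' (by norm_num), Real.log_div q4.ne' (by norm_num),
        Real.log_div r1.ne' (by norm_num), Real.log_div r2.ne' (by norm_num),
        Real.log_div r3.ne' (by norm_num), Real.log_div r4.ne' (by norm_num)]
      push_cast
      linarith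
  · rw [e3]; nlinarith
  · rw [e3]; nlinarith

/-! ### the bound for `G` -/

theorem aeval_NQ (y : ℂ) (v : ℕ) :
    aeval y (NQ v) = (1 - 4 * y) ^ v * (25 * y ^ 2 - 14 * y + 2) ^ (2 * v) := by
  unfold NQ NZ
  simp [Polynomial.aeval_def]

theorem pow_gen (a b : ℝ) (p q n : ℕ) : a ^ (p * n) * b ^ (q * n) = (a ^ p * b ^ q) ^ n := by
  rw [mul_pow, ← pow_mul, ← pow_mul]

theorem pow_gen2 (r E : ℝ) (p n : ℕ) : r ^ (p * n) * E ^ n = (r ^ p * E) ^ n := by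
  rw [mul_pow, ← pow_mul]

theorem G_bound (w : ℂ) (E : ℝ) (hE : 0 < E) (h : na w ^ 1800 * nb w ^ 3600 ≤ nc w ^ 5399 * E ^ 2)
    (h1 : 1 / 100 ≤ nc w) (h2 : nc w ≤ 100) (n k : ℕ) (hk : k ≤ 2) (c : ℤ)
    (hc : c = 5399 * n + 1 - k) :
    ‖aeval (w * (1 - w)) (NQ (1800 * n)) * (w * (1 - w)) ^ (-c)‖ ≤ 10 * E ^ n := by
  obtain ⟨y, hy⟩ : ∃ y, y = w * (1 - w) := ⟨_, rfl⟩
  have hna : na w = ‖1 - 4 * y‖ ^ 2 := by rw [hy]; unfold na; rw [Complex.normSq_eq_norm_sq]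
  have hnb : nb w = ‖25 * y ^ 2 - 14 * y + 2‖ ^ 2 := by
    rw [hy]; unfold nb; rw [Complex.normSq_eq_norm_sq]
  have hnc : nc w = ‖y‖ ^ 2 := by rw [hy]; unfold nc; rw [Complex.normSq_eq_norm_sq]
  rw [← hy, aeval_NQ]
  rw [hna, hnb, hnc] at h
  rw [hnc] at h1 h2
  obtain ⟨a, ha⟩ : ∃ a, a = ‖1 - 4 * y‖ := ⟨_, rfl⟩
  obtain ⟨b, hb⟩ : ∃ b, b = ‖25 * y ^ 2 - 14 * y + 2‖ := ⟨_, rfl⟩
  obtain ⟨r, hr⟩ : ∃ r, r = ‖y‖ := ⟨_, rfl⟩
  have ha0 : 0 ≤ a := by rw [ha]; exact norm_nonneg _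
  have hb0 : 0 ≤ b := by rw [hb]; exact norm_nonneg _
  have hr0 : 0 ≤ r := by rw [hr]; exact norm_nonneg _
  rw [← ha, ← hb, ← hr] at h
  rw [← hr] at h1 h2
  have hr1 : 1 / 10 ≤ r := by nlinarith
  have hr2 : r ≤ 10 := by nlinarith
  have hrpos : 0 < r := by linarith
  have h3 : a ^ 1800 * b ^ 3600 ≤ r ^ 5399 * E := by
    have e1 : (a ^ 2) ^ 1800 * (b ^ 2) ^ 3600 = (a ^ 1800 * b ^ 3600) ^ 2 := by ring
    have e2 : (r ^ 2) ^ 5399 * E ^ 2 = (r ^ 5399 * E) ^ 2 := by ring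
    rw [e1, e2] at h
    have hl : 0 ≤ a ^ 1800 * b ^ 3600 := mul_nonneg (pow_nonneg ha0 _) (pow_nonneg hb0 _)
    have hr' : 0 ≤ r ^ 5399 * E := mul_nonneg (pow_nonneg hr0 _) hE.le
    exact (sq_le_sq₀ hl hr').mp h
  rw [norm_mul, norm_mul, norm_pow, norm_pow, norm_zpow, ← ha, ← hb, ← hr]
  have h4 : a ^ (1800 * n) * b ^ (2 * (1800 * n)) ≤ r ^ (5399 * n) * E ^ n := by
    have e0 : 2 * (1800 * n) = 3600 * n := by omega
    rw [e0, pow_gen a b 1800 3600 n, pow_gen2 r E 5399 n]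
    exact pow_le_pow_left₀ (mul_nonneg (pow_nonneg ha0 _) (pow_nonneg hb0 _)) h3 n
  have h5 : r ^ (-c) = (r ^ (5399 * n))⁻¹ * r ^ ((k : ℤ) - 1) := by
    have e : -c = -((5399 * n : ℕ) : ℤ) + ((k : ℤ) - 1) := by rw [hc]; push_cast; ring
    rw [e, zpow_add₀ hrpos.ne', zpow_neg]
    congr 2
  have h6 : r ^ ((k : ℤ) - 1) ≤ 10 := by
    interval_cases k
    · norm_num
      rw [inv_le_comm₀ hrpos (by norm_num)]
      norm_num at hr1 ⊢
      exact hr1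
    · norm_num
    · norm_num
      exact hr2
  rw [h5]
  have h7 : 0 < r ^ (5399 * n) := by positivity
  calc a ^ (1800 * n) * b ^ (2 * (1800 * n)) * ((r ^ (5399 * n))⁻¹ * r ^ ((k : ℤ) - 1))
      ≤ (r ^ (5399 * n) * E ^ n) * ((r ^ (5399 * n))⁻¹ * r ^ ((k : ℤ) - 1)) :=
        mul_le_mul_of_nonneg_right h4 (by positivity)
    _ = r ^ ((k : ℤ) - 1) * E ^ n := by field_simp
    _ ≤ 10 * E ^ n := mul_le_mul_of_nonneg_right h6 (by positivity)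

/-! ### the small linear forms -/

noncomputable def ws : ℂ := ⟨53535 / 100000, 14305 / 100000⟩

theorem half_eq : (1 / 2 : ℂ) = ⟨1 / 2, 0⟩ := by
  have : ((1 : ℂ) / 2) = ((1 / 2 : ℝ) : ℂ) := by push_cast; ring
  rw [this]; rfl

theorem w0_eq : w0 = ⟨3 / 5, 1 / 5⟩ := Complex.ext w0_re w0_im

theorem mem_seg1 {w : ℂ} (hw : w ∈ segment ℝ (1 / 2 : ℂ) ws) :
    ∃ θ : ℝ, 0 ≤ θ ∧ θ ≤ 1 ∧ w = ⟨1 / 2 + θ * (3535 / 100000), θ * (14305 / 100000)⟩ := by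
  rw [segment_eq_image, half_eq] at hw
  obtain ⟨θ, ⟨h0, h1⟩, rfl⟩ := hw
  refine ⟨θ, h0, h1, ?_⟩
  apply Complex.ext
  · simp [ws]; ring
  · simp [ws]

theorem mem_seg2 {w : ℂ} (hw : w ∈ segment ℝ ws w0) :
    ∃ t : ℝ, 0 ≤ t ∧ t ≤ 1 ∧ w = zt t := by
  rw [segment_eq_image, w0_eq] at hw
  obtain ⟨θ, ⟨h0, h1⟩, rfl⟩ := hw
  refine ⟨θ, h0, h1, ?_⟩
  apply Complex.ext
  · simp [ws, zt]; ring
  · simp [ws, zt]; ring

theorem dom_of_re {w : ℂ} (h0 : 0 < w.re) (h1 : w.re < 1) : Dom w := by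
  refine ⟨Or.inl h0, Or.inl ?_⟩
  rw [Complex.sub_re, Complex.one_re]; linarith

theorem exp_sq_small : Real.exp (-(17682.462)) = Real.exp (-(8841.231)) ^ 2 := by
  rw [← Real.exp_nat_mul]; congr 1; norm_num

theorem seg1_all {w : ℂ} (hw : w ∈ segment ℝ (1 / 2 : ℂ) ws) :
    Dom w ∧ na w ^ 1800 * nb w ^ 3600 ≤ nc w ^ 5399 * Real.exp (-(8841.231)) ^ 2 ∧
      1 / 100 ≤ nc w ∧ nc w ≤ 100 := by
  obtain ⟨θ, h0, h1, hw⟩ := mem_seg1 hw
  refine ⟨?_, ?_, ?_, ?_⟩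
  · apply dom_of_re
    · rw [hw]; simp only; positivity
    · rw [hw]; simp only; linarith
  · rw [← exp_sq_small]; exact seg1_bound h0 h1 w hw
  · rw [hw, seg1_nc]
    unfold Qc qd
    have : 0 ≤ θ ^ 2 := sq_nonneg _
    rw [le_div_iff₀ (by norm_num)]
    nlinarith [sq_nonneg (θ ^ 2)]
  · rw [hw, seg1_nc]
    unfold Qc qd
    have h2 : θ ^ 2 ≤ 1 := pow_le_one₀ h0 h1
    have h3 : (θ ^ 2) ^ 2 ≤ 1 := pow_le_one₀ (sq_nonneg _) h2
    rw [div_le_iff₀ (by norm_num)]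
    nlinarith

theorem seg2_all {w : ℂ} (hw : w ∈ segment ℝ ws w0) :
    Dom w ∧ na w ^ 1800 * nb w ^ 3600 ≤ nc w ^ 5399 * Real.exp (-(8841.231)) ^ 2 ∧
      1 / 100 ≤ nc w ∧ nc w ≤ 100 := by
  obtain ⟨t, h0, h1, hw⟩ := mem_seg2 hw
  have b5 : 12282517 ≤ qd 12282517 3420566 296917 t := by unfold qd; nlinarith [sq_nonneg t]
  have b5' : qd 12282517 3420566 296917 t ≤ 16000000 := by unfold qd; nlinarith
  have b6 : 7600000 ≤ qd 9454517 (-1751434) 296917 t := by unfold qd; nlinarith [sq_nonneg t]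
  have b6' : qd 9454517 (-1751434) 296917 t ≤ 9800000 := by unfold qd; nlinarith
  refine ⟨?_, ?_, ?_, ?_⟩
  · apply dom_of_re
    · rw [hw]; unfold zt; simp only; linarith
    · rw [hw]; unfold zt; simp only; linarith
  · rw [← exp_sq_small]; exact seg2_bound h0 h1 w hw
  · rw [hw, seg2_nc]
    have := mul_le_mul b5 b6 (by norm_num) (by linarith)
    linarith
  · rw [hw, seg2_nc]
    have := mul_le_mul b5' b6' (by linarith) (by norm_num)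
    linarith

theorem seg_len {a b : ℂ} {Ψ : ℂ → ℂ} {G : ℂ → ℂ} {B : ℝ}
    (hd : ∀ w ∈ segment ℝ a b, HasDerivAt Ψ (G w) w) (hB : ∀ w ∈ segment ℝ a b, ‖G w‖ ≤ B) :
    ‖Ψ b - Ψ a‖ ≤ B * ‖b - a‖ :=
  Convex.norm_image_sub_le_of_norm_deriv_le (fun w hw => (hd w hw).differentiableAt)
    (fun w hw => by rw [(hd w hw).deriv]; exact hB w hw) (convex_segment a b)
    (left_mem_segment ℝ a b) (right_mem_segment ℝ a b)

theorem growth_small_of (hr : RhoRec) : ∃ K : ℝ, 0 < K ∧ ∀ n k : ℕ, k ≤ 2 → ∀ c : ℤ,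
    c = 5399 * n + 1 - k →
    |(Lf c (NQ (1800 * n)) : ℝ) * (Real.pi / 4) + (Rf c (NQ (1800 * n)) : ℝ)| ≤
      K * Real.exp (-(4.911795 * 1800 * n)) := by
  refine ⟨10 * (‖w0 - ws‖ + ‖ws - 1 / 2‖ + 1), by positivity, fun n k hk c hc => ?_⟩
  obtain ⟨Ψ, hΨ, him⟩ := prim_poly hr lamRec c (NQ (1800 * n))
  rw [← him]
  have h1 := seg_len (a := 1 / 2) (b := ws) (Ψ := Ψ) (B := 10 * Real.exp (-(8841.231)) ^ n)
    (fun w hw => hΨ w (seg1_all hw).1) (fun w hw => by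
      obtain ⟨_, g1, g2, g3⟩ := seg1_all hw
      exact G_bound w _ (Real.exp_pos _) g1 g2 g3 n k hk c hc)
  have h2 := seg_len (a := ws) (b := w0) (Ψ := Ψ) (B := 10 * Real.exp (-(8841.231)) ^ n)
    (fun w hw => hΨ w (seg2_all hw).1) (fun w hw => by
      obtain ⟨_, g1, g2, g3⟩ := seg2_all hw
      exact G_bound w _ (Real.exp_pos _) g1 g2 g3 n k hk c hc)
  have h3 : ‖Ψ w0 - Ψ (1 / 2)‖ ≤ ‖Ψ w0 - Ψ ws‖ + ‖Ψ ws - Ψ (1 / 2)‖ := by
    have : Ψ w0 - Ψ (1 / 2) = (Ψ w0 - Ψ ws) + (Ψ ws - Ψ (1 / 2)) := by ring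
    rw [this]; exact norm_add_le _ _
  have e : Real.exp (-(4.911795 * 1800 * n)) = Real.exp (-(8841.231)) ^ n := by
    rw [← Real.exp_nat_mul]; congr 1; ring
  rw [e]
  have hE : 0 ≤ Real.exp (-(8841.231)) ^ n := pow_nonneg (Real.exp_pos _).le n
  have h4 := Complex.abs_im_le_norm (Ψ w0 - Ψ (1 / 2))
  nlinarith

theorem growth_big : ∃ K : ℝ, 0 < K ∧ ∀ n k : ℕ, k ≤ 2 → ∀ c : ℤ, c = 5399 * n + 1 - k →
    |(Lf c (NQ (1800 * n)) : ℝ)| ≤ K * Real.exp (8.605249 * 1800 * n) := by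
  refine ⟨10, by norm_num, fun n k hk c hc => ?_⟩
  have h := Lf_bound (r := 11 / 35) (by norm_num) (by norm_num) c (NQ (1800 * n))
    (10 * Real.exp 15489.4482 ^ n) (fun w hw => by
      obtain ⟨h1, h2, h3⟩ := circ_bound w hw
      exact G_bound w _ (Real.exp_pos _) h1 h2 h3 n k hk c hc)
  refine h.trans ?_
  have e : Real.exp (8.605249 * 1800 * n) = Real.exp 15489.4482 ^ n := by
    rw [← Real.exp_nat_mul]; congr 1; ring
  rw [e]
  have : 0 < Real.exp 15489.4482 ^ n := by positivity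
  nlinarith

end Vale.Agent.P021
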