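import Mathlib

open Polynomial

namespace Vale.Agent.P021

/-- imaginary part of `(3+i)^m` -/
def g31 (m : ℕ) : ℤ := ((⟨3, 1⟩ : GaussianInt) ^ m).im

/-- imaginary part of `(3-i)^m` -/
def g3m (m : ℕ) : ℤ := ((⟨3, -1⟩ : GaussianInt) ^ m).im

/-- imaginary part of `(2+i)^m` -/
def g21 (m : ℕ) : ℤ := ((⟨2, 1⟩ : GaussianInt) ^ m).im

/-- rational part of `(1/(2i)) * ∫ (w(1-w))^j dw` over the path from `conj w0` to `w0` -/
def rho : ℤ → ℚ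
  | Int.ofNat j => ∑ k ∈ Finset.range (j + 1),
      (-1 : ℚ) ^ k * (j.choose k : ℚ) * (g31 (j + k + 1) : ℚ) / ((j + k + 1 : ℕ) * 5 ^ (j + k + 1))
  | Int.negSucc l => ∑ m ∈ Finset.range l,
      ((2 * l - m - 1).choose l : ℚ) / ((m + 1 : ℕ) : ℚ) *
        ((g21 (m + 1) : ℚ) - (g3m (m + 1) : ℚ) / 2 ^ (m + 1))

/-- coefficient of the logarithm -/
def lam : ℤ → ℚ
  | Int.ofNat _ => 0
  | Int.negSucc l => ((2 * l).choose l : ℚ)

/-- `beta j = Im ((1 - 2 w0) * y0 ^ j)`, where `w0 = (3+i)/5`, `y0 = w0 (1 - w0) = (7-i)/25` -/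
def beta : ℤ → ℚ
  | Int.ofNat j => ((⟨-1, -2⟩ * (⟨7, -1⟩ : GaussianInt) ^ j).im : ℚ) / (5 * 25 ^ j)
  | Int.negSucc l => ((⟨-1, -2⟩ * (⟨7, 1⟩ : GaussianInt) ^ (l + 1)).im : ℚ) / (5 * 2 ^ (l + 1))

/-- rational part functional: `N ↦` rational part of `N(y) y^{-c}` -/
noncomputable def Rf (c : ℤ) : ℚ[X] →ₗ[ℚ] ℚ :=
  Polynomial.lsum fun i => (LinearMap.toSpanSingleton ℚ ℚ (rho (i - c)))

/-- logarithmic part functional -/
noncomputable def Lf (c : ℤ) : ℚ[X] →ₗ[ℚ] ℚ :=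
  Polynomial.lsum fun i => (LinearMap.toSpanSingleton ℚ ℚ (lam (i - c)))

/-- boundary functional -/
noncomputable def Bf (c : ℤ) : ℚ[X] →ₗ[ℚ] ℚ :=
  Polynomial.lsum fun i => (LinearMap.toSpanSingleton ℚ ℚ (beta (i - c)))

/-- `DD c N` is the polynomial with
`d/dw ((1-2w) N(y) y^{-c}) = DD c N (y) * y^{-c-1}`, `y = w(1-w)` -/
noncomputable def DD (c : ℤ) (N : ℚ[X]) : ℚ[X] :=
  -2 * X * N + (1 - 4 * X) * (X * derivative N - C (c : ℚ) * N)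

/-- the main numerator polynomial over `ℤ` -/
noncomputable def NZ (v : ℕ) : ℤ[X] := (1 - 4 * X) ^ v * (25 * X ^ 2 - 14 * X + 2) ^ (2 * v)

/-- the main numerator polynomial over `ℚ` -/
noncomputable def NQ (v : ℕ) : ℚ[X] := (NZ v).map (Int.castRingHom ℚ)

noncomputable def w0 : ℂ := (3 + Complex.I) / 5

noncomputable def y0 : ℂ := (7 - Complex.I) / 25

/-- lcm of `1, ..., n` -/
def lcmUpto (n : ℕ) : ℕ := (Finset.Icc 1 n).lcm id

/-- the saved primes for the parameters `T, n` -/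
def Saved (T n p : ℕ) : Prop :=
  p.Prime ∧ 7 ≤ p ∧ 100 * T * n < p ^ 2 ∧ ∃ a g : ℕ, a * p ≤ 2 * T * n ∧ 3 * T * n + 1 ≤ g * p + n ∧
    ((a % 2 = 1 ∧ 4 * T * n + 2 * n + 4 + 2 * g * p ≤ (5 * a + 2) * p) ∨
     (a % 2 = 0 ∧ 4 * T * n + 2 * n + 4 + 2 * g * p ≤ (5 * a + 1) * p))

theorem Rf_monomial (c : ℤ) (i : ℕ) (a : ℚ) : Rf c (monomial i a) = a * rho (i - c) := by
  simp [Rf, Polynomial.lsum]

theorem Lf_monomial (c : ℤ) (i : ℕ) (a : ℚ) : Lf c (monomial i a) = a * lam (i - c) := by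
  simp [Lf, Polynomial.lsum]

theorem Bf_monomial (c : ℤ) (i : ℕ) (a : ℚ) : Bf c (monomial i a) = a * beta (i - c) := by
  simp [Bf, Polynomial.lsum]

theorem Rf_eq_sum (c : ℤ) (N : ℚ[X]) :
    Rf c N = ∑ i ∈ Finset.range (N.natDegree + 1), N.coeff i * rho (i - c) := by
  conv_lhs => rw [N.as_sum_range, map_sum]
  simp [Rf_monomial]

theorem Lf_eq_sum (c : ℤ) (N : ℚ[X]) :
    Lf c N = ∑ i ∈ Finset.range (N.natDegree + 1), N.coeff i * lam (i - c) := by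
  conv_lhs => rw [N.as_sum_range, map_sum]
  simp [Lf_monomial]

theorem Bf_eq_sum (c : ℤ) (N : ℚ[X]) :
    Bf c N = ∑ i ∈ Finset.range (N.natDegree + 1), N.coeff i * beta (i - c) := by
  conv_lhs => rw [N.as_sum_range, map_sum]
  simp [Bf_monomial]

end Vale.Agent.P021
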