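import Vale.Agent.P021.Link

/-!
# P021: the recurrences
-/

open Polynomial Complex

namespace Vale.Agent.P021

/-- partial fractions -/
theorem pf (a b : ℂ) (h : a * b = a + b) : ∀ p q : ℕ, a ^ (p + 1) * b ^ (q + 1) =
    ∑ i ∈ Finset.range (p + 1), ((p + q - i).choose q : ℂ) * a ^ (i + 1) +
      ∑ i ∈ Finset.range (q + 1), ((p + q - i).choose p : ℂ) * b ^ (i + 1)
  | 0, 0 => by simp [h]
  | 0, q + 1 => by
    have ih := pf a b h 0 q
    have e1 : a ^ (0 + 1) * b ^ (q + 1 + 1) = (a ^ (0 + 1) * b ^ (q + 1)) + b ^ (q + 1 + 1) := by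
      calc a ^ (0 + 1) * b ^ (q + 1 + 1) = (a * b) * b ^ (q + 1) := by ring
        _ = _ := by rw [h]; ring
    rw [e1, ih, Finset.sum_range_succ _ (q + 1)]
    simp
    ring
  | p + 1, 0 => by
    have ih := pf a b h p 0
    have e1 : a ^ (p + 1 + 1) * b ^ (0 + 1) = (a ^ (p + 1) * b ^ (0 + 1)) + a ^ (p + 1 + 1) := by
      calc a ^ (p + 1 + 1) * b ^ (0 + 1) = (a * b) * a ^ (p + 1) := by ring
        _ = _ := by rw [h]; ring
    rw [e1, ih, Finset.sum_range_succ _ (p + 1)]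
    simp
    ring
  | p + 1, q + 1 => by
    have ih1 := pf a b h (p + 1) q
    have ih2 := pf a b h p (q + 1)
    have e1 : a ^ (p + 1 + 1) * b ^ (q + 1 + 1) =
        (a ^ (p + 1 + 1) * b ^ (q + 1)) + (a ^ (p + 1) * b ^ (q + 1 + 1)) := by
      calc a ^ (p + 1 + 1) * b ^ (q + 1 + 1) = (a * b) * (a ^ (p + 1) * b ^ (q + 1)) := by ring
        _ = _ := by rw [h]; ring
    have s1 : ∑ i ∈ Finset.range (p + 1 + 1), ((p + 1 + (q + 1) - i).choose (q + 1) : ℂ) * a ^ (i + 1)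
        = ∑ i ∈ Finset.range (p + 1 + 1), ((p + 1 + q - i).choose q : ℂ) * a ^ (i + 1) +
          ∑ i ∈ Finset.range (p + 1), ((p + (q + 1) - i).choose (q + 1) : ℂ) * a ^ (i + 1) := by
      rw [Finset.sum_range_succ _ (p + 1), Finset.sum_range_succ _ (p + 1)]
      have h3 : ∑ i ∈ Finset.range (p + 1), ((p + 1 + (q + 1) - i).choose (q + 1) : ℂ) * a ^ (i + 1)
          = ∑ i ∈ Finset.range (p + 1), ((p + 1 + q - i).choose q : ℂ) * a ^ (i + 1) +
          ∑ i ∈ Finset.range (p + 1), ((p + (q + 1) - i).choose (q + 1) : ℂ) * a ^ (i + 1) := by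
        rw [← Finset.sum_add_distrib]
        refine Finset.sum_congr rfl fun i hi => ?_
        rw [Finset.mem_range] at hi
        have e2 : p + 1 + (q + 1) - i = (p + 1 + q - i) + 1 := by omega
        have e3 : p + (q + 1) - i = p + 1 + q - i := by omega
        rw [e2, e3, Nat.choose_succ_succ]
        push_cast
        ring
      rw [h3]
      have e4 : p + 1 + (q + 1) - (p + 1) = q + 1 := by omega
      have e5 : p + 1 + q - (p + 1) = q := by omega
      rw [e4, e5, Nat.choose_self, Nat.choose_self]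
      ring
    have s2 : ∑ i ∈ Finset.range (q + 1 + 1), ((p + 1 + (q + 1) - i).choose (p + 1) : ℂ) * b ^ (i + 1)
        = ∑ i ∈ Finset.range (q + 1), ((p + 1 + q - i).choose (p + 1) : ℂ) * b ^ (i + 1) +
          ∑ i ∈ Finset.range (q + 1 + 1), ((p + (q + 1) - i).choose p : ℂ) * b ^ (i + 1) := by
      rw [Finset.sum_range_succ _ (q + 1), Finset.sum_range_succ _ (q + 1)]
      have h3 : ∑ i ∈ Finset.range (q + 1), ((p + 1 + (q + 1) - i).choose (p + 1) : ℂ) * b ^ (i + 1)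
          = ∑ i ∈ Finset.range (q + 1), ((p + 1 + q - i).choose (p + 1) : ℂ) * b ^ (i + 1) +
          ∑ i ∈ Finset.range (q + 1), ((p + (q + 1) - i).choose p : ℂ) * b ^ (i + 1) := by
        rw [← Finset.sum_add_distrib]
        refine Finset.sum_congr rfl fun i hi => ?_
        rw [Finset.mem_range] at hi
        have e2 : p + 1 + (q + 1) - i = (p + 1 + q - i) + 1 := by omega
        have e3 : p + (q + 1) - i = p + 1 + q - i := by omega
        rw [e2, e3, Nat.choose_succ_succ]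
        push_cast
        ring
      rw [h3]
      have e4 : p + 1 + (q + 1) - (q + 1) = p + 1 := by omega
      have e5 : p + (q + 1) - (q + 1) = p := by omega
      rw [e4, e5, Nat.choose_self, Nat.choose_self]
      ring
    rw [e1, ih1, ih2, s1, s2]
    ring

/-! ### negative exponents -/

/-- the rational function part -/
noncomputable def RN (l : ℕ) (w : ℂ) : ℂ := ∑ m ∈ Finset.range l,
  ((2 * l - m - 1).choose l : ℂ) / ((m + 1 : ℕ) : ℂ) * (((1 - w)⁻¹) ^ (m + 1) - (w⁻¹) ^ (m + 1))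

theorem RN_half (l : ℕ) : RN l (1 / 2) = 0 := by
  unfold RN
  refine Finset.sum_eq_zero fun m _ => ?_
  have : (1 - (1 / 2 : ℂ)) = 1 / 2 := by norm_num
  rw [this]; ring

theorem RN_deriv (l : ℕ) (w : ℂ) (hw : w ≠ 0) (hw1 : 1 - w ≠ 0) :
    HasDerivAt (RN l) ((w * (1 - w)) ^ (-(l + 1 : ℤ)) -
      ((2 * l).choose l : ℂ) * (w⁻¹ + (1 - w)⁻¹)) w := by
  have hab : w⁻¹ * (1 - w)⁻¹ = w⁻¹ + (1 - w)⁻¹ := by field_simp; ring
  have hpf := pf w⁻¹ (1 - w)⁻¹ hab l l
  have h1 : HasDerivAt (fun w : ℂ => 1 - w) (0 - 1) w :=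
    (hasDerivAt_const w 1).sub (hasDerivAt_id' w)
  have h2 : HasDerivAt (fun w : ℂ => (1 - w)⁻¹) (-(0 - 1) / (1 - w) ^ 2) w := h1.inv hw1
  have h3 : HasDerivAt (fun w : ℂ => w⁻¹) (-(w ^ 2)⁻¹) w := hasDerivAt_inv hw
  have h4 : HasDerivAt (RN l) (∑ m ∈ Finset.range l,
      ((2 * l - m - 1).choose l : ℂ) / ((m + 1 : ℕ) : ℂ) *
        (((m + 1 : ℕ) : ℂ) * ((1 - w)⁻¹) ^ (m + 1 - 1) * (-(0 - 1) / (1 - w) ^ 2)
          - ((m + 1 : ℕ) : ℂ) * (w⁻¹) ^ (m + 1 - 1) * (-(w ^ 2)⁻¹))) w := by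
    unfold RN
    refine HasDerivAt.fun_sum fun m _ => ?_
    exact ((h2.fun_pow (m + 1)).sub (h3.fun_pow (m + 1))).const_mul _
  refine h4.congr_deriv ?_
  have h5 : (w * (1 - w)) ^ (-(l + 1 : ℤ)) = w⁻¹ ^ (l + 1) * (1 - w)⁻¹ ^ (l + 1) := by
    have e : (-(l + 1 : ℤ)) = -((l + 1 : ℕ) : ℤ) := by push_cast; ring
    rw [e, zpow_neg, zpow_natCast, mul_pow, mul_inv, inv_pow, inv_pow]
  rw [h5, hpf, Finset.sum_range_succ', Finset.sum_range_succ']
  have e0 : l + l - 0 = 2 * l := by omega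
  rw [e0]
  have h6 : ∀ m ∈ Finset.range l, ((2 * l - m - 1).choose l : ℂ) / ((m + 1 : ℕ) : ℂ) *
        (((m + 1 : ℕ) : ℂ) * ((1 - w)⁻¹) ^ (m + 1 - 1) * (-(0 - 1) / (1 - w) ^ 2)
          - ((m + 1 : ℕ) : ℂ) * (w⁻¹) ^ (m + 1 - 1) * (-(w ^ 2)⁻¹)) =
      ((l + l - (m + 1)).choose l : ℂ) * w⁻¹ ^ (m + 1 + 1) +
        ((l + l - (m + 1)).choose l : ℂ) * (1 - w)⁻¹ ^ (m + 1 + 1) := by
    intro m _
    have e1 : l + l - (m + 1) = 2 * l - m - 1 := by omega
    have e2 : ((m + 1 : ℕ) : ℂ) ≠ 0 := by exact_mod_cast Nat.succ_ne_zero m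
    rw [e1, Nat.add_sub_cancel]
    have e3 : -(0 - 1) / (1 - w) ^ 2 = (1 - w)⁻¹ ^ 2 := by
      rw [inv_pow, neg_sub, sub_zero, one_div]
    rw [e3, ← inv_pow]
    generalize w⁻¹ = a
    generalize (1 - w)⁻¹ = b
    generalize ((m + 1 : ℕ) : ℂ) = t at e2 ⊢
    field_simp
    ring
  rw [Finset.sum_congr rfl h6, Finset.sum_add_distrib]
  ring

/-- the strip `0 < re w < 1` -/
def Strip : Set ℂ := {w | 0 < w.re ∧ w.re < 1}

theorem strip_open : IsOpen Strip :=
  (isOpen_lt continuous_const Complex.continuous_re).inter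
    (isOpen_lt Complex.continuous_re continuous_const)

theorem strip_convex : Convex ℝ Strip := by
  have h1 : Convex ℝ {w : ℂ | 0 < w.re} := convex_halfSpace_re_gt 0
  have h2 : Convex ℝ {w : ℂ | w.re < 1} := convex_halfSpace_re_lt 1
  exact h1.inter h2

theorem strip_ne {w : ℂ} (h : w ∈ Strip) : w ≠ 0 := by
  rintro rfl
  have := h.1
  simp at this

theorem strip_ne' {w : ℂ} (h : w ∈ Strip) : 1 - w ≠ 0 := by
  intro h0
  have h1 : w = 1 := by linear_combination (-1) * h0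
  have := h.2
  rw [h1] at this
  simp at this

theorem w0_mem : w0 ∈ Strip := by
  refine ⟨?_, ?_⟩ <;> rw [w0_re] <;> norm_num

theorem half_mem : (1 / 2 : ℂ) ∈ Strip := by
  have : ((1 : ℂ) / 2) = ((1 / 2 : ℝ) : ℂ) := by push_cast; ring
  refine ⟨?_, ?_⟩ <;> rw [this, Complex.ofReal_re] <;> norm_num

theorem RN_rec (l : ℕ) (w : ℂ) (hw : w ∈ Strip) :
    -(l + 1 : ℂ) * RN (l + 1) w + (4 * l + 2) * RN l w =
      (1 - 2 * w) * (w * (1 - w)) ^ (-(l + 1 : ℤ)) := by
  set F : ℂ → ℂ := fun w => -(l + 1 : ℂ) * RN (l + 1) w + (4 * l + 2) * RN l w -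
      (1 - 2 * w) * (w * (1 - w)) ^ (-(l + 1 : ℤ)) with hF
  have hd : ∀ w ∈ Strip, HasDerivAt F 0 w := by
    intro w hw
    have h1 := (RN_deriv (l + 1) w (strip_ne hw) (strip_ne' hw)).const_mul (-(l + 1 : ℂ))
    have h2 := (RN_deriv l w (strip_ne hw) (strip_ne' hw)).const_mul (4 * l + 2 : ℂ)
    have h3 := hasDerivAt_key (-(l + 1 : ℤ)) w (strip_ne hw) (strip_ne' hw)
    refine ((h1.add h2).sub h3).congr_deriv ?_
    have hc : (l + 1) * (2 * (l + 1)).choose (l + 1) = 2 * (2 * l + 1) * (2 * l).choose l := by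
      have := Nat.succ_mul_centralBinom_succ l
      rwa [Nat.centralBinom_eq_two_mul_choose, Nat.centralBinom_eq_two_mul_choose] at this
    have hc' : ((l : ℂ) + 1) * ((2 * (l + 1)).choose (l + 1) : ℂ) =
        2 * (2 * l + 1) * ((2 * l).choose l : ℂ) := by exact_mod_cast hc
    have e1 : (-((l : ℤ) + 1) - 1 : ℤ) = -(((l + 1 : ℕ) : ℤ) + 1) := by push_cast; ring
    rw [e1]
    push_cast
    linear_combination (w⁻¹ + (1 - w)⁻¹) * hc'
  have hdiff : DifferentiableOn ℂ F Strip := fun w hw => (hd w hw).differentiableAt.differentiableWithinAt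
  have hz : Set.EqOn (deriv F) 0 Strip := fun w hw => (hd w hw).deriv
  have := strip_open.is_const_of_deriv_eq_zero strip_convex.isPreconnected hdiff hz hw half_mem
  have h0 : F (1 / 2) = 0 := by
    rw [hF]
    simp only [RN_half]
    norm_num
  rw [h0, hF] at this
  exact sub_eq_zero.1 this

theorem inv_w0 : w0⁻¹ = (3 - I) / 2 := by
  have h : w0 * ((3 - I) / 2) = 1 := by
    unfold w0
    have : I * I = -1 := Complex.I_mul_I
    linear_combination (-1 / 10) * this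
  exact (eq_inv_of_mul_eq_one_right h).symm

theorem inv_w1 : (1 - w0)⁻¹ = 2 + I := by
  have h : (1 - w0) * (2 + I) = 1 := by
    rw [one_sub_w0]
    have : I * I = -1 := Complex.I_mul_I
    linear_combination (-1 / 5) * this
  exact (eq_inv_of_mul_eq_one_right h).symm

theorem g21_eq (m : ℕ) : ((2 + I) ^ m).im = (g21 m : ℝ) := by
  have h : (((⟨2, 1⟩ : GaussianInt) ^ m : GaussianInt) : ℂ) = (2 + I) ^ m := by
    rw [map_pow]
    congr 1
    rw [GaussianInt.toComplex_def']; push_cast; ring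
  rw [← h, gauss_im]; rfl

theorem g31_eq (m : ℕ) : ((3 + I) ^ m).im = (g31 m : ℝ) := by
  have h : (((⟨3, 1⟩ : GaussianInt) ^ m : GaussianInt) : ℂ) = (3 + I) ^ m := by
    rw [map_pow]
    congr 1
    rw [GaussianInt.toComplex_def']; push_cast; ring
  rw [← h, gauss_im]; rfl

theorem g3m_eq (m : ℕ) : ((3 - I) ^ m).im = (g3m m : ℝ) := by
  have h : (((⟨3, -1⟩ : GaussianInt) ^ m : GaussianInt) : ℂ) = (3 - I) ^ m := by
    rw [map_pow]
    congr 1
    rw [GaussianInt.toComplex_def']; push_cast; ring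
  rw [← h, gauss_im]; rfl

theorem RN_im (l : ℕ) : (RN l w0).im = ((rho (Int.negSucc l) : ℚ) : ℝ) := by
  unfold RN rho
  rw [inv_w0, inv_w1, Complex.im_sum]
  push_cast
  refine Finset.sum_congr rfl fun m _ => ?_
  have h1 : (((2 * l - m - 1).choose l : ℂ) / ((m : ℂ) + 1)) =
      (((((2 * l - m - 1).choose l : ℝ)) / ((m : ℝ) + 1) : ℝ) : ℂ) := by push_cast; ring
  have h2 : ((3 - I) / 2) ^ (m + 1) = (3 - I) ^ (m + 1) / ((2 ^ (m + 1) : ℝ) : ℂ) := by
    rw [div_pow]; push_cast; ring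
  rw [h1, Complex.im_ofReal_mul, Complex.sub_im, g21_eq, h2, Complex.div_ofReal_im, g3m_eq]

/-! ### nonnegative exponents -/

/-- the polynomial antiderivative -/
noncomputable def RP (j : ℕ) (w : ℂ) : ℂ := ∑ k ∈ Finset.range (j + 1),
  (-1 : ℂ) ^ k * (j.choose k : ℂ) / ((j + k + 1 : ℕ) : ℂ) * w ^ (j + k + 1)

theorem RP_zero (j : ℕ) : RP j 0 = 0 := by
  unfold RP
  refine Finset.sum_eq_zero fun m _ => ?_
  rw [zero_pow (Nat.succ_ne_zero _), mul_zero]

theorem RP_deriv (j : ℕ) (w : ℂ) : HasDerivAt (RP j) ((w * (1 - w)) ^ j) w := by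
  have h4 : HasDerivAt (RP j) (∑ k ∈ Finset.range (j + 1),
      (-1 : ℂ) ^ k * (j.choose k : ℂ) / ((j + k + 1 : ℕ) : ℂ) *
        (((j + k + 1 : ℕ) : ℂ) * w ^ (j + k + 1 - 1))) w := by
    unfold RP
    refine HasDerivAt.fun_sum fun k _ => ?_
    exact (hasDerivAt_pow (j + k + 1) w).const_mul _
  refine h4.congr_deriv ?_
  have h5 : (w * (1 - w)) ^ j = w ^ j * (-w + 1) ^ j := by
    rw [mul_pow]; congr 2; ring
  rw [h5, add_pow, Finset.mul_sum]
  refine Finset.sum_congr rfl fun k _ => ?_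
  have e2 : ((j + k + 1 : ℕ) : ℂ) ≠ 0 := by exact_mod_cast Nat.succ_ne_zero (j + k)
  rw [Nat.add_sub_cancel, one_pow, mul_one, neg_pow w k]
  generalize ((j + k + 1 : ℕ) : ℂ) = t at e2 ⊢
  field_simp
  ring

theorem RP_rec (j : ℕ) (w : ℂ) :
    (j + 1 : ℂ) * RP j w - (4 * (j + 1) + 2) * RP (j + 1) w =
      (1 - 2 * w) * (w * (1 - w)) ^ (j + 1) := by
  set F : ℂ → ℂ := fun w => (j + 1 : ℂ) * RP j w - (4 * (j + 1) + 2) * RP (j + 1) w -
      (1 - 2 * w) * (w * (1 - w)) ^ (j + 1) with hF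
  have hd : ∀ w, HasDerivAt F 0 w := by
    intro w
    have h1 := (RP_deriv j w).const_mul (j + 1 : ℂ)
    have h2 := (RP_deriv (j + 1) w).const_mul (4 * (j + 1) + 2 : ℂ)
    have h3a : HasDerivAt (fun w : ℂ => w * (1 - w)) (1 * (1 - w) + w * (0 - 1)) w :=
      (hasDerivAt_id' w).mul ((hasDerivAt_const w 1).sub (hasDerivAt_id' w))
    have h3b := h3a.fun_pow (j + 1)
    have h3c : HasDerivAt (fun w : ℂ => 1 - 2 * w) (0 - 2 * 1) w :=
      (hasDerivAt_const w 1).sub ((hasDerivAt_id' w).const_mul 2)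
    refine ((h1.sub h2).sub (h3c.mul h3b)).congr_deriv ?_
    rw [Nat.add_sub_cancel]
    push_cast
    ring
  have hdiff : Differentiable ℂ F := fun w => (hd w).differentiableAt
  have := is_const_of_deriv_eq_zero hdiff (fun w => (hd w).deriv) w 0
  have h0 : F 0 = 0 := by
    rw [hF]
    simp [RP_zero]
  rw [h0, hF] at this
  exact sub_eq_zero.1 this

theorem RP_im (j : ℕ) : (RP j w0).im = ((rho (Int.ofNat j) : ℚ) : ℝ) := by
  unfold RP rho
  rw [Complex.im_sum]
  push_cast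
  refine Finset.sum_congr rfl fun k _ => ?_
  have h1 : ((-1 : ℂ) ^ k * (j.choose k : ℂ) / ((j : ℂ) + k + 1)) * w0 ^ (j + k + 1) =
      ((((-1 : ℝ) ^ k * (j.choose k : ℝ) / (((j : ℝ) + k + 1) * 5 ^ (j + k + 1))) : ℝ) : ℂ) *
        (3 + I) ^ (j + k + 1) := by
    unfold w0
    rw [div_pow]
    push_cast
    have e2 : ((j : ℂ) + k + 1) ≠ 0 := by exact_mod_cast Nat.succ_ne_zero (j + k)
    field_simp
  rw [h1, Complex.im_ofReal_mul, g31_eq]
  ring

theorem rho_rec (j : ℤ) : (j : ℚ) * rho (j - 1) - (4 * j + 2) * rho j = beta j := by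
  have key : ((j : ℝ) * ((rho (j - 1) : ℚ) : ℝ) - (4 * j + 2) * ((rho j : ℚ) : ℝ)) =
      ((beta j : ℚ) : ℝ) := by
    rw [← beta_eq]
    rcases lt_trichotomy j 0 with h | h | h
    · obtain ⟨l, rfl⟩ : ∃ l : ℕ, j = Int.negSucc l := by
        refine ⟨(-j - 1).toNat, ?_⟩
        omega
      have e : Int.negSucc l - 1 = Int.negSucc (l + 1) := by omega
      have e' : Int.negSucc l = -(l + 1 : ℤ) := by omega
      have h1 := RN_rec l w0 w0_mem
      rw [e, ← RN_im, ← RN_im, e', ← h1]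
      have h2 : -((l : ℂ) + 1) = ((-((l : ℝ) + 1) : ℝ) : ℂ) := by push_cast; ring
      have h3 : (4 * (l : ℂ) + 2) = (((4 * (l : ℝ) + 2) : ℝ) : ℂ) := by push_cast; ring
      rw [h2, h3, Complex.add_im, Complex.im_ofReal_mul, Complex.im_ofReal_mul]
      push_cast
      ring
    · subst h
      have h2 : rho 0 = 1 / 5 := by
        unfold rho
        simp [g31]
      rw [h2, zpow_zero, mul_one, Complex.sub_im]
      have h3 : (2 * w0).im = 2 / 5 := by
        have : (2 * w0) = ((2 : ℝ) : ℂ) * w0 := by push_cast; ring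
        rw [this, Complex.im_ofReal_mul, w0_im]; norm_num
      rw [h3]
      norm_num
    · obtain ⟨l, rfl⟩ : ∃ l : ℕ, j = Int.ofNat (l + 1) := ⟨(j - 1).toNat, by simp; omega⟩
      have e : Int.ofNat (l + 1) - 1 = Int.ofNat l := by simp
      have h1 := RP_rec l w0
      rw [e, ← RP_im, ← RP_im, Int.ofNat_eq_natCast, zpow_natCast, ← h1]
      have h2 : ((l : ℂ) + 1) = ((((l : ℝ) + 1) : ℝ) : ℂ) := by push_cast; ring
      have h3 : (4 * ((l : ℂ) + 1) + 2) = (((4 * ((l : ℝ) + 1) + 2) : ℝ) : ℂ) := by push_cast; ring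
      rw [h3, h2, Complex.sub_im, Complex.im_ofReal_mul, Complex.im_ofReal_mul]
      push_cast
      ring
  exact_mod_cast key

theorem lam_rec (j : ℤ) : (j : ℚ) * lam (j - 1) - (4 * j + 2) * lam j = 0 := lamRec j

theorem beta_rec (j : ℤ) : 25 * beta (j + 2) - 14 * beta (j + 1) + 2 * beta j = 0 := by
  have hy : w0 * (1 - w0) = (7 - I) / 25 := by
    unfold w0
    have : I * I = -1 := Complex.I_mul_I
    linear_combination (-1 / 25) * this
  have hy0 : w0 * (1 - w0) ≠ 0 := mul_ne_zero w0_ne one_sub_w0_ne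
  have hq : 25 * (w0 * (1 - w0)) ^ 2 - 14 * (w0 * (1 - w0)) + 2 = 0 := by
    rw [hy]
    have : I * I = -1 := Complex.I_mul_I
    linear_combination (1 / 25) * this
  have key : (25 * ((beta (j + 2) : ℚ) : ℝ) - 14 * ((beta (j + 1) : ℚ) : ℝ) +
      2 * ((beta j : ℚ) : ℝ)) = 0 := by
    rw [← beta_eq, ← beta_eq, ← beta_eq]
    have h1 : (25 * ((1 - 2 * w0) * (w0 * (1 - w0)) ^ (j + 2)).im -
        14 * ((1 - 2 * w0) * (w0 * (1 - w0)) ^ (j + 1)).im +
        2 * ((1 - 2 * w0) * (w0 * (1 - w0)) ^ j).im) =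
        (((25 : ℝ) : ℂ) * ((1 - 2 * w0) * (w0 * (1 - w0)) ^ (j + 2)) -
        ((14 : ℝ) : ℂ) * ((1 - 2 * w0) * (w0 * (1 - w0)) ^ (j + 1)) +
        ((2 : ℝ) : ℂ) * ((1 - 2 * w0) * (w0 * (1 - w0)) ^ j)).im := by
      rw [Complex.add_im, Complex.sub_im, Complex.im_ofReal_mul, Complex.im_ofReal_mul,
        Complex.im_ofReal_mul]
    rw [h1, zpow_add₀ hy0, zpow_add₀ hy0, zpow_one, zpow_ofNat]
    have h2 : (((25 : ℝ) : ℂ) * ((1 - 2 * w0) * ((w0 * (1 - w0)) ^ j * (w0 * (1 - w0)) ^ 2)) -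
        ((14 : ℝ) : ℂ) * ((1 - 2 * w0) * ((w0 * (1 - w0)) ^ j * (w0 * (1 - w0)))) +
        ((2 : ℝ) : ℂ) * ((1 - 2 * w0) * (w0 * (1 - w0)) ^ j)) = 0 := by
      push_cast
      linear_combination (1 - 2 * w0) * (w0 * (1 - w0)) ^ j * hq
    rw [h2]; rfl
  exact_mod_cast key

/-! ### the functionals -/

theorem Rf_X_mul (c : ℤ) (N : ℚ[X]) : Rf (c + 1) (X * N) = Rf c N := by
  induction N using Polynomial.induction_on' with
  | add p q hp hq => rw [mul_add, map_add, map_add, hp, hq]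
  | monomial i a =>
    rw [Polynomial.X_mul_monomial, Rf_monomial, Rf_monomial]
    congr 2
    push_cast; ring

theorem Lf_X_mul (c : ℤ) (N : ℚ[X]) : Lf (c + 1) (X * N) = Lf c N := by
  induction N using Polynomial.induction_on' with
  | add p q hp hq => rw [mul_add, map_add, map_add, hp, hq]
  | monomial i a =>
    rw [Polynomial.X_mul_monomial, Lf_monomial, Lf_monomial]
    congr 2
    push_cast; ring

theorem Bf_X_mul (c : ℤ) (N : ℚ[X]) : Bf (c + 1) (X * N) = Bf c N := by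
  induction N using Polynomial.induction_on' with
  | add p q hp hq => rw [mul_add, map_add, map_add, hp, hq]
  | monomial i a =>
    rw [Polynomial.X_mul_monomial, Bf_monomial, Bf_monomial]
    congr 2
    push_cast; ring

theorem DD_add (c : ℤ) (p q : ℚ[X]) : DD c (p + q) = DD c p + DD c q := by
  unfold DD
  rw [derivative_add]
  ring

theorem DD_monomial (c : ℤ) (i : ℕ) (a : ℚ) : DD c (monomial i a) =
    monomial i (a * ((i : ℚ) - c)) - X * monomial i (a * (4 * ((i : ℚ) - c) + 2)) := by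
  unfold DD
  have h1 : X * derivative (monomial i a) = monomial i (a * (i : ℚ)) := by
    rw [derivative_monomial]
    cases i with
    | zero => simp
    | succ i => rw [Polynomial.X_mul_monomial]; simp
  rw [h1]
  have h2 : ∀ b : ℚ, monomial i b = C b * X ^ i := fun b => (C_mul_X_pow_eq_monomial).symm
  simp only [h2, C_mul, C_add, C_sub, map_ofNat, map_natCast, map_intCast]
  ring

theorem Rf_DD (c : ℤ) (N : ℚ[X]) : Rf (c + 1) (DD c N) = Bf c N := by
  induction N using Polynomial.induction_on' with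
  | add p q hp hq => rw [DD_add, map_add, map_add, hp, hq]
  | monomial i a =>
    rw [DD_monomial, map_sub, Rf_X_mul, Rf_monomial, Rf_monomial, Bf_monomial, ← rho_rec]
    have e : (i : ℤ) - (c + 1) = i - c - 1 := by ring
    rw [e]
    push_cast
    ring

theorem Lf_DD (c : ℤ) (N : ℚ[X]) : Lf (c + 1) (DD c N) = 0 := by
  induction N using Polynomial.induction_on' with
  | add p q hp hq => rw [DD_add, map_add, hp, hq, add_zero]
  | monomial i a =>
    rw [DD_monomial, map_sub, Lf_X_mul, Lf_monomial, Lf_monomial]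
    have e : (i : ℤ) - (c + 1) = i - c - 1 := by ring
    have h := lamRec ((i : ℤ) - c)
    rw [e]
    push_cast at h ⊢
    linear_combination a * h

theorem Bf_q_mul (c : ℤ) (N : ℚ[X]) : Bf c ((25 * X ^ 2 - 14 * X + 2) * N) = 0 := by
  have h : (25 * X ^ 2 - 14 * X + 2 : ℚ[X]) * N =
      (25 : ℚ) • (X * (X * N)) - (14 : ℚ) • (X * N) + (2 : ℚ) • N := by
    simp only [Polynomial.smul_eq_C_mul, map_ofNat]
    ring
  rw [h, map_add, map_sub, map_smul, map_smul, map_smul]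
  have h1 : Bf c (X * (X * N)) = Bf (c - 2) N := by
    have := Bf_X_mul (c - 1) (X * N)
    have h2 := Bf_X_mul (c - 2) N
    rw [show c - 1 + 1 = c by ring] at this
    rw [show c - 2 + 1 = c - 1 by ring] at h2
    rw [this, h2]
  have h2 : Bf c (X * N) = Bf (c - 1) N := by
    have := Bf_X_mul (c - 1) N
    rwa [show c - 1 + 1 = c by ring] at this
  rw [h1, h2]
  clear h h1 h2
  induction N using Polynomial.induction_on' with
  | add p q hp hq =>
    simp only [map_add, smul_eq_mul] at hp hq ⊢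
    linarith
  | monomial i a =>
    simp only [Bf_monomial, smul_eq_mul]
    have h := beta_rec ((i : ℤ) - c)
    rw [show (i : ℤ) - (c - 2) = i - c + 2 by ring, show (i : ℤ) - (c - 1) = i - c + 1 by ring]
    linear_combination a * h

end Vale.Agent.P021
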