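import Mathlib
import Vale.Agent.P021.Defs
import Vale.Agent.P021.Rec

open Polynomial

namespace Vale.Agent.P021

/-- the quadratic factor -/
noncomputable def qq : ℚ[X] := 25 * X ^ 2 - 14 * X + 2

theorem derivative_qq : derivative qq = 50 * X - 14 := by
  have h25 : derivative (25 : ℚ[X]) = 0 := by
    rw [show (25 : ℚ[X]) = C 25 from rfl]; exact derivative_C
  have h14 : derivative (14 : ℚ[X]) = 0 := by
    rw [show (14 : ℚ[X]) = C 14 from rfl]; exact derivative_C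
  have h2 : derivative (2 : ℚ[X]) = 0 := by
    rw [show (2 : ℚ[X]) = C 2 from rfl]; exact derivative_C
  simp only [qq, derivative_add, derivative_sub, derivative_mul, derivative_X_pow, derivative_X,
    h25, h14, h2]
  simp only [Nat.cast_ofNat, map_ofNat]
  ring

theorem derivative_lin : derivative (1 - 4 * X : ℚ[X]) = -4 := by
  have h4 : derivative (4 : ℚ[X]) = 0 := by
    rw [show (4 : ℚ[X]) = C 4 from rfl]; exact derivative_C
  simp only [derivative_sub, derivative_mul, derivative_X, derivative_one, h4]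
  ring

/-- `(1 - 4 X) * ((1 - 4 X)^a q^(b+1) g)'` -/
theorem lin_mul_derivative (a b : ℕ) (g : ℚ[X]) :
    (1 - 4 * X) * derivative ((1 - 4 * X) ^ a * qq ^ (b + 1) * g) =
      (1 - 4 * X) ^ a * qq ^ b *
        (-4 * (a : ℚ[X]) * qq * g + ((b : ℚ[X]) + 1) * (1 - 4 * X) * (50 * X - 14) * g +
          (1 - 4 * X) * qq * derivative g) := by
  rw [derivative_mul, derivative_mul, derivative_pow, derivative_pow, derivative_qq,
    derivative_lin]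
  simp only [map_natCast, Nat.cast_add, Nat.cast_one, Nat.add_sub_cancel, map_add, map_one]
  rcases a with _ | a
  · simp
    ring
  · simp only [Nat.add_sub_cancel]
    ring

theorem DD_qq (c : ℤ) (a b : ℕ) (g : ℚ[X]) :
    DD c (qq * ((1 - 4 * X) ^ a * qq ^ b * g)) =
      (1 - 4 * X) ^ a * qq ^ b *
        (-2 * X * qq * g - 4 * (a : ℚ[X]) * X * qq * g
          + ((b : ℚ[X]) + 1) * X * (1 - 4 * X) * (50 * X - 14) * g
          + X * (1 - 4 * X) * qq * derivative g - C (c : ℚ) * (1 - 4 * X) * qq * g) := by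
  have h := lin_mul_derivative a b g
  have e : qq * ((1 - 4 * X) ^ a * qq ^ b * g) = (1 - 4 * X) ^ a * qq ^ (b + 1) * g := by ring
  rw [e, DD]
  have : -2 * X * ((1 - 4 * X) ^ a * qq ^ (b + 1) * g) +
      (1 - 4 * X) * (X * derivative ((1 - 4 * X) ^ a * qq ^ (b + 1) * g) -
        C (c : ℚ) * ((1 - 4 * X) ^ a * qq ^ (b + 1) * g)) =
      -2 * X * ((1 - 4 * X) ^ a * qq ^ (b + 1) * g) +
      (X * ((1 - 4 * X) * derivative ((1 - 4 * X) ^ a * qq ^ (b + 1) * g)) -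
        (1 - 4 * X) * C (c : ℚ) * ((1 - 4 * X) ^ a * qq ^ (b + 1) * g)) := by ring
  rw [this, h]
  ring

theorem lam_mul_X_pow (Λ : ℤ → ℚ[X] →ₗ[ℚ] ℚ)
    (hX : ∀ c N, Λ (c + 1) (X * N) = Λ c N) (c : ℤ) (N : ℚ[X]) (k : ℕ) :
    Λ c (X ^ k * N) = Λ (c - k) N := by
  induction k generalizing c N with
  | zero => simp
  | succ k ih =>
    have := hX (c - 1) (X ^ k * N)
    rw [show c - 1 + 1 = c by ring] at this
    rw [show (X : ℚ[X]) ^ (k + 1) * N = X * (X ^ k * N) by ring, this, ih]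
    congr 1
    push_cast
    ring_nf

theorem lam_kill_all (Λ : ℤ → ℚ[X] →ₗ[ℚ] ℚ)
    (hX : ∀ c N, Λ (c + 1) (X * N) = Λ c N) (H : ℚ[X]) (h : ∀ c, Λ c H = 0) (c : ℤ) (P : ℚ[X]) :
    Λ c (H * P) = 0 := by
  induction P using Polynomial.induction_on' with
  | add p q hp hq => rw [mul_add, map_add, hp, hq, add_zero]
  | monomial n a =>
    rw [← C_mul_X_pow_eq_monomial, show H * (C a * X ^ n) = C a * (X ^ n * H) by ring,
      ← smul_eq_C_mul, map_smul, lam_mul_X_pow Λ hX, h, smul_zero]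

theorem kill_descend_lin (Λ : ℤ → ℚ[X] →ₗ[ℚ] ℚ)
    (hX : ∀ c N, Λ (c + 1) (X * N) = Λ c N)
    (hD : ∀ c N, Λ (c + 1) (DD c (qq * N)) = 0) (a b : ℕ)
    (h : ∀ c P, Λ c ((1 - 4 * X) ^ (a + 1) * qq ^ b * P) = 0) (c : ℤ) (P : ℚ[X]) :
    Λ c ((1 - 4 * X) ^ a * qq ^ b * P) = 0 := by
  have h1 : ∀ g : ℚ[X], Λ c ((1 - 4 * X) ^ a * qq ^ (b + 1) * g) = 0 := by
    intro g
    have h2 := hD c ((1 - 4 * X) ^ a * qq ^ b * g)
    rw [DD_qq] at h2
    have e : (1 - 4 * X : ℚ[X]) ^ a * qq ^ b *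
        (-2 * X * qq * g - 4 * (a : ℚ[X]) * X * qq * g
          + ((b : ℚ[X]) + 1) * X * (1 - 4 * X) * (50 * X - 14) * g
          + X * (1 - 4 * X) * qq * derivative g - C (c : ℚ) * (1 - 4 * X) * qq * g) =
        (-2 - 4 * (a : ℚ)) • (X * ((1 - 4 * X) ^ a * qq ^ (b + 1) * g)) +
        (1 - 4 * X : ℚ[X]) ^ (a + 1) * qq ^ b *
        (((b : ℚ[X]) + 1) * X * (50 * X - 14) * g
          + X * qq * derivative g - C (c : ℚ) * qq * g) := by
      rw [smul_eq_C_mul]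
      simp only [map_sub, map_mul, map_neg, map_ofNat, map_natCast]
      ring
    rw [e, map_add, h, add_zero, map_smul, hX, smul_eq_mul] at h2
    have h3 : (-2 - 4 * (a : ℚ)) ≠ 0 := by
      have : (0 : ℚ) ≤ a := Nat.cast_nonneg a
      intro h
      linarith
    exact (mul_eq_zero.mp h2).resolve_left h3
  have e : (1 - 4 * X : ℚ[X]) ^ a * qq ^ b * P =
      (1 - 4 * X) ^ a * qq ^ (b + 1) * (16 * P) -
      (1 - 4 * X) ^ (a + 1) * qq ^ b * ((31 - 100 * X) * P) := by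
    have : (1 : ℚ[X]) = 16 * qq - (1 - 4 * X) * (31 - 100 * X) := by
      simp only [qq]; ring
    calc (1 - 4 * X : ℚ[X]) ^ a * qq ^ b * P = (1 - 4 * X) ^ a * qq ^ b * P * 1 := by ring
      _ = (1 - 4 * X) ^ a * qq ^ b * P * (16 * qq - (1 - 4 * X) * (31 - 100 * X)) := by
        rw [← this]
      _ = _ := by ring
  rw [e, map_sub, h1, h, sub_zero]

theorem kill_descend_qq (Λ : ℤ → ℚ[X] →ₗ[ℚ] ℚ)
    (hX : ∀ c N, Λ (c + 1) (X * N) = Λ c N)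
    (hD : ∀ c N, Λ (c + 1) (DD c (qq * N)) = 0) (b : ℕ)
    (h : ∀ c P, Λ c (qq ^ (b + 1) * P) = 0) (c : ℤ) (P : ℚ[X]) :
    Λ c (qq ^ b * P) = 0 := by
  have h1 : ∀ g : ℚ[X], Λ c (qq ^ b * ((1 - 4 * X) * (50 * X - 14)) * g) = 0 := by
    intro g
    have h2 := hD c ((1 - 4 * X) ^ 0 * qq ^ b * g)
    rw [DD_qq] at h2
    have e : (1 - 4 * X : ℚ[X]) ^ 0 * qq ^ b *
        (-2 * X * qq * g - 4 * ((0 : ℕ) : ℚ[X]) * X * qq * g
          + ((b : ℚ[X]) + 1) * X * (1 - 4 * X) * (50 * X - 14) * g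
          + X * (1 - 4 * X) * qq * derivative g - C (c : ℚ) * (1 - 4 * X) * qq * g) =
        ((b : ℚ) + 1) • (X * (qq ^ b * ((1 - 4 * X) * (50 * X - 14)) * g)) +
        qq ^ (b + 1) *
        (-2 * X * g + X * (1 - 4 * X) * derivative g - C (c : ℚ) * (1 - 4 * X) * g) := by
      rw [smul_eq_C_mul]
      simp only [map_add, map_one, map_natCast, Nat.cast_zero]
      ring
    rw [e, map_add, h, add_zero, map_smul, hX, smul_eq_mul] at h2
    have h3 : ((b : ℚ) + 1) ≠ 0 := by positivity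
    exact (mul_eq_zero.mp h2).resolve_left h3
  have e : qq ^ b * P =
      qq ^ b * ((1 - 4 * X) * (50 * X - 14)) * (C (1 / 2 : ℚ) * (75 * X - 17) * P) +
      qq ^ (b + 1) * (C (1 / 2 : ℚ) * (600 * X - 118) * P) := by
    have h2 : (2 : ℚ[X]) = (1 - 4 * X) * (50 * X - 14) * (75 * X - 17) +
        qq * (600 * X - 118) := by
      simp only [qq]; ring
    have h3 : (C (1 / 2 : ℚ)) * (2 : ℚ[X]) = 1 := by
      rw [show (2 : ℚ[X]) = C 2 from rfl, ← C_mul]; norm_num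
    calc qq ^ b * P = qq ^ b * P * (C (1 / 2 : ℚ) * 2) := by rw [h3, mul_one]
      _ = qq ^ b * P * (C (1 / 2 : ℚ) * ((1 - 4 * X) * (50 * X - 14) * (75 * X - 17) +
        qq * (600 * X - 118))) := by rw [← h2]
      _ = _ := by ring
  rw [e, map_add, h1, h, add_zero]

theorem kill_base (Λ : ℤ → ℚ[X] →ₗ[ℚ] ℚ)
    (hX : ∀ c N, Λ (c + 1) (X * N) = Λ c N)
    (hD : ∀ c N, Λ (c + 1) (DD c (qq * N)) = 0) (a b : ℕ)
    (h : ∀ c P, Λ c ((1 - 4 * X) ^ a * qq ^ b * P) = 0) (c : ℤ) (P : ℚ[X]) :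
    Λ c P = 0 := by
  induction a with
  | succ a ih => exact ih (fun c P => kill_descend_lin Λ hX hD a b h c P)
  | zero =>
    simp only [pow_zero, one_mul] at h
    induction b with
    | zero => simpa using h c P
    | succ b ih => exact ih (fun c P => kill_descend_qq Λ hX hD b h c P)

theorem kill_recurrence (Λ : ℤ → ℚ[X] →ₗ[ℚ] ℚ)
    (hX : ∀ c N, Λ (c + 1) (X * N) = Λ c N)
    (hD : ∀ c N, Λ (c + 1) (DD c (qq * N)) = 0) (v : ℕ) (c : ℤ) :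
    ∃ g1 g2 : ℚ, (-2 * (c : ℚ)) * Λ (c + 1) ((1 - 4 * X) ^ v * qq ^ (2 * v)) +
      g1 * Λ c ((1 - 4 * X) ^ v * qq ^ (2 * v)) +
      g2 * Λ (c - 1) ((1 - 4 * X) ^ v * qq ^ (2 * v)) +
      (-50 * (5 + 10 * (v : ℚ) - 2 * c)) * Λ (c - 2) ((1 - 4 * X) ^ v * qq ^ (2 * v)) = 0 := by
  have h := hD c ((1 - 4 * X) ^ v * qq ^ (2 * v) * 1)
  rw [DD_qq] at h
  set H : ℚ[X] := (1 - 4 * X) ^ v * qq ^ (2 * v) with hH
  refine ⟨-2 * (2 + 4 * (v : ℚ)) - 14 * (2 * v + 1) + 22 * c,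
    14 * (2 + 4 * (v : ℚ)) + 106 * (2 * v + 1) - 81 * c, ?_⟩
  have e : H * (-2 * X * qq * 1 - 4 * (v : ℚ[X]) * X * qq * 1
          + (((2 * v : ℕ) : ℚ[X]) + 1) * X * (1 - 4 * X) * (50 * X - 14) * 1
          + X * (1 - 4 * X) * qq * derivative 1 - C (c : ℚ) * (1 - 4 * X) * qq * 1) =
      (-2 * (c : ℚ)) • (X ^ 0 * H) +
      (-2 * (2 + 4 * (v : ℚ)) - 14 * (2 * v + 1) + 22 * c) • (X ^ 1 * H) +
      (14 * (2 + 4 * (v : ℚ)) + 106 * (2 * v + 1) - 81 * c) • (X ^ 2 * H) +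
      (-50 * (5 + 10 * (v : ℚ) - 2 * c)) • (X ^ 3 * H) := by
    simp only [smul_eq_C_mul, map_sub, map_add, map_mul, map_neg, map_ofNat, map_natCast, map_one,
      derivative_one, qq, Nat.cast_mul, Nat.cast_ofNat]
    ring
  rw [e] at h
  simp only [map_add, map_smul, lam_mul_X_pow Λ hX, smul_eq_mul] at h
  have e0 : c + 1 - ((0 : ℕ) : ℤ) = c + 1 := by simp
  have e1 : c + 1 - ((1 : ℕ) : ℤ) = c := by push_cast; ring
  have e2 : c + 1 - ((2 : ℕ) : ℤ) = c - 1 := by push_cast; ring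
  have e3 : c + 1 - ((3 : ℕ) : ℤ) = c - 2 := by push_cast; ring
  rw [e0, e1, e2, e3] at h
  exact h

theorem kill_all_shifts (Λ : ℤ → ℚ[X] →ₗ[ℚ] ℚ)
    (hX : ∀ c N, Λ (c + 1) (X * N) = Λ c N)
    (hD : ∀ c N, Λ (c + 1) (DD c (qq * N)) = 0) (v : ℕ) (c0 : ℕ) (hc : 3 ≤ c0)
    (h : ∀ k : ℕ, k ≤ 2 → Λ (c0 - k : ℤ) ((1 - 4 * X) ^ v * qq ^ (2 * v)) = 0) (c : ℤ) :
    Λ c ((1 - 4 * X) ^ v * qq ^ (2 * v)) = 0 := by
  set s : ℤ → ℚ := fun c => Λ c ((1 - 4 * X) ^ v * qq ^ (2 * v)) with hs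
  have hrec := kill_recurrence Λ hX hD v
  have up : ∀ n : ℕ, s (c0 - 2 + n) = 0 ∧ s (c0 - 1 + n) = 0 ∧ s (c0 + n) = 0 := by
    intro n
    induction n with
    | zero =>
      have h0 := h 0 (by norm_num)
      have h1 := h 1 (by norm_num)
      have h2 := h 2 (by norm_num)
      push_cast at h0 h1 h2 ⊢
      simp only [sub_zero, add_zero] at h0 h1 h2 ⊢
      exact ⟨h2, h1, h0⟩
    | succ n ih =>
      obtain ⟨i1, i2, i3⟩ := ih
      obtain ⟨g1, g2, hr⟩ := hrec (c0 + n)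
      have a1 : (c0 : ℤ) - 2 + ((n + 1 : ℕ) : ℤ) = c0 - 1 + n := by push_cast; ring
      have a2 : (c0 : ℤ) - 1 + ((n + 1 : ℕ) : ℤ) = c0 + n := by push_cast; ring
      have a3 : (c0 : ℤ) + ((n + 1 : ℕ) : ℤ) = c0 + n + 1 := by push_cast; ring
      rw [a1, a2, a3]
      refine ⟨i2, i3, ?_⟩
      have b2 : Λ ((c0 : ℤ) + n - 1) ((1 - 4 * X) ^ v * qq ^ (2 * v)) = 0 := by
        rw [← i2]; simp only [hs]; congr 2; ring
      have b3 : Λ ((c0 : ℤ) + n - 2) ((1 - 4 * X) ^ v * qq ^ (2 * v)) = 0 := by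
        rw [← i1]; simp only [hs]; congr 2; ring
      have b1 : Λ ((c0 : ℤ) + n) ((1 - 4 * X) ^ v * qq ^ (2 * v)) = 0 := i3
      rw [b1, b2, b3] at hr
      simp only [mul_zero, add_zero] at hr
      refine (mul_eq_zero.mp hr).resolve_left ?_
      have : (3 : ℚ) ≤ c0 := by exact_mod_cast hc
      have : (0 : ℚ) ≤ n := Nat.cast_nonneg n
      push_cast
      intro h
      linarith
  have down : ∀ n : ℕ, s (c0 - 2 - n) = 0 ∧ s (c0 - 1 - n) = 0 ∧ s (c0 - n) = 0 := by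
    intro n
    induction n with
    | zero =>
      have h0 := h 0 (by norm_num)
      have h1 := h 1 (by norm_num)
      have h2 := h 2 (by norm_num)
      push_cast at h0 h1 h2 ⊢
      simp only [sub_zero] at h0 h1 h2 ⊢
      exact ⟨h2, h1, h0⟩
    | succ n ih =>
      obtain ⟨i1, i2, i3⟩ := ih
      obtain ⟨g1, g2, hr⟩ := hrec (c0 - 1 - n)
      have a1 : (c0 : ℤ) - 1 - ((n + 1 : ℕ) : ℤ) = c0 - 2 - n := by push_cast; ring
      have a2 : (c0 : ℤ) - ((n + 1 : ℕ) : ℤ) = c0 - 1 - n := by push_cast; ring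
      rw [a1, a2]
      refine ⟨?_, i1, i2⟩
      have b3 : Λ ((c0 : ℤ) - 1 - n + 1) ((1 - 4 * X) ^ v * qq ^ (2 * v)) = 0 := by
        rw [← i3]; simp only [hs]; congr 2; ring
      have b1 : Λ ((c0 : ℤ) - 1 - n - 1) ((1 - 4 * X) ^ v * qq ^ (2 * v)) = 0 := by
        rw [← i1]; simp only [hs]; congr 2; ring
      have b2 : Λ ((c0 : ℤ) - 1 - n) ((1 - 4 * X) ^ v * qq ^ (2 * v)) = 0 := i2
      rw [b1, b2, b3] at hr
      simp only [mul_zero, zero_add] at hr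
      have b4 : (c0 : ℤ) - 2 - ((n + 1 : ℕ) : ℤ) = c0 - 1 - n - 2 := by push_cast; ring
      rw [b4]
      refine (mul_eq_zero.mp hr).resolve_left ?_
      intro h
      have h' : (5 + 10 * (v : ℚ) - 2 * (((c0 : ℤ) - 1 - n : ℤ) : ℚ)) = 0 := by linarith
      have h'' : (5 + 10 * (v : ℤ) - 2 * ((c0 : ℤ) - 1 - n)) = 0 := by exact_mod_cast h'
      omega
  rcases le_total c (c0 : ℤ) with hle | hle
  · obtain ⟨n, hn⟩ := Int.le.dest hle
    have := (down n).2.2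
    have e : (c0 : ℤ) - n = c := by omega
    rw [e] at this
    exact this
  · obtain ⟨n, hn⟩ := Int.le.dest hle
    have := (up n).2.2
    rw [hn] at this
    exact this

theorem nonvanish_of (hRX : ∀ (c : ℤ) (N : ℚ[X]), Rf (c + 1) (X * N) = Rf c N)
    (hLX : ∀ (c : ℤ) (N : ℚ[X]), Lf (c + 1) (X * N) = Lf c N)
    (hRD : ∀ (c : ℤ) (N : ℚ[X]), Rf (c + 1) (DD c N) = Bf c N)
    (hLD : ∀ (c : ℤ) (N : ℚ[X]), Lf (c + 1) (DD c N) = 0)
    (hB : ∀ (c : ℤ) (N : ℚ[X]), Bf c ((25 * X ^ 2 - 14 * X + 2) * N) = 0)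
    (v : ℕ) (c0 : ℕ) (hc : 3 ≤ c0) (ϖ : ℚ)
    (h : ∀ k : ℕ, k ≤ 2 → Lf (c0 - k : ℤ) (NQ v) * ϖ + Rf (c0 - k : ℤ) (NQ v) = 0) : False := by
  let Λ : ℤ → ℚ[X] →ₗ[ℚ] ℚ := fun c => ϖ • Lf c + Rf c
  have hΛ : ∀ c N, Λ c N = Lf c N * ϖ + Rf c N := by
    intro c N
    simp only [Λ, LinearMap.add_apply, LinearMap.smul_apply, smul_eq_mul]
    ring
  have hX : ∀ c N, Λ (c + 1) (X * N) = Λ c N := by
    intro c N
    rw [hΛ, hΛ, hLX, hRX]
  have hD : ∀ c N, Λ (c + 1) (DD c (qq * N)) = 0 := by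
    intro c N
    rw [hΛ, hLD, hRD, qq, hB]
    ring
  have hN : NQ v = (1 - 4 * X) ^ v * qq ^ (2 * v) := by
    simp [NQ, NZ, qq]
  have h1 : ∀ c, Λ c ((1 - 4 * X) ^ v * qq ^ (2 * v)) = 0 := by
    refine kill_all_shifts Λ hX hD v c0 hc ?_
    intro k hk
    rw [hΛ, ← hN]
    exact h k hk
  have h2 := kill_base Λ hX hD v (2 * v) (fun c P => lam_kill_all Λ hX _ h1 c P) 0 1
  rw [hΛ] at h2
  have e1 : (1 : ℚ[X]) = monomial 0 1 := by simp
  rw [e1, Lf_monomial, Rf_monomial] at h2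
  have l0 : lam (((0 : ℕ) : ℤ) - 0) = 0 := by
    rw [show (((0 : ℕ) : ℤ) - 0) = Int.ofNat 0 by simp]
    rfl
  have r0 : rho (((0 : ℕ) : ℤ) - 0) = 1 / 5 := by
    rw [show (((0 : ℕ) : ℤ) - 0) = Int.ofNat 0 by simp]
    simp only [rho]
    have : g31 1 = 1 := by simp [g31]
    simp [this]
  rw [l0, r0] at h2
  norm_num at h2

theorem nonvanish (v : ℕ) (c0 : ℕ) (hc : 3 ≤ c0) (ϖ : ℚ)
    (h : ∀ k : ℕ, k ≤ 2 → Lf (c0 - k : ℤ) (NQ v) * ϖ + Rf (c0 - k : ℤ) (NQ v) = 0) : False :=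
  nonvanish_of Rf_X_mul Lf_X_mul Rf_DD Lf_DD Bf_q_mul v c0 hc ϖ h

end Vale.Agent.P021
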