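import Vale.Agent.P021.Defs

open Polynomial

namespace Vale.Agent.P021

theorem gi_two_pow_mul_im (t : ℕ) (z : GaussianInt) : ((2 : GaussianInt) ^ t * z).im = 2 ^ t * z.im := by
  induction t with
  | zero => simp
  | succ t ih =>
    rw [pow_succ, mul_comm ((2 : GaussianInt) ^ t) 2, mul_assoc, Zsqrtd.im_mul]
    rw [ih]
    have h2 : (2 : GaussianInt).re = 2 := rfl
    have h2' : (2 : GaussianInt).im = 0 := rfl
    rw [h2, h2']
    ring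

theorem exists_pow31 (m : ℕ) : ∃ z : GaussianInt, (⟨3, 1⟩ : GaussianInt) ^ m = 2 ^ (m / 2) * z := by
  have h2 : (⟨3, 1⟩ : GaussianInt) ^ 2 = 2 * ⟨4, 3⟩ := by decide
  obtain ⟨t, ht | ht⟩ := Nat.even_or_odd' m
  · refine ⟨⟨4, 3⟩ ^ t, ?_⟩
    have : m / 2 = t := by omega
    rw [this, ht, pow_mul, h2, mul_pow]
  · refine ⟨⟨4, 3⟩ ^ t * ⟨3, 1⟩, ?_⟩
    have : m / 2 = t := by omega
    rw [this, ht, pow_succ, pow_mul, h2, mul_pow]
    ring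

theorem exists_pow3m (m : ℕ) : ∃ z : GaussianInt, (⟨3, -1⟩ : GaussianInt) ^ m = 2 ^ (m / 2) * z := by
  have h2 : (⟨3, -1⟩ : GaussianInt) ^ 2 = 2 * ⟨4, -3⟩ := by decide
  obtain ⟨t, ht | ht⟩ := Nat.even_or_odd' m
  · refine ⟨⟨4, -3⟩ ^ t, ?_⟩
    have : m / 2 = t := by omega
    rw [this, ht, pow_mul, h2, mul_pow]
  · refine ⟨⟨4, -3⟩ ^ t * ⟨3, -1⟩, ?_⟩
    have : m / 2 = t := by omega
    rw [this, ht, pow_succ, pow_mul, h2, mul_pow]
    ring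

theorem g31_dvd (m : ℕ) : (2 : ℤ) ^ (m / 2) ∣ g31 m := by
  obtain ⟨z, hz⟩ := exists_pow31 m
  exact ⟨z.im, by rw [g31, hz, gi_two_pow_mul_im]⟩

theorem g3m_dvd (m : ℕ) : (2 : ℤ) ^ (m / 2) ∣ g3m m := by
  obtain ⟨z, hz⟩ := exists_pow3m m
  exact ⟨z.im, by rw [g3m, hz, gi_two_pow_mul_im]⟩

theorem dvd_lcmUpto {m M : ℕ} (h1 : 1 ≤ m) (h2 : m ≤ M) : m ∣ lcmUpto M :=
  Finset.dvd_lcm (f := id) (Finset.mem_Icc.mpr ⟨h1, h2⟩)

theorem lcmUpto_pos (M : ℕ) : 0 < lcmUpto M := by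
  have : lcmUpto M ≠ 0 := by
    unfold lcmUpto
    rw [Ne, Finset.lcm_eq_zero_iff]
    simp
  omega

theorem exists_int_sum {ι : Type*} (s : Finset ι) (f : ι → ℚ) (a : ℚ)
    (h : ∀ i ∈ s, ∃ z : ℤ, f i = a * z) : ∃ z : ℤ, ∑ i ∈ s, f i = a * z := by
  classical
  induction s using Finset.induction_on with
  | empty => exact ⟨0, by simp⟩
  | insert i s hi ih =>
    obtain ⟨z1, h1⟩ := h i (Finset.mem_insert_self _ _)
    obtain ⟨z2, h2⟩ := ih fun j hj => h j (Finset.mem_insert_of_mem hj)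
    exact ⟨z1 + z2, by rw [Finset.sum_insert hi, h1, h2]; push_cast; ring⟩

theorem rho_den_nonneg (j M : ℕ) (hM : 2 * j + 1 ≤ M) :
    ∃ z : ℤ, (lcmUpto M : ℚ) * 5 ^ (2 * j + 1) * rho j = 2 ^ ((j + 1) / 2) * z := by
  have h : rho (j : ℤ) = ∑ k ∈ Finset.range (j + 1),
      (-1 : ℚ) ^ k * (j.choose k : ℚ) * (g31 (j + k + 1) : ℚ) /
        ((j + k + 1 : ℕ) * 5 ^ (j + k + 1)) := rfl
  rw [h, Finset.mul_sum]
  apply exists_int_sum
  intro k hk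
  have hk' : k ≤ j := by
    have := Finset.mem_range.mp hk; omega
  obtain ⟨u, hu⟩ := dvd_lcmUpto (m := j + k + 1) (M := M) (by omega) (by omega)
  obtain ⟨t, ht⟩ := g31_dvd (j + k + 1)
  obtain ⟨e, he⟩ : ∃ e, 2 * j + 1 = (j + k + 1) + e := ⟨j - k, by omega⟩
  obtain ⟨f, hf⟩ : ∃ f, (j + k + 1) / 2 = (j + 1) / 2 + f := ⟨(j + k + 1) / 2 - (j + 1) / 2, by omega⟩
  refine ⟨(-1) ^ k * (j.choose k : ℤ) * u * 5 ^ e * 2 ^ f * t, ?_⟩
  rw [hu, ht, he, hf]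
  have h1 : ((j + k + 1 : ℕ) : ℚ) ≠ 0 := by positivity
  have h5 : (5 : ℚ) ^ (j + k + 1) ≠ 0 := by positivity
  push_cast
  push_cast at h1
  field_simp
  ring

theorem rho_den_neg (l M : ℕ) (hM : l ≤ M) :
    ∃ z : ℤ, (lcmUpto M : ℚ) * 2 ^ ((l + 1) / 2) * rho (-(l + 1 : ℤ)) = z := by
  have h : rho (-(l + 1 : ℤ)) = ∑ m ∈ Finset.range l,
      ((2 * l - m - 1).choose l : ℚ) / ((m + 1 : ℕ) : ℚ) *
        ((g21 (m + 1) : ℚ) - (g3m (m + 1) : ℚ) / 2 ^ (m + 1)) := by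
    have : (-(l + 1 : ℤ)) = Int.negSucc l := by
      rw [Int.negSucc_eq]
    rw [this]; rfl
  rw [h, Finset.mul_sum]
  have key := exists_int_sum (Finset.range l) (fun m => (lcmUpto M : ℚ) * 2 ^ ((l + 1) / 2) *
      (((2 * l - m - 1).choose l : ℚ) / ((m + 1 : ℕ) : ℚ) *
        ((g21 (m + 1) : ℚ) - (g3m (m + 1) : ℚ) / 2 ^ (m + 1)))) 1 ?_
  · obtain ⟨z, hz⟩ := key
    exact ⟨z, by rw [hz, one_mul]⟩
  intro m hm
  have hm' : m + 1 ≤ l := by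
    have := Finset.mem_range.mp hm; omega
  obtain ⟨u, hu⟩ := dvd_lcmUpto (m := m + 1) (M := M) (by omega) (by omega)
  obtain ⟨t, ht⟩ := g3m_dvd (m + 1)
  obtain ⟨f, hf⟩ : ∃ f, (l + 1) / 2 + (m + 1) / 2 = (m + 1) + f :=
    ⟨(l + 1) / 2 + (m + 1) / 2 - (m + 1), by omega⟩
  refine ⟨u * ((2 * l - m - 1).choose l : ℤ) * (2 ^ ((l + 1) / 2) * g21 (m + 1) - 2 ^ f * t), ?_⟩
  have h1 : ((m + 1 : ℕ) : ℚ) ≠ 0 := by positivity
  have h2 : (2 : ℚ) ^ (m + 1) ≠ 0 := by positivity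
  have h3 : (2 : ℚ) ^ ((l + 1) / 2) * ((g3m (m + 1) : ℚ) / 2 ^ (m + 1)) = 2 ^ f * t := by
    rw [ht]
    push_cast
    rw [← mul_div_assoc, div_eq_iff h2, ← mul_assoc, ← pow_add, hf, pow_add]
    ring
  calc (lcmUpto M : ℚ) * 2 ^ ((l + 1) / 2) *
      (((2 * l - m - 1).choose l : ℚ) / ((m + 1 : ℕ) : ℚ) *
        ((g21 (m + 1) : ℚ) - (g3m (m + 1) : ℚ) / 2 ^ (m + 1)))
      = ((lcmUpto M : ℚ) / ((m + 1 : ℕ) : ℚ)) * ((2 * l - m - 1).choose l : ℚ) *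
        (2 ^ ((l + 1) / 2) * (g21 (m + 1) : ℚ) -
          (2 : ℚ) ^ ((l + 1) / 2) * ((g3m (m + 1) : ℚ) / 2 ^ (m + 1))) := by ring
    _ = (u : ℚ) * ((2 * l - m - 1).choose l : ℚ) *
        (2 ^ ((l + 1) / 2) * (g21 (m + 1) : ℚ) - 2 ^ f * t) := by
        rw [h3, hu]
        push_cast
        push_cast at h1
        field_simp
    _ = _ := by push_cast; ring

/-- divisibility type in the 2-adic sense -/
def T2 (e : ℕ) (P : ℤ[X]) : Prop := ∀ i, (2 : ℤ) ^ (e - i / 2) ∣ P.coeff i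

theorem T2.mul {e f : ℕ} {P Q : ℤ[X]} (hP : T2 e P) (hQ : T2 f Q) : T2 (e + f) (P * Q) := by
  intro i
  rw [Polynomial.coeff_mul]
  apply Finset.dvd_sum
  intro x hx
  have hx' := Finset.HasAntidiagonal.mem_antidiagonal.mp hx
  have h1 := mul_dvd_mul (hP x.1) (hQ x.2)
  rw [← pow_add] at h1
  exact (pow_dvd_pow 2 (by omega)).trans h1

theorem T2.pow {e : ℕ} {P : ℤ[X]} (hP : T2 e P) (n : ℕ) : T2 (n * e) (P ^ n) := by
  induction n with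
  | zero => intro i; simp
  | succ n ih =>
    rw [pow_succ, Nat.succ_mul]
    exact ih.mul hP

theorem T2_zero (P : ℤ[X]) : T2 0 P := by
  intro i; simp

theorem q_coeff (i : ℕ) : (25 * X ^ 2 - 14 * X + 2 : ℤ[X]).coeff i =
    if i = 0 then 2 else if i = 1 then -14 else if i = 2 then 25 else 0 := by
  have h25 : (25 : ℤ[X]) = C 25 := rfl
  have h14 : (14 : ℤ[X]) = C 14 := rfl
  have h2 : (2 : ℤ[X]) = C 2 := rfl
  rw [h25, h14, h2, Polynomial.coeff_add, Polynomial.coeff_sub, Polynomial.coeff_C_mul,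
      Polynomial.coeff_C_mul, Polynomial.coeff_X_pow, Polynomial.coeff_X, Polynomial.coeff_C]
  match i with
  | 0 => norm_num
  | 1 => norm_num
  | 2 => norm_num
  | n + 3 =>
    rw [if_neg (by omega), if_neg (by omega), if_neg (by omega), if_neg (by omega),
      if_neg (by omega), if_neg (by omega)]
    norm_num

theorem lin_coeff (i : ℕ) : (1 - 4 * X : ℤ[X]).coeff i =
    if i = 0 then 1 else if i = 1 then -4 else 0 := by
  have h4 : (4 : ℤ[X]) = C 4 := rfl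
  rw [h4, Polynomial.coeff_sub, Polynomial.coeff_C_mul, Polynomial.coeff_X, Polynomial.coeff_one]
  match i with
  | 0 => norm_num
  | 1 => norm_num
  | n + 2 =>
    rw [if_neg (by omega), if_neg (by omega), if_neg (by omega), if_neg (by omega)]
    norm_num

theorem T2_q : T2 1 (25 * X ^ 2 - 14 * X + 2) := by
  intro i
  rw [q_coeff]
  match i with
  | 0 => norm_num
  | 1 => norm_num
  | n + 2 =>
    have h0 : 1 - (n + 2) / 2 = 0 := by omega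
    rw [h0]; simp

theorem NZ_coeff_two (v i : ℕ) : (2 : ℤ) ^ (2 * v - i / 2) ∣ (NZ v).coeff i := by
  have h : T2 (0 + (2 * v) * 1) (NZ v) := (T2_zero _).mul (T2_q.pow (2 * v))
  have := h i
  simpa using this

/-- divisibility type in the 5-adic sense -/
def T5 (e : ℕ) (P : ℤ[X]) : Prop := ∀ i, (25 : ℤ) ^ (i - e) ∣ P.coeff i

theorem T5.mul {e f : ℕ} {P Q : ℤ[X]} (hP : T5 e P) (hQ : T5 f Q) : T5 (e + f) (P * Q) := by
  intro i
  rw [Polynomial.coeff_mul]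
  apply Finset.dvd_sum
  intro x hx
  have hx' := Finset.HasAntidiagonal.mem_antidiagonal.mp hx
  have h1 := mul_dvd_mul (hP x.1) (hQ x.2)
  rw [← pow_add] at h1
  exact (pow_dvd_pow 25 (by omega)).trans h1

theorem T5.pow {e : ℕ} {P : ℤ[X]} (hP : T5 e P) (n : ℕ) : T5 (n * e) (P ^ n) := by
  induction n with
  | zero =>
    intro i
    rcases Nat.eq_zero_or_pos i with h | h
    · subst h; simp
    · rw [pow_zero, Polynomial.coeff_one, if_neg (by omega)]; exact dvd_zero _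
  | succ n ih =>
    rw [pow_succ, Nat.succ_mul]
    exact ih.mul hP

theorem T5_q : T5 1 (25 * X ^ 2 - 14 * X + 2) := by
  intro i
  rw [q_coeff]
  match i with
  | 0 => norm_num
  | 1 => norm_num
  | 2 => norm_num
  | n + 3 => simp

theorem T5_lin : T5 1 (1 - 4 * X) := by
  intro i
  rw [lin_coeff]
  match i with
  | 0 => norm_num
  | 1 => norm_num
  | n + 2 => simp

theorem NZ_coeff_five (v i : ℕ) : (25 : ℤ) ^ (i - 3 * v) ∣ (NZ v).coeff i := by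
  have h : T5 (v * 1 + (2 * v) * 1) (NZ v) := (T5_lin.pow v).mul (T5_q.pow (2 * v))
  have := h i
  have he : v * 1 + 2 * v * 1 = 3 * v := by ring
  rwa [he] at this

theorem NZ_coeff_both (v i : ℕ) :
    ∃ z : ℤ, (NZ v).coeff i = 2 ^ (2 * v - i / 2) * 25 ^ (i - 3 * v) * z := by
  have h : IsCoprime ((2 : ℤ) ^ (2 * v - i / 2)) ((25 : ℤ) ^ (i - 3 * v)) := by
    apply IsCoprime.pow
    exact ⟨-12, 1, by norm_num⟩
  obtain ⟨z, hz⟩ := h.mul_dvd (NZ_coeff_two v i) (NZ_coeff_five v i)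
  exact ⟨z, hz⟩

theorem NZ_natDegree_le (v : ℕ) : (NZ v).natDegree ≤ 5 * v := by
  unfold NZ
  have h1 : (1 - 4 * X : ℤ[X]).natDegree ≤ 1 := by compute_degree
  have h2 : (25 * X ^ 2 - 14 * X + 2 : ℤ[X]).natDegree ≤ 2 := by compute_degree
  have h3 := Polynomial.natDegree_pow_le_of_le v h1
  have h4 := Polynomial.natDegree_pow_le_of_le (2 * v) h2
  refine (Polynomial.natDegree_mul_le_of_le h3 h4).trans (by omega)

theorem Rf_eq_sum_of_le (c : ℤ) (N : ℚ[X]) (d : ℕ) (hd : N.natDegree ≤ d) :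
    Rf c N = ∑ i ∈ Finset.range (d + 1), N.coeff i * rho (i - c) := by
  conv_lhs => rw [N.as_sum_range' (d + 1) (by omega), map_sum]
  simp [Rf_monomial]

theorem Lf_eq_sum_of_le (c : ℤ) (N : ℚ[X]) (d : ℕ) (hd : N.natDegree ≤ d) :
    Lf c N = ∑ i ∈ Finset.range (d + 1), N.coeff i * lam (i - c) := by
  conv_lhs => rw [N.as_sum_range' (d + 1) (by omega), map_sum]
  simp [Lf_monomial]

theorem NQ_natDegree_le (v : ℕ) : (NQ v).natDegree ≤ 5 * v :=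
  (Polynomial.natDegree_map_le).trans (NZ_natDegree_le v)

theorem NQ_coeff (v i : ℕ) : (NQ v).coeff i = ((NZ v).coeff i : ℚ) := by
  simp [NQ]

/-- combined 2-adic, 5-adic and lcm information; `c = 3v - n + 1 - k`, `k ≤ 2` -/
theorem Rf_den (v n k : ℕ) (hk : k ≤ 2) (hn : n + 3 ≤ v) (c : ℤ) (hc : c = 3 * v - n + 1 - k) :
    ∃ z : ℤ, (lcmUpto (4 * v + 2 * n + 3) : ℚ) * 5 ^ (2 * n + 3) * Rf c (NQ v) =
      2 ^ ((v + n - 1) / 2) * z := by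
  rw [Rf_eq_sum_of_le c _ (5 * v) (NQ_natDegree_le v), Finset.mul_sum]
  apply exists_int_sum
  intro i hi
  have hi' : i ≤ 5 * v := by
    have := Finset.mem_range.mp hi; omega
  rw [NQ_coeff]
  obtain ⟨y, hy⟩ := NZ_coeff_both v i
  rw [hy]
  rcases le_or_gt c (i : ℤ) with hci | hci
  · obtain ⟨j, hj⟩ := Int.eq_ofNat_of_zero_le (sub_nonneg.mpr hci)
    rw [hj]
    obtain ⟨z, hz⟩ := rho_den_nonneg j (4 * v + 2 * n + 3) (by omega)
    obtain ⟨e, he⟩ : ∃ e, (2 * n + 3) + 2 * (i - 3 * v) = (2 * j + 1) + e :=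
      ⟨(2 * n + 3) + 2 * (i - 3 * v) - (2 * j + 1), by omega⟩
    obtain ⟨f, hf⟩ : ∃ f, (2 * v - i / 2) + (j + 1) / 2 = (v + n - 1) / 2 + f :=
      ⟨(2 * v - i / 2) + (j + 1) / 2 - (v + n - 1) / 2, by omega⟩
    refine ⟨5 ^ e * 2 ^ f * y * z, ?_⟩
    push_cast
    have h25 : (25 : ℚ) ^ (i - 3 * v) = 5 ^ (2 * (i - 3 * v)) := by
      rw [pow_mul]; norm_num
    calc (lcmUpto (4 * v + 2 * n + 3) : ℚ) * 5 ^ (2 * n + 3) *
          (2 ^ (2 * v - i / 2) * 25 ^ (i - 3 * v) * (y : ℚ) * rho j)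
        = (5 : ℚ) ^ ((2 * n + 3) + 2 * (i - 3 * v)) * 2 ^ (2 * v - i / 2) * y *
            (lcmUpto (4 * v + 2 * n + 3) * rho j) := by rw [h25, pow_add]; ring
      _ = (5 : ℚ) ^ e * 2 ^ (2 * v - i / 2) * y *
            (lcmUpto (4 * v + 2 * n + 3) * 5 ^ (2 * j + 1) * rho j) := by rw [he, pow_add]; ring
      _ = (5 : ℚ) ^ e * 2 ^ ((2 * v - i / 2) + (j + 1) / 2) * y * z := by
            rw [hz, pow_add]; ring
      _ = _ := by rw [hf, pow_add]; ring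
  · obtain ⟨l, hl⟩ : ∃ l : ℕ, (i : ℤ) - c = -(l + 1 : ℤ) :=
      ⟨(c - i - 1).toNat, by omega⟩
    rw [hl]
    obtain ⟨z, hz⟩ := rho_den_neg l (4 * v + 2 * n + 3) (by omega)
    obtain ⟨f, hf⟩ : ∃ f, (2 * v - i / 2) = (l + 1) / 2 + (v + n - 1) / 2 + f :=
      ⟨(2 * v - i / 2) - (l + 1) / 2 - (v + n - 1) / 2, by omega⟩
    refine ⟨5 ^ (2 * n + 3) * 25 ^ (i - 3 * v) * 2 ^ f * y * z, ?_⟩
    push_cast
    rw [hf, pow_add, pow_add]
    linear_combination (2 : ℚ) ^ ((v + n - 1) / 2) * 5 ^ (2 * n + 3) * 25 ^ (i - 3 * v) * 2 ^ f * y * hz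

theorem lam_int (j : ℤ) : ∃ z : ℤ, lam j = z := by
  cases j with
  | ofNat j => exact ⟨0, by simp [lam]⟩
  | negSucc l => exact ⟨((2 * l).choose l : ℕ), by simp [lam]⟩

theorem Lf_den (v n k : ℕ) (hk : k ≤ 2) (hn : n + 3 ≤ v) (c : ℤ) (hc : c = 3 * v - n + 1 - k) :
    ∃ z : ℤ, Lf c (NQ v) = 2 ^ ((v + n - 1) / 2) * z := by
  rw [Lf_eq_sum_of_le c _ (5 * v) (NQ_natDegree_le v)]
  apply exists_int_sum
  intro i hi
  rw [NQ_coeff]
  rcases le_or_gt c (i : ℤ) with hci | hci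
  · obtain ⟨j, hj⟩ := Int.eq_ofNat_of_zero_le (sub_nonneg.mpr hci)
    rw [hj]
    exact ⟨0, by simp [lam]⟩
  · obtain ⟨y, hy⟩ := NZ_coeff_two v i
    obtain ⟨z, hz⟩ := lam_int (i - c)
    obtain ⟨f, hf⟩ : ∃ f, (2 * v - i / 2) = (v + n - 1) / 2 + f :=
      ⟨(2 * v - i / 2) - (v + n - 1) / 2, by omega⟩
    refine ⟨2 ^ f * y * z, ?_⟩
    rw [hy, hz, hf, pow_add]
    push_cast
    ring

end Vale.Agent.P021
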