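import Vale.Agent.P021.Defs

/-!
# P021: the analytic link (antiderivatives of `N(y) y^{-c}`, `y = w (1 - w)`)
-/

open Polynomial Complex

namespace Vale.Agent.P021

/-- the recurrence for `rho` -/
def RhoRec : Prop := ∀ j : ℤ, (j : ℚ) * rho (j - 1) - (4 * j + 2) * rho j = beta j

/-- the recurrence for `lam` -/
def LamRec : Prop := ∀ j : ℤ, (j : ℚ) * lam (j - 1) - (4 * j + 2) * lam j = 0

theorem hasDerivAt_key (j : ℤ) (w : ℂ) (hw : w ≠ 0) (hw1 : 1 - w ≠ 0) :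
    HasDerivAt (fun w : ℂ => (1 - 2 * w) * (w * (1 - w)) ^ j)
      (j * (w * (1 - w)) ^ (j - 1) - (4 * j + 2) * (w * (1 - w)) ^ j) w := by
  have hy : w * (1 - w) ≠ 0 := mul_ne_zero hw hw1
  have h1 : HasDerivAt (fun w : ℂ => w * (1 - w)) (1 * (1 - w) + w * (0 - 1)) w :=
    (hasDerivAt_id' w).mul ((hasDerivAt_const w 1).sub (hasDerivAt_id' w))
  have h2 : HasDerivAt (fun w : ℂ => (w * (1 - w)) ^ j)
      (j * (w * (1 - w)) ^ (j - 1) * (1 * (1 - w) + w * (0 - 1))) w :=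
    HasDerivAt.comp (h₂ := fun z : ℂ => z ^ j) w (hasDerivAt_zpow j (w * (1 - w)) (Or.inl hy)) h1
  have h3 : HasDerivAt (fun w : ℂ => 1 - 2 * w) (0 - 2 * 1) w :=
    (hasDerivAt_const w 1).sub ((hasDerivAt_id' w).const_mul 2)
  have h4 : HasDerivAt (fun w : ℂ => (1 - 2 * w) * (w * (1 - w)) ^ j) _ w := h3.mul h2
  refine h4.congr_deriv ?_
  have h5 : (w * (1 - w)) ^ j = (w * (1 - w)) ^ (j - 1) * (w * (1 - w)) := by
    rw [zpow_sub_one₀ hy]; field_simp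
  rw [h5]
  ring

theorem w0_re : w0.re = 3 / 5 := by
  unfold w0
  rw [show (5 : ℂ) = ((5 : ℝ) : ℂ) by norm_num, Complex.div_ofReal_re]
  simp

theorem w0_im : w0.im = 1 / 5 := by
  unfold w0
  rw [show (5 : ℂ) = ((5 : ℝ) : ℂ) by norm_num, Complex.div_ofReal_im]
  simp

theorem w0_ne : w0 ≠ 0 := by
  intro h
  have := w0_re
  rw [h] at this
  norm_num at this

theorem one_sub_w0 : 1 - w0 = (2 - I) / 5 := by
  unfold w0; ring

theorem one_sub_w0_ne : 1 - w0 ≠ 0 := by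
  intro h
  have h1 : (1 - w0).re = 2 / 5 := by
    rw [Complex.sub_re, w0_re]; norm_num
  rw [h] at h1
  norm_num at h1

theorem w0_slit : w0 ∈ slitPlane := by
  left; rw [w0_re]; norm_num

theorem one_sub_w0_slit : 1 - w0 ∈ slitPlane := by
  left; rw [Complex.sub_re, w0_re]; norm_num

theorem half_slit : (1 / 2 : ℂ) ∈ slitPlane := by
  left
  have : ((1 : ℂ) / 2) = ((1 / 2 : ℝ) : ℂ) := by push_cast; ring
  rw [this, Complex.ofReal_re]; norm_num

theorem one_sub_half_slit : 1 - (1 / 2 : ℂ) ∈ slitPlane := by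
  have : 1 - (1 / 2 : ℂ) = 1 / 2 := by ring
  rw [this]; exact half_slit

theorem arg_one_add_I : (1 + I).arg = Real.pi / 4 := by
  have h : (1 + I) = ((Real.sqrt 2 : ℝ) : ℂ) *
      (Complex.cos ((Real.pi / 4 : ℝ) : ℂ) + Complex.sin ((Real.pi / 4 : ℝ) : ℂ) * I) := by
    rw [← Complex.ofReal_cos, ← Complex.ofReal_sin, Real.cos_pi_div_four, Real.sin_pi_div_four]
    have h2 : ((Real.sqrt 2 : ℝ) : ℂ) * ((Real.sqrt 2 : ℝ) : ℂ) = 2 := by
      rw [← Complex.ofReal_mul, Real.mul_self_sqrt (by norm_num)]; norm_num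
    push_cast
    linear_combination (-(1 + I) / 2) * h2
  rw [h, Complex.arg_mul_cos_add_sin_mul_I (by positivity)]
  constructor
  · have := Real.pi_pos; linarith
  · have := Real.pi_pos; linarith

theorem log_diff_im : (Complex.log w0 - Complex.log (1 - w0)).im = Real.pi / 4 := by
  have hm : w0 = (1 - w0) * (1 + I) := by
    rw [one_sub_w0]
    unfold w0
    have : I * I = -1 := Complex.I_mul_I
    linear_combination (1 / 5) * this
  have h1 : (1 - w0).arg < 0 := by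
    rw [Complex.arg_neg_iff]
    rw [Complex.sub_im, w0_im]; norm_num
  have h2 := Complex.neg_pi_lt_arg (1 - w0)
  have h3 := arg_one_add_I
  have hne : (1 + I) ≠ 0 := by
    intro h
    have := congrArg Complex.re h
    simp at this
  have h4 : Complex.log w0 = Complex.log (1 - w0) + Complex.log (1 + I) := by
    conv_lhs => rw [hm]
    rw [Complex.log_mul_eq_add_log_iff one_sub_w0_ne hne, h3]
    have := Real.pi_pos
    constructor
    · linarith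
    · linarith
  rw [h4, add_sub_cancel_left, Complex.log_im, h3]

/-- Gaussian integers cast: imaginary part -/
theorem gauss_im (z : GaussianInt) : ((GaussianInt.toComplex z).im) = (z.im : ℝ) := by
  simp

theorem beta_eq (j : ℤ) :
    ((1 - 2 * w0) * (w0 * (1 - w0)) ^ j).im = (beta j : ℝ) := by
  have hy : w0 * (1 - w0) = (7 - I) / 25 := by
    unfold w0
    have : I * I = -1 := Complex.I_mul_I
    linear_combination (-1 / 25) * this
  have h1 : 1 - 2 * w0 = (-1 - 2 * I) / 5 := by unfold w0; ring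
  rw [hy, h1]
  cases j with
  | ofNat j =>
    have h2 : ((⟨-1, -2⟩ * (⟨7, -1⟩ : GaussianInt) ^ j : GaussianInt) : ℂ)
        = (-1 - 2 * I) * (7 - I) ^ j := by
      rw [GaussianInt.toComplex_mul, map_pow]
      congr 1
      · rw [GaussianInt.toComplex_def']; push_cast; ring
      · congr 1
        rw [GaussianInt.toComplex_def']; push_cast; ring
    have h3 : (-1 - 2 * I) / 5 * ((7 - I) / 25) ^ (Int.ofNat j) =
        ((⟨-1, -2⟩ * (⟨7, -1⟩ : GaussianInt) ^ j : GaussianInt) : ℂ) / ((5 * 25 ^ j : ℝ) : ℂ) := by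
      rw [h2, Int.ofNat_eq_natCast, zpow_natCast, div_pow]
      push_cast
      field_simp
    rw [h3, Complex.div_ofReal_im, gauss_im]
    unfold beta
    push_cast
    rfl
  | negSucc l =>
    have h2 : ((⟨-1, -2⟩ * (⟨7, 1⟩ : GaussianInt) ^ (l + 1) : GaussianInt) : ℂ)
        = (-1 - 2 * I) * (7 + I) ^ (l + 1) := by
      rw [GaussianInt.toComplex_mul, map_pow]
      congr 1
      · rw [GaussianInt.toComplex_def']; push_cast; ring
      · congr 1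
        rw [GaussianInt.toComplex_def']; push_cast; ring
    have h7 : (7 - I) * (7 + I) = 50 := by
      have : I * I = -1 := Complex.I_mul_I
      linear_combination (-1) * this
    have h7n : (7 - I) ≠ 0 := by
      intro h; rw [h, zero_mul] at h7; norm_num at h7
    have hinv : ((7 - I) / 25)⁻¹ = (7 + I) / 2 := by
      rw [inv_div, div_eq_div_iff h7n (by norm_num)]
      linear_combination (-1) * h7
    have h3 : (-1 - 2 * I) / 5 * ((7 - I) / 25) ^ (Int.negSucc l) =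
        ((⟨-1, -2⟩ * (⟨7, 1⟩ : GaussianInt) ^ (l + 1) : GaussianInt) : ℂ) /
          ((5 * 2 ^ (l + 1) : ℝ) : ℂ) := by
      rw [h2, zpow_negSucc, ← inv_pow, hinv, div_pow]
      push_cast
      field_simp
    rw [h3, Complex.div_ofReal_im, gauss_im]
    unfold beta
    push_cast
    rfl

/-- domain -/
def Dom (w : ℂ) : Prop := w ∈ slitPlane ∧ 1 - w ∈ slitPlane

def PrimJ (j : ℤ) : Prop := ∃ Ψ : ℂ → ℂ, (∀ w, Dom w → HasDerivAt Ψ ((w * (1 - w)) ^ j) w) ∧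
  (Ψ w0 - Ψ (1 / 2)).im = (lam j : ℝ) * (Real.pi / 4) + (rho j : ℝ)

theorem dom_ne {w : ℂ} (h : Dom w) : w ≠ 0 := slitPlane_ne_zero h.1
theorem dom_ne' {w : ℂ} (h : Dom w) : 1 - w ≠ 0 := slitPlane_ne_zero h.2

theorem key_im (j : ℤ) : ((1 - 2 * w0) * (w0 * (1 - w0)) ^ j
    - (1 - 2 * (1 / 2 : ℂ)) * ((1 / 2 : ℂ) * (1 - 1 / 2)) ^ j).im = (beta j : ℝ) := by
  have h : (1 - 2 * (1 / 2 : ℂ)) = 0 := by norm_num
  rw [h, zero_mul, sub_zero, beta_eq]

theorem prim_zero : PrimJ 0 := by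
  refine ⟨fun w => w, fun w _ => ?_, ?_⟩
  · rw [zpow_zero]; exact hasDerivAt_id' w
  · have h1 : (w0 - 1 / 2 : ℂ).im = 1 / 5 := by
      rw [Complex.sub_im, w0_im]
      have : ((1 : ℂ) / 2) = ((1 / 2 : ℝ) : ℂ) := by push_cast; ring
      rw [this, Complex.ofReal_im]; norm_num
    have h2 : rho 0 = 1 / 5 := by
      unfold rho
      simp [g31]
    have h3 : lam 0 = 0 := rfl
    rw [h1, h2, h3]; norm_num

theorem prim_neg_one : PrimJ (-1) := by
  refine ⟨fun w => Complex.log w - Complex.log (1 - w), fun w hw => ?_, ?_⟩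
  · have h1 := Complex.hasDerivAt_log hw.1
    have h2 : HasDerivAt (fun w : ℂ => 1 - w) (0 - 1) w :=
      (hasDerivAt_const w 1).sub (hasDerivAt_id' w)
    have h3 : HasDerivAt (fun w : ℂ => Complex.log (1 - w)) ((1 - w)⁻¹ * (0 - 1)) w :=
      HasDerivAt.comp (h₂ := Complex.log) w (Complex.hasDerivAt_log hw.2) h2
    have h4 : HasDerivAt (fun w : ℂ => Complex.log w - Complex.log (1 - w)) _ w := h1.sub h3
    refine h4.congr_deriv ?_
    have := dom_ne hw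
    have := dom_ne' hw
    rw [zpow_neg_one]
    field_simp
    ring
  · have h1 : Complex.log (1 / 2 : ℂ) - Complex.log (1 - 1 / 2) = 0 := by
      have : (1 : ℂ) - 1 / 2 = 1 / 2 := by ring
      rw [this, sub_self]
    have h2 : rho (-1) = 0 := by
      show rho (Int.negSucc 0) = 0
      unfold rho
      simp
    have h3 : lam (-1) = 1 := by
      show lam (Int.negSucc 0) = 1
      unfold lam
      simp
    simp only [h1, sub_zero, log_diff_im, h2, h3]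
    norm_num

theorem prim_up (hr : RhoRec) (hl : LamRec) (j : ℤ) (hj : (4 * j + 2 : ℤ) ≠ 0)
    (h : PrimJ (j - 1)) : PrimJ j := by
  obtain ⟨Ψ, h1, h2⟩ := h
  have hjC : (4 * (j : ℂ) + 2) ≠ 0 := by exact_mod_cast hj
  have hjR : (4 * (j : ℝ) + 2) ≠ 0 := by exact_mod_cast hj
  have hr' : (j : ℝ) * (rho (j - 1) : ℝ) - (4 * j + 2) * (rho j : ℝ) = (beta j : ℝ) := by
    exact_mod_cast hr j
  have hl' : (j : ℝ) * (lam (j - 1) : ℝ) - (4 * j + 2) * (lam j : ℝ) = 0 := by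
    exact_mod_cast hl j
  refine ⟨fun w => (((4 * j + 2 : ℝ)⁻¹ : ℝ) : ℂ) *
    (((j : ℝ) : ℂ) * Ψ w - (1 - 2 * w) * (w * (1 - w)) ^ j), fun w hw => ?_, ?_⟩
  · have h3 := hasDerivAt_key j w (dom_ne hw) (dom_ne' hw)
    have h4 : HasDerivAt (fun w : ℂ => (((4 * j + 2 : ℝ)⁻¹ : ℝ) : ℂ) *
        (((j : ℝ) : ℂ) * Ψ w - (1 - 2 * w) * (w * (1 - w)) ^ j)) _ w :=
      (((h1 w hw).const_mul ((j : ℝ) : ℂ)).sub h3).const_mul (((4 * j + 2 : ℝ)⁻¹ : ℝ) : ℂ)
    refine h4.congr_deriv ?_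
    push_cast
    rw [show ((j : ℂ) * (w * (1 - w)) ^ (j - 1) - ((j : ℂ) * (w * (1 - w)) ^ (j - 1)
      - (4 * (j : ℂ) + 2) * (w * (1 - w)) ^ j)) = (4 * (j : ℂ) + 2) * (w * (1 - w)) ^ j by ring,
      inv_mul_cancel_left₀ hjC]
  · have h5 : ((((4 * j + 2 : ℝ)⁻¹ : ℝ) : ℂ) *
        (((j : ℝ) : ℂ) * Ψ w0 - (1 - 2 * w0) * (w0 * (1 - w0)) ^ j) -
        (((4 * j + 2 : ℝ)⁻¹ : ℝ) : ℂ) * (((j : ℝ) : ℂ) * Ψ (1 / 2) -
          (1 - 2 * (1 / 2 : ℂ)) * ((1 / 2 : ℂ) * (1 - 1 / 2)) ^ j)) =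
        (((4 * j + 2 : ℝ)⁻¹ : ℝ) : ℂ) * (((j : ℝ) : ℂ) * (Ψ w0 - Ψ (1 / 2)) -
        ((1 - 2 * w0) * (w0 * (1 - w0)) ^ j
          - (1 - 2 * (1 / 2 : ℂ)) * ((1 / 2 : ℂ) * (1 - 1 / 2)) ^ j)) := by ring
    rw [h5, Complex.im_ofReal_mul, Complex.sub_im, Complex.im_ofReal_mul, h2, key_im]
    rw [inv_mul_eq_iff_eq_mul₀ hjR]
    linear_combination (Real.pi / 4) * hl' + hr'

theorem prim_down (hr : RhoRec) (hl : LamRec) (j : ℤ) (hj : j ≠ 0)
    (h : PrimJ j) : PrimJ (j - 1) := by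
  obtain ⟨Ψ, h1, h2⟩ := h
  have hjC : (j : ℂ) ≠ 0 := by exact_mod_cast hj
  have hjR : (j : ℝ) ≠ 0 := by exact_mod_cast hj
  have hr' : (j : ℝ) * (rho (j - 1) : ℝ) - (4 * j + 2) * (rho j : ℝ) = (beta j : ℝ) := by
    exact_mod_cast hr j
  have hl' : (j : ℝ) * (lam (j - 1) : ℝ) - (4 * j + 2) * (lam j : ℝ) = 0 := by
    exact_mod_cast hl j
  refine ⟨fun w => (((j : ℝ)⁻¹ : ℝ) : ℂ) *
    (((4 * j + 2 : ℝ) : ℂ) * Ψ w + (1 - 2 * w) * (w * (1 - w)) ^ j), fun w hw => ?_, ?_⟩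
  · have h3 := hasDerivAt_key j w (dom_ne hw) (dom_ne' hw)
    have h4 : HasDerivAt (fun w : ℂ => (((j : ℝ)⁻¹ : ℝ) : ℂ) *
        (((4 * j + 2 : ℝ) : ℂ) * Ψ w + (1 - 2 * w) * (w * (1 - w)) ^ j)) _ w :=
      (((h1 w hw).const_mul ((4 * j + 2 : ℝ) : ℂ)).add h3).const_mul (((j : ℝ)⁻¹ : ℝ) : ℂ)
    refine h4.congr_deriv ?_
    push_cast
    rw [show ((4 * (j : ℂ) + 2) * (w * (1 - w)) ^ j + ((j : ℂ) * (w * (1 - w)) ^ (j - 1)
      - (4 * (j : ℂ) + 2) * (w * (1 - w)) ^ j)) = (j : ℂ) * (w * (1 - w)) ^ (j - 1) by ring,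
      inv_mul_cancel_left₀ hjC]
  · have h5 : ((((j : ℝ)⁻¹ : ℝ) : ℂ) *
        (((4 * j + 2 : ℝ) : ℂ) * Ψ w0 + (1 - 2 * w0) * (w0 * (1 - w0)) ^ j) -
        (((j : ℝ)⁻¹ : ℝ) : ℂ) * (((4 * j + 2 : ℝ) : ℂ) * Ψ (1 / 2) +
          (1 - 2 * (1 / 2 : ℂ)) * ((1 / 2 : ℂ) * (1 - 1 / 2)) ^ j)) =
        (((j : ℝ)⁻¹ : ℝ) : ℂ) * (((4 * j + 2 : ℝ) : ℂ) * (Ψ w0 - Ψ (1 / 2)) +
        ((1 - 2 * w0) * (w0 * (1 - w0)) ^ j
          - (1 - 2 * (1 / 2 : ℂ)) * ((1 / 2 : ℂ) * (1 - 1 / 2)) ^ j)) := by ring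
    rw [h5, Complex.im_ofReal_mul, Complex.add_im, Complex.im_ofReal_mul, h2, key_im]
    rw [inv_mul_eq_iff_eq_mul₀ hjR]
    linear_combination (-Real.pi / 4) * hl' - hr'

theorem prim_all (hr : RhoRec) (hl : LamRec) (j : ℤ) : PrimJ j := by
  have hpos : ∀ n : ℕ, PrimJ (n : ℤ) := by
    intro n
    induction n with
    | zero => exact prim_zero
    | succ n ih =>
      apply prim_up hr hl
      · push_cast; omega
      · push_cast
        rw [add_sub_cancel_right]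
        exact ih
  have hneg : ∀ n : ℕ, PrimJ (-(n : ℤ) - 1) := by
    intro n
    induction n with
    | zero => simpa using prim_neg_one
    | succ n ih =>
      have h := prim_down hr hl (-(n : ℤ) - 1) (by omega) ih
      have e : -((n + 1 : ℕ) : ℤ) - 1 = -(n : ℤ) - 1 - 1 := by push_cast; ring
      rw [e]; exact h
  rcases le_or_gt 0 j with h | h
  · obtain ⟨n, rfl⟩ := Int.eq_ofNat_of_zero_le h
    exact hpos n
  · have e : j = -(((-j - 1).toNat : ℕ) : ℤ) - 1 := by omega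
    rw [e]
    exact hneg _

theorem prim_poly (hr : RhoRec) (hl : LamRec) (c : ℤ) (N : ℚ[X]) :
    ∃ Ψ : ℂ → ℂ, (∀ w, Dom w → HasDerivAt Ψ (aeval (w * (1 - w)) N * (w * (1 - w)) ^ (-c)) w) ∧
    (Ψ w0 - Ψ (1 / 2)).im = (Lf c N : ℝ) * (Real.pi / 4) + (Rf c N : ℝ) := by
  induction N using Polynomial.induction_on' with
  | add p q hp hq =>
    obtain ⟨Ψ1, h1, h1'⟩ := hp
    obtain ⟨Ψ2, h2, h2'⟩ := hq
    refine ⟨fun w => Ψ1 w + Ψ2 w, fun w hw => ?_, ?_⟩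
    · refine ((h1 w hw).add (h2 w hw)).congr_deriv ?_
      rw [map_add]; ring
    · have e : Ψ1 w0 + Ψ2 w0 - (Ψ1 (1 / 2) + Ψ2 (1 / 2)) =
        (Ψ1 w0 - Ψ1 (1 / 2)) + (Ψ2 w0 - Ψ2 (1 / 2)) := by ring
      rw [e, Complex.add_im, h1', h2', map_add, map_add]
      push_cast
      ring
  | monomial i a =>
    obtain ⟨Ψ, h1, h2⟩ := prim_all hr hl (i - c)
    refine ⟨fun w => (((a : ℚ) : ℝ) : ℂ) * Ψ w, fun w hw => ?_, ?_⟩
    · refine ((h1 w hw).const_mul (((a : ℚ) : ℝ) : ℂ)).congr_deriv ?_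
      have hy : w * (1 - w) ≠ 0 := mul_ne_zero (dom_ne hw) (dom_ne' hw)
      have e : (w * (1 - w)) ^ ((i : ℤ) - c) = (w * (1 - w)) ^ i * (w * (1 - w)) ^ (-c) := by
        rw [sub_eq_add_neg (i : ℤ) c, zpow_add₀ hy, zpow_natCast]
      rw [Polynomial.aeval_monomial, e]
      simp only [eq_ratCast, Complex.ofReal_ratCast]
      ring
    · have e : (((a : ℚ) : ℝ) : ℂ) * Ψ w0 - (((a : ℚ) : ℝ) : ℂ) * Ψ (1 / 2) =
        (((a : ℚ) : ℝ) : ℂ) * (Ψ w0 - Ψ (1 / 2)) := by ring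
      rw [e, Complex.im_ofReal_mul, h2, Rf_monomial, Lf_monomial]
      push_cast
      ring

theorem lamRec : LamRec := by
  intro j
  rcases lt_trichotomy j 0 with h | h | h
  · obtain ⟨l, rfl⟩ : ∃ l : ℕ, j = Int.negSucc l := by
      refine ⟨(-j - 1).toNat, ?_⟩
      omega
    have e : Int.negSucc l - 1 = Int.negSucc (l + 1) := by omega
    rw [e]
    unfold lam
    simp only
    have hc : (l + 1) * (2 * (l + 1)).choose (l + 1) = 2 * (2 * l + 1) * (2 * l).choose l := by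
      have := Nat.succ_mul_centralBinom_succ l
      rwa [Nat.centralBinom_eq_two_mul_choose, Nat.centralBinom_eq_two_mul_choose] at this
    have hc' : ((l : ℚ) + 1) * ((2 * (l + 1)).choose (l + 1) : ℚ) =
        2 * (2 * l + 1) * ((2 * l).choose l : ℚ) := by exact_mod_cast hc
    rw [Int.cast_negSucc]
    push_cast
    linear_combination (-1) * hc'
  · subst h
    have h1 : lam 0 = 0 := rfl
    simp [h1]
  · obtain ⟨l, rfl⟩ : ∃ l : ℕ, j = Int.ofNat (l + 1) := ⟨(j - 1).toNat, by simp; omega⟩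
    have e : Int.ofNat (l + 1) - 1 = Int.ofNat l := by simp
    rw [e]
    unfold lam
    simp

end Vale.Agent.P021
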