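import Mathlib

/-!
# P021: two numerical inequalities between large integers (kernel arithmetic)
-/

namespace Vale.Agent.P021

/-- comparison of two large integers -/
def chkS (A B C K L D a1 a2 a3 a4 e f g : ℕ) : Bool :=
  Nat.ble (A ^ a1 * B ^ a2 * K ^ a4 * f ^ e * g) (C ^ a3 * L ^ a2 * D ^ e * 10 ^ 4)

/-- comparison of two large integers -/
def chkB (X Y Z W D a1 a2 e f g : ℕ) : Bool :=
  Nat.ble (X ^ a1 * W ^ a2 * D ^ e * 10 ^ 4) (Z ^ a1 * Y ^ a2 * f ^ e * g)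

theorem num_small_nat : chkS (15370944 ^ 2 + 8090908 ^ 2) (64562363449167 ^ 2 + 8727112277856 ^ 2)
    (53842736 ^ 2 + 2022727 ^ 2) (4 * 10 ^ 16) (256 * 10 ^ 28) (10 ^ 10) 1800 3600 5399 3599 17682
    27182818286 15873 = true := by
  decide +kernel

theorem num_big_nat : chkB 41222514 506 2100875 1225 (10 ^ 10) 3600 5399 15489
    27182818283 15654 = true := by
  decide +kernel

theorem num_small_real (A B C K L D : ℕ) (a1 a2 a3 a4 e f g : ℕ)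
    (h : chkS A B C K L D a1 a2 a3 a4 e f g = true) (ha : a3 = a1 + a4) (hK : 0 < K) (hL : 0 < L)
    (hD : 0 < D) (E : ℝ) (hE : 0 < E) (hE1 : 1 / E ≤ ((f : ℝ) / D) ^ e * (g / 10 ^ 4)) :
    ((A : ℝ) / K) ^ a1 * ((B : ℝ) / L) ^ a2 ≤ ((C : ℝ) / K) ^ a3 * E := by
  have h1 : (A : ℝ) ^ a1 * B ^ a2 * K ^ a4 * f ^ e * g ≤
      (C : ℝ) ^ a3 * L ^ a2 * D ^ e * 10 ^ 4 := by
    unfold chkS at h
    have := Nat.le_of_ble_eq_true h
    exact_mod_cast this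
  have hK' : (0 : ℝ) < K := by exact_mod_cast hK
  have hL' : (0 : ℝ) < L := by exact_mod_cast hL
  have hD' : (0 : ℝ) < D := by exact_mod_cast hD
  have hsplit : (K : ℝ) ^ a3 = K ^ a1 * K ^ a4 := by
    rw [← pow_add, ha]
  rw [div_pow, div_pow, div_pow, div_mul_div_comm, div_mul_eq_mul_div, div_le_div_iff₀
    (by positivity) (by positivity)]
  -- A^a1 B^a2 K^a3 ≤ C^a3 E (K^a1 L^a2)
  have h2 : (A : ℝ) ^ a1 * B ^ a2 * K ^ a4 * (1 / E) ≤ (C : ℝ) ^ a3 * L ^ a2 := by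
    have h3 : (A : ℝ) ^ a1 * B ^ a2 * K ^ a4 * (1 / E) ≤
        (A : ℝ) ^ a1 * B ^ a2 * K ^ a4 * (((f : ℝ) / D) ^ e * (g / 10 ^ 4)) :=
      mul_le_mul_of_nonneg_left hE1 (by positivity)
    refine h3.trans ?_
    have h4 : (A : ℝ) ^ a1 * B ^ a2 * K ^ a4 * (((f : ℝ) / D) ^ e * (g / 10 ^ 4)) =
        ((A : ℝ) ^ a1 * B ^ a2 * K ^ a4 * f ^ e * g) / (D ^ e * 10 ^ 4) := by
      rw [div_pow]; field_simp
    rw [h4, div_le_iff₀ (by positivity)]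
    calc _ ≤ (C : ℝ) ^ a3 * L ^ a2 * D ^ e * 10 ^ 4 := h1
      _ = _ := by ring
  have h5 : (A : ℝ) ^ a1 * B ^ a2 * K ^ a4 ≤ (C : ℝ) ^ a3 * L ^ a2 * E := by
    have := mul_le_mul_of_nonneg_right h2 hE.le
    rwa [mul_assoc _ (1 / E) E, one_div_mul_cancel hE.ne', mul_one] at this
  rw [hsplit]
  calc (A : ℝ) ^ a1 * B ^ a2 * (K ^ a1 * K ^ a4)
      = ((A : ℝ) ^ a1 * B ^ a2 * K ^ a4) * K ^ a1 := by ring
    _ ≤ ((C : ℝ) ^ a3 * L ^ a2 * E) * K ^ a1 := mul_le_mul_of_nonneg_right h5 (by positivity)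
    _ = _ := by ring

theorem exp_462 : Real.exp (462 / 1000) ≤ 15873 / 10 ^ 4 := by
  have h := Real.exp_bound' (x := 462 / 1000) (by norm_num) (by norm_num) (n := 8) (by norm_num)
  refine h.trans ?_
  simp only [Finset.sum_range_succ, Finset.sum_range_zero, Nat.factorial]
  norm_num

theorem exp_4482 : 15654 / 10 ^ 4 ≤ Real.exp (4482 / 10000) := by
  have h := Real.sum_le_exp_of_nonneg (x := 4482 / 10000) (by norm_num) 8
  refine le_trans ?_ h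
  simp only [Finset.sum_range_succ, Finset.sum_range_zero, Nat.factorial]
  norm_num

theorem exp_split (n : ℕ) (x : ℝ) : Real.exp (n + x) = Real.exp 1 ^ n * Real.exp x := by
  rw [Real.exp_add, ← Real.exp_nat_mul, mul_one]

theorem exp_small_bound : 1 / Real.exp (-(17682.462)) ≤
    (((27182818286 : ℕ) : ℝ) / ((10 ^ 10 : ℕ) : ℝ)) ^ 17682 * (((15873 : ℕ) : ℝ) / 10 ^ 4) := by
  rw [one_div, ← Real.exp_neg, neg_neg]
  have e : (17682.462 : ℝ) = ((17682 : ℕ) : ℝ) + 462 / 1000 := by norm_num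
  rw [e, exp_split]
  have h1 : Real.exp 1 ≤ ((27182818286 : ℕ) : ℝ) / ((10 ^ 10 : ℕ) : ℝ) := by
    have := Real.exp_one_lt_d9
    norm_num
    linarith
  have h2 := exp_462
  have h3 : (0 : ℝ) ≤ Real.exp 1 ^ 17682 := by positivity
  have h4 : Real.exp 1 ^ 17682 ≤ (((27182818286 : ℕ) : ℝ) / ((10 ^ 10 : ℕ) : ℝ)) ^ 17682 :=
    pow_le_pow_left₀ (Real.exp_pos 1).le h1 _
  refine mul_le_mul h4 ?_ (Real.exp_pos _).le (h3.trans h4)
  exact_mod_cast h2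

theorem num_big_real (X Y Z W D : ℕ) (a1 a2 e f g : ℕ)
    (h : chkB X Y Z W D a1 a2 e f g = true)
    (hZ : 0 < Z) (hW : 0 < W)
    (hD : 0 < D) (E : ℝ) (hE1 : ((f : ℝ) / D) ^ e * (g / 10 ^ 4) ≤ E) :
    ((X : ℝ) / Z) ^ a1 ≤ ((Y : ℝ) / W) ^ a2 * E := by
  have h1 : (X : ℝ) ^ a1 * W ^ a2 * D ^ e * 10 ^ 4 ≤ (Z : ℝ) ^ a1 * Y ^ a2 * f ^ e * g := by
    unfold chkB at h
    have := Nat.le_of_ble_eq_true h
    exact_mod_cast this
  have hZ' : (0 : ℝ) < Z := by exact_mod_cast hZ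
  have hW' : (0 : ℝ) < W := by exact_mod_cast hW
  have hD' : (0 : ℝ) < D := by exact_mod_cast hD
  have h2 : ((X : ℝ) / Z) ^ a1 ≤ ((Y : ℝ) / W) ^ a2 * (((f : ℝ) / D) ^ e * (g / 10 ^ 4)) := by
    rw [div_pow, div_pow, div_pow, div_mul_div_comm, div_mul_div_comm, div_le_div_iff₀
      (by positivity) (by positivity)]
    calc _ = (X : ℝ) ^ a1 * W ^ a2 * D ^ e * 10 ^ 4 := by ring
      _ ≤ _ := h1
      _ = _ := by ring
  refine h2.trans (mul_le_mul_of_nonneg_left hE1 (by positivity))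

theorem exp_big_bound : (((27182818283 : ℕ) : ℝ) / ((10 ^ 10 : ℕ) : ℝ)) ^ 15489 *
    (((15654 : ℕ) : ℝ) / 10 ^ 4) ≤ Real.exp 15489.4482 := by
  have e : (15489.4482 : ℝ) = ((15489 : ℕ) : ℝ) + 4482 / 10000 := by norm_num
  rw [e, exp_split]
  have h1 : ((27182818283 : ℕ) : ℝ) / ((10 ^ 10 : ℕ) : ℝ) ≤ Real.exp 1 := by
    have := Real.exp_one_gt_d9
    norm_num
    linarith
  have h2 := exp_4482
  have h4 : (((27182818283 : ℕ) : ℝ) / ((10 ^ 10 : ℕ) : ℝ)) ^ 15489 ≤ Real.exp 1 ^ 15489 :=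
    pow_le_pow_left₀ (by positivity) h1 _
  refine mul_le_mul h4 ?_ (by positivity) (by positivity)
  exact_mod_cast h2

end Vale.Agent.P021
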