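import Mathlib

open Filter Topology MeasureTheory Set Complex

namespace Vale.Agent.P021

/-- The triangle function. -/
noncomputable def tri (t : ℝ) : ℝ := max 0 (1 - |t|)

/-- The Fejer kernel (Fourier transform of the triangle function). -/
noncomputable def fej (x : ℝ) : ℝ := if x = 0 then 1 else 2 * (1 - Real.cos x) / x ^ 2

lemma tri_nonneg (t : ℝ) : 0 ≤ tri t := le_max_left _ _

lemma tri_le_one (t : ℝ) : tri t ≤ 1 := by
  unfold tri
  exact max_le zero_le_one (by linarith [abs_nonneg t])

lemma continuous_tri : Continuous tri := by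
  unfold tri
  fun_prop

lemma tri_eq_zero {t : ℝ} (ht : 1 ≤ |t|) : tri t = 0 := by
  unfold tri
  exact max_eq_left (by linarith)

lemma tri_of_mem_pos {t : ℝ} (h0 : 0 ≤ t) (h1 : t ≤ 1) : tri t = 1 - t := by
  unfold tri
  rw [abs_of_nonneg h0]
  exact max_eq_right (by linarith)

lemma tri_of_mem_neg {t : ℝ} (h0 : t ≤ 0) (h1 : -1 ≤ t) : tri t = 1 + t := by
  unfold tri
  rw [abs_of_nonpos h0]
  rw [max_eq_right (by linarith)]
  ring

lemma fej_nonneg (x : ℝ) : 0 ≤ fej x := by
  unfold fej
  split_ifs
  · norm_num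
  · have := Real.cos_le_one x
    exact div_nonneg (by linarith) (sq_nonneg x)

lemma integral_tri_exp (x : ℝ) :
    ∫ t : ℝ, (tri t : ℂ) * exp (I * x * t) = (fej x : ℂ) := by
  have hsupp : ∫ t : ℝ, (tri t : ℂ) * exp (I * x * t)
      = ∫ t in (-1 : ℝ)..1, (tri t : ℂ) * exp (I * x * t) := by
    rw [intervalIntegral.integral_of_le (by norm_num)]
    symm
    apply setIntegral_eq_integral_of_forall_compl_eq_zero
    intro t ht
    have : 1 ≤ |t| := by
      by_contra hlt
      push Not at hlt
      apply ht
      rw [abs_lt] at hlt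
      exact ⟨hlt.1, hlt.2.le⟩
    rw [tri_eq_zero this]
    simp
  have hcont : Continuous (fun t : ℝ => (tri t : ℂ) * exp (I * x * t)) := by
    have := continuous_tri
    fun_prop
  rw [hsupp, ← intervalIntegral.integral_add_adjacent_intervals (b := 0)
    (hcont.intervalIntegrable _ _) (hcont.intervalIntegrable _ _)]
  have h1 : ∫ t in (-1 : ℝ)..0, (tri t : ℂ) * exp (I * x * t)
      = ∫ t in (-1 : ℝ)..0, (1 + t : ℂ) * exp (I * x * t) := by
    apply intervalIntegral.integral_congr
    intro t ht
    rw [uIcc_of_le (by norm_num)] at ht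
    simp only
    rw [tri_of_mem_neg ht.2 ht.1]
    push_cast
    ring
  have h2 : ∫ t in (0 : ℝ)..1, (tri t : ℂ) * exp (I * x * t)
      = ∫ t in (0 : ℝ)..1, (1 - t : ℂ) * exp (I * x * t) := by
    apply intervalIntegral.integral_congr
    intro t ht
    rw [uIcc_of_le (by norm_num)] at ht
    simp only
    rw [tri_of_mem_pos ht.1 ht.2]
    push_cast
    ring
  rw [h1, h2]
  by_cases hx : x = 0
  · subst hx
    have e1 : ∫ t in (-1 : ℝ)..0, (1 + t : ℂ) * exp (I * (0 : ℝ) * t) = 1 / 2 := by
      have : (fun t : ℝ => (1 + t : ℂ) * exp (I * (0 : ℝ) * t)) = fun t : ℝ => ((1 + t : ℝ) : ℂ) := by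
        ext t
        simp
      have h3 : ∫ t in (-1 : ℝ)..0, (1 + t) = 1 / 2 := by
        rw [intervalIntegral.integral_add (by simp) (by simp)]
        simp
        norm_num
      rw [this, intervalIntegral.integral_ofReal, h3]
      norm_num
    have e2 : ∫ t in (0 : ℝ)..1, (1 - t : ℂ) * exp (I * (0 : ℝ) * t) = 1 / 2 := by
      have : (fun t : ℝ => (1 - t : ℂ) * exp (I * (0 : ℝ) * t)) = fun t : ℝ => ((1 - t : ℝ) : ℂ) := by
        ext t
        simp
      have h3 : ∫ t in (0 : ℝ)..1, (1 - t) = 1 / 2 := by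
        rw [intervalIntegral.integral_sub (by simp) (by simp)]
        simp
        norm_num
      rw [this, intervalIntegral.integral_ofReal, h3]
      norm_num
    rw [e1, e2]
    simp [fej]
    norm_num
  · have hxc : (x : ℂ) ≠ 0 := by exact_mod_cast hx
    have d1 : ∀ t : ℝ, HasDerivAt
        (fun t : ℝ => exp (I * x * t) * ((1 + t : ℂ) / (I * x) + 1 / (x : ℂ) ^ 2))
        ((1 + t : ℂ) * exp (I * x * t)) t := by
      intro t
      have he : HasDerivAt (fun t : ℝ => exp (I * x * t)) (exp (I * x * t) * (I * x * 1)) t := by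
        have := (((hasDerivAt_id (t : ℂ)).const_mul (I * x)).cexp).comp_ofReal
        simpa using this
      have hl : HasDerivAt (fun t : ℝ => ((1 + t : ℂ) / (I * x) + 1 / (x : ℂ) ^ 2)) (1 / (I * x)) t := by
        have := ((((hasDerivAt_id (t : ℂ)).const_add 1).div_const (I * x)).add_const
          (1 / (x : ℂ) ^ 2)).comp_ofReal
        simpa using this
      have := he.mul hl
      refine this.congr_deriv ?_
      field_simp
      ring_nf
      simp [I_sq]
      ring
    have d2 : ∀ t : ℝ, HasDerivAt
        (fun t : ℝ => exp (I * x * t) * ((1 - t : ℂ) / (I * x) - 1 / (x : ℂ) ^ 2))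
        ((1 - t : ℂ) * exp (I * x * t)) t := by
      intro t
      have he : HasDerivAt (fun t : ℝ => exp (I * x * t)) (exp (I * x * t) * (I * x * 1)) t := by
        have := (((hasDerivAt_id (t : ℂ)).const_mul (I * x)).cexp).comp_ofReal
        simpa using this
      have hl : HasDerivAt (fun t : ℝ => ((1 - t : ℂ) / (I * x) - 1 / (x : ℂ) ^ 2)) (-1 / (I * x)) t := by
        have := ((((hasDerivAt_id (t : ℂ)).const_sub 1).div_const (I * x)).sub_const
          (1 / (x : ℂ) ^ 2)).comp_ofReal
        simpa using this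
      have := he.mul hl
      refine this.congr_deriv ?_
      field_simp
      ring_nf
      simp [I_sq]
      ring
    rw [intervalIntegral.integral_eq_sub_of_hasDerivAt (fun t _ => d1 t)
      (Continuous.intervalIntegrable (by fun_prop) _ _),
      intervalIntegral.integral_eq_sub_of_hasDerivAt (fun t _ => d2 t)
      (Continuous.intervalIntegrable (by fun_prop) _ _)]
    simp only [fej, if_neg hx]
    push_cast
    have hcos : cos (x : ℂ) = (exp (x * I) + exp (-x * I)) / 2 := by
      rw [Complex.cos]
    rw [hcos]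
    have e1 : I * (x : ℂ) * (-1) = -x * I := by ring
    have e2 : I * (x : ℂ) * 1 = x * I := by ring
    simp only [e1, e2, mul_zero, Complex.exp_zero]
    field_simp
    ring

lemma integral_tri_scaled {l : ℝ} (hl : 0 < l) (x : ℝ) :
    ∫ t : ℝ, (tri (t / l) : ℂ) * exp (I * x * t) = ((l * fej (l * x) : ℝ) : ℂ) := by
  have h := Measure.integral_comp_div (fun t : ℝ => (tri t : ℂ) * exp (I * (l * x : ℝ) * t)) l
  rw [integral_tri_exp, abs_of_pos hl, Complex.real_smul] at h
  rw [Complex.ofReal_mul, ← h]
  congr 1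
  ext t
  have hlc : (l : ℂ) ≠ 0 := by exact_mod_cast hl.ne'
  congr 2
  push_cast
  field_simp

lemma fej_le (x : ℝ) : fej x ≤ 5 * (1 + x ^ 2)⁻¹ := by
  rw [← div_eq_mul_inv, le_div_iff₀ (by positivity)]
  unfold fej
  split_ifs with h
  · subst h
    norm_num
  · have h1 := Real.one_sub_sq_div_two_le_cos (x := x)
    have h2 := Real.neg_one_le_cos x
    have hx : 0 < x ^ 2 := by positivity
    rw [div_mul_eq_mul_div, div_le_iff₀ hx]
    nlinarith

lemma measurable_fej : Measurable fej := by
  unfold fej
  apply Measurable.ite (measurableSet_singleton (0 : ℝ))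
  · fun_prop
  · fun_prop

lemma integrable_fej : Integrable fej := by
  apply Integrable.mono' (integrable_inv_one_add_sq.const_mul 5) measurable_fej.aestronglyMeasurable
  filter_upwards with x
  rw [Real.norm_of_nonneg (fej_nonneg x)]
  exact fej_le x

lemma integral_fej_pos : 0 < ∫ x, fej x := by
  rw [integral_pos_iff_support_of_nonneg fej_nonneg integrable_fej]
  refine lt_of_lt_of_le ?_ (measure_mono (s := Ioo (0 : ℝ) 1) ?_)
  · simp
  · intro x hx
    rw [Function.mem_support]
    unfold fej
    rw [if_neg hx.1.ne']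
    have hc : Real.cos x < 1 := by
      have := Real.cos_lt_cos_of_nonneg_of_le_pi (x := 0) (y := x) le_rfl
        (by linarith [Real.pi_gt_three, hx.2]) hx.1
      simpa using this
    have : 0 < x ^ 2 := by have := hx.1; positivity
    exact (div_pos (by linarith) this).ne'

/-- Main identity. -/
theorem laplace_fejer {S : ℝ → ℝ} {M : ℝ} (hSm : Measurable S) (hSM : ∀ u, |S u| ≤ M)
    {G : ℂ → ℂ} (hG : ContinuousOn G {s | 0 ≤ s.re})
    (hSG : ∀ s : ℂ, 0 < s.re → ∫ u in Ioi (0:ℝ), (S u : ℂ) * exp (-s * u) = G s)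
    {φ K : ℝ → ℝ} {R : ℝ} (hφ : Continuous φ) (hφR : ∀ t, R ≤ |t| → φ t = 0)
    (hK : Integrable K) (hφK : ∀ x : ℝ, ∫ t : ℝ, (φ t : ℂ) * exp (I * x * t) = (K x : ℂ))
    (y : ℝ) :
    ∫ t : ℝ, (φ t : ℂ) * exp (I * y * t) * G (I * t)
      = ∫ u in Ioi (0:ℝ), ((S u : ℂ) * (K (y - u) : ℂ)) := by
  have hM : 0 ≤ M := (abs_nonneg _).trans (hSM 0)
  have hφcs : HasCompactSupport φ := by
    apply HasCompactSupport.intro (K := Icc (-R) R) isCompact_Icc
    intro t ht
    apply hφR
    by_contra hlt
    push Not at hlt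
    rw [abs_lt] at hlt
    exact ht ⟨hlt.1.le, hlt.2.le⟩
  have hφi : Integrable φ := hφ.integrable_of_hasCompactSupport hφcs
  -- identity for positive sigma
  have key : ∀ σ : ℝ, 0 < σ →
      ∫ t : ℝ, (φ t : ℂ) * exp (I * y * t) * G (σ + I * t)
      = ∫ u in Ioi (0:ℝ), ((S u : ℂ) * (Real.exp (-σ * u) : ℂ) * (K (y - u) : ℂ)) := by
    intro σ hσ
    have hexp : Integrable (fun u : ℝ => Real.exp (-σ * u)) (volume.restrict (Ioi (0:ℝ))) :=
      integrableOn_exp_mul_Ioi (by linarith) 0
    have hSexp : Integrable (fun u : ℝ => (S u : ℂ) * (Real.exp (-σ * u) : ℂ))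
        (volume.restrict (Ioi (0:ℝ))) := by
      apply Integrable.mono' (hexp.const_mul M)
      · exact ((Complex.measurable_ofReal.comp hSm).mul
          (Complex.measurable_ofReal.comp (by fun_prop))).aestronglyMeasurable
      · filter_upwards with u
        rw [norm_mul, Complex.norm_real, Complex.norm_real, Real.norm_eq_abs,
          Real.norm_of_nonneg (Real.exp_pos _).le]
        exact mul_le_mul_of_nonneg_right (hSM u) (Real.exp_pos _).le
    have hprod := (hφi.ofReal (𝕜 := ℂ)).mul_prod hSexp
    have hint : Integrable (Function.uncurry fun (t : ℝ) (u : ℝ) =>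
        (φ t : ℂ) * exp (I * y * t) * ((S u : ℂ) * exp (-(σ + I * t) * u)))
        (volume.prod (volume.restrict (Ioi (0:ℝ)))) := by
      apply Integrable.mono hprod
      · apply Measurable.aestronglyMeasurable
        have h1 : Measurable fun p : ℝ × ℝ => (φ p.1 : ℂ) :=
          Complex.measurable_ofReal.comp (hφ.measurable.comp measurable_fst)
        have h2 : Measurable fun p : ℝ × ℝ => (S p.2 : ℂ) :=
          Complex.measurable_ofReal.comp (hSm.comp measurable_snd)
        have h3 : Measurable fun p : ℝ × ℝ => exp (I * y * (p.1 : ℂ)) := by fun_prop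
        have h4 : Measurable fun p : ℝ × ℝ => exp (-(σ + I * (p.1 : ℂ)) * (p.2 : ℂ)) := by
          fun_prop
        exact (h1.mul h3).mul (h2.mul h4)
      · filter_upwards with p
        simp only [Function.uncurry, norm_mul, Complex.norm_exp, Complex.norm_real]
        simp
    calc ∫ t : ℝ, (φ t : ℂ) * exp (I * y * t) * G (σ + I * t)
        = ∫ t : ℝ, ∫ u in Ioi (0:ℝ),
            (φ t : ℂ) * exp (I * y * t) * ((S u : ℂ) * exp (-(σ + I * t) * u)) := by
          congr 1
          ext t
          rw [integral_const_mul, hSG (σ + I * t) (by simpa using hσ)]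
      _ = ∫ u in Ioi (0:ℝ), ∫ t : ℝ,
            (φ t : ℂ) * exp (I * y * t) * ((S u : ℂ) * exp (-(σ + I * t) * u)) :=
          integral_integral_swap hint
      _ = ∫ u in Ioi (0:ℝ), ((S u : ℂ) * (Real.exp (-σ * u) : ℂ) * (K (y - u) : ℂ)) := by
          congr 1
          ext u
          rw [← hφK (y - u), ← integral_const_mul]
          congr 1
          ext t
          have : exp (I * y * t) * exp (-(σ + I * t) * u)
              = (Real.exp (-σ * u) : ℂ) * exp (I * (y - u : ℝ) * t) := by
            rw [Complex.ofReal_exp, ← Complex.exp_add, ← Complex.exp_add]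
            congr 1
            push_cast
            ring
          calc (φ t : ℂ) * exp (I * y * t) * ((S u : ℂ) * exp (-(σ + I * t) * u))
              = (φ t : ℂ) * (S u : ℂ) * (exp (I * y * t) * exp (-(σ + I * t) * u)) := by ring
            _ = _ := by rw [this]; ring
  -- limits
  have hL : Tendsto (fun σ : ℝ => ∫ t : ℝ, (φ t : ℂ) * exp (I * y * t) * G (σ + I * t))
      (𝓝[>] 0) (𝓝 (∫ t : ℝ, (φ t : ℂ) * exp (I * y * t) * G (I * t))) := by
    -- bound for G on the compact set
    have hcomp : IsCompact ((fun p : ℝ × ℝ => (p.1 : ℂ) + I * p.2) '' (Icc 0 1 ×ˢ Icc (-|R|) |R|)) :=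
      (isCompact_Icc.prod isCompact_Icc).image (by fun_prop)
    obtain ⟨C, hC⟩ := hcomp.exists_bound_of_continuousOn (hG.mono (by
      rintro _ ⟨p, hp, rfl⟩
      simpa using hp.1.1))
    apply tendsto_integral_filter_of_dominated_convergence (fun t => |φ t| * C)
    · filter_upwards [self_mem_nhdsWithin] with σ hσ
      have hσ : 0 < σ := hσ
      apply Continuous.aestronglyMeasurable
      have : Continuous fun t : ℝ => G (σ + I * t) := by
        apply hG.comp_continuous (by fun_prop)
        intro t
        simpa using hσ.le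
      have hφc : Continuous fun t : ℝ => (φ t : ℂ) := Complex.continuous_ofReal.comp hφ
      exact (hφc.mul (by fun_prop)).mul this
    · filter_upwards [Ioc_mem_nhdsGT (zero_lt_one' ℝ)] with σ hσ
      filter_upwards with t
      rw [norm_mul, norm_mul, Complex.norm_exp, Complex.norm_real, Real.norm_eq_abs]
      have : (I * y * t : ℂ).re = 0 := by simp
      rw [this, Real.exp_zero, mul_one]
      by_cases ht : R ≤ |t|
      · rw [hφR t ht]; simp
      · apply mul_le_mul_of_nonneg_left _ (abs_nonneg _)
        apply hC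
        refine ⟨(σ, t), ⟨⟨hσ.1.le, hσ.2⟩, ?_⟩, rfl⟩
        push Not at ht
        have := ht.trans_le (le_abs_self R)
        rw [abs_lt] at this
        exact ⟨this.1.le, this.2.le⟩
    · exact hφi.abs.mul_const C
    · filter_upwards with t
      apply Tendsto.const_mul
      have h1 : ContinuousWithinAt G {s | 0 ≤ s.re} (I * t) := hG _ (by simp)
      have h2 : Tendsto (fun σ : ℝ => (σ : ℂ) + I * t) (𝓝[>] 0) (𝓝[{s | 0 ≤ s.re}] (I * t)) := by
        apply tendsto_nhdsWithin_of_tendsto_nhds_of_eventually_within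
        · have : Tendsto (fun σ : ℝ => (σ : ℂ) + I * t) (𝓝 0) (𝓝 (((0 : ℝ) : ℂ) + I * t)) :=
            Continuous.tendsto (by fun_prop) 0
          simp only [Complex.ofReal_zero, zero_add] at this
          exact this.mono_left nhdsWithin_le_nhds
        · filter_upwards [self_mem_nhdsWithin] with σ hσ
          have hσ : 0 < σ := hσ
          simpa using hσ.le
      exact h1.tendsto.comp h2
  have hRt : Tendsto (fun σ : ℝ => ∫ u in Ioi (0:ℝ),
      ((S u : ℂ) * (Real.exp (-σ * u) : ℂ) * (K (y - u) : ℂ)))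
      (𝓝[>] 0) (𝓝 (∫ u in Ioi (0:ℝ), ((S u : ℂ) * (K (y - u) : ℂ)))) := by
    have hKy : Integrable (fun u => K (y - u)) := hK.comp_sub_left y
    apply tendsto_integral_filter_of_dominated_convergence (fun u => M * |K (y - u)|)
    · filter_upwards with σ
      apply AEStronglyMeasurable.mul
      · exact ((Complex.measurable_ofReal.comp hSm).mul
          (Complex.measurable_ofReal.comp (by fun_prop))).aestronglyMeasurable
      · exact (hKy.ofReal (𝕜 := ℂ)).aestronglyMeasurable.restrict
    · filter_upwards [self_mem_nhdsWithin] with σ hσ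
      have hσ : 0 < σ := hσ
      filter_upwards [ae_restrict_mem measurableSet_Ioi] with u hu
      have hu : 0 < u := hu
      rw [norm_mul, norm_mul, Complex.norm_real, Complex.norm_real, Complex.norm_real,
        Real.norm_eq_abs, Real.norm_of_nonneg (Real.exp_pos _).le, Real.norm_eq_abs]
      apply mul_le_mul_of_nonneg_right _ (abs_nonneg _)
      have h1 : Real.exp (-σ * u) ≤ 1 := Real.exp_le_one_iff.mpr (by nlinarith)
      calc |S u| * Real.exp (-σ * u) ≤ |S u| * 1 :=
            mul_le_mul_of_nonneg_left h1 (abs_nonneg _)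
        _ ≤ M := by simpa using hSM u
    · exact (hKy.abs.const_mul M).restrict
    · filter_upwards with u
      have : Tendsto (fun σ : ℝ => (Real.exp (-σ * u) : ℂ)) (𝓝[>] 0) (𝓝 1) := by
        have h : Tendsto (fun σ : ℝ => (Real.exp (-σ * u) : ℂ)) (𝓝 0) (𝓝 (Real.exp (-0 * u) : ℂ)) :=
          Continuous.tendsto (by fun_prop) 0
        simp only [neg_zero, zero_mul, Real.exp_zero, Complex.ofReal_one] at h
        exact h.mono_left nhdsWithin_le_nhds
      have := (this.const_mul (S u : ℂ)).mul_const (K (y - u) : ℂ)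
      simpa using this
  refine tendsto_nhds_unique hL (hRt.congr' ?_)
  filter_upwards [self_mem_nhdsWithin] with σ hσ
  exact (key σ hσ).symm

end Vale.Agent.P021
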