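import Mathlib
import Vale.Agent.P021.WI1

open Filter Topology MeasureTheory Set Complex

namespace Vale.Agent.P021

theorem conv_tendsto_zero {S : ℝ → ℝ} {M : ℝ} (hSm : Measurable S) (hSM : ∀ u, |S u| ≤ M)
    {G : ℂ → ℂ} (hG : ContinuousOn G {s | 0 ≤ s.re})
    (hSG : ∀ s : ℂ, 0 < s.re → ∫ u in Ioi (0:ℝ), (S u : ℂ) * exp (-s * u) = G s)
    {φ K : ℝ → ℝ} {R : ℝ} (hφ : Continuous φ) (hφR : ∀ t, R ≤ |t| → φ t = 0)
    (hK : Integrable K) (hφK : ∀ x : ℝ, ∫ t : ℝ, (φ t : ℂ) * exp (I * x * t) = (K x : ℂ)) :
    Tendsto (fun y : ℝ => ∫ u in Ioi (0:ℝ), S u * K (y - u)) atTop (𝓝 0) := by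
  have h := Real.tendsto_integral_exp_smul_cocompact (fun t : ℝ => (φ t : ℂ) * G (I * t))
  have hw : Tendsto (fun y : ℝ => -y / (2 * Real.pi)) atTop (cocompact ℝ) := by
    have h1 : Tendsto (fun y : ℝ => -y / (2 * Real.pi)) atTop atBot := by
      apply Tendsto.atBot_div_const (by positivity)
      exact tendsto_neg_atTop_atBot
    exact h1.mono_right (by rw [cocompact_eq_atBot_atTop]; exact le_sup_left)
  have h2 := h.comp hw
  have h3 : Tendsto (fun y : ℝ => ∫ t : ℝ, (φ t : ℂ) * exp (I * y * t) * G (I * t)) atTop (𝓝 0) := by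
    refine h2.congr ?_
    intro y
    simp only [Function.comp]
    congr 1
    ext t
    rw [Circle.smul_def, Real.fourierChar_apply, smul_eq_mul]
    have : (↑(2 * Real.pi * -(t * (-y / (2 * Real.pi)))) * I : ℂ) = I * y * t := by
      have hp : (Real.pi : ℂ) ≠ 0 := by exact_mod_cast Real.pi_ne_zero
      push_cast
      field_simp
    rw [this]
    ring
  have h4 : Tendsto (fun y : ℝ => ((∫ u in Ioi (0:ℝ), S u * K (y - u) : ℝ) : ℂ)) atTop
      (𝓝 ((0 : ℝ) : ℂ)) := by
    rw [Complex.ofReal_zero]
    refine h3.congr ?_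
    intro y
    rw [laplace_fejer hSm hSM hG hSG hφ hφR hK hφK y,
      ← integral_complex_ofReal (f := fun u => S u * K (y - u))]
    congr 1
    ext u
    push_cast
    rfl
  have := (Complex.continuous_re.tendsto _).comp h4
  simpa [Function.comp_def] using this

lemma integrable_fejs {l : ℝ} (hl : 0 < l) : Integrable (fun v => l * fej (l * v)) := by
  apply Integrable.const_mul
  exact integrable_fej.comp_mul_left' hl.ne'

lemma integral_fejs {l : ℝ} (hl : 0 < l) : ∫ v, l * fej (l * v) = ∫ v, fej v := by
  rw [integral_const_mul, Measure.integral_comp_mul_left fej l, abs_of_pos (inv_pos.mpr hl),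
    smul_eq_mul, ← mul_assoc, mul_inv_cancel₀ hl.ne', one_mul]

lemma window_fejs {l : ℝ} (hl : 0 < l) (d : ℝ) :
    ∫ v in (-d)..d, l * fej (l * v) = ∫ v in (-(l * d))..(l * d), fej v := by
  rw [intervalIntegral.integral_const_mul, intervalIntegral.integral_comp_mul_left _ hl.ne',
    smul_eq_mul, ← mul_assoc, mul_inv_cancel₀ hl.ne', one_mul]
  congr 1
  ring

/-- Mass of the Fejer kernel in a symmetric window. -/
noncomputable def kw (T : ℝ) : ℝ := ∫ v in (-T)..T, fej v

/-- Total mass of the Fejer kernel. -/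
noncomputable def kt : ℝ := ∫ v, fej v

lemma kt_pos : 0 < kt := integral_fej_pos

lemma kw_tendsto : Tendsto kw atTop (𝓝 kt) :=
  intervalIntegral_tendsto_integral integrable_fej tendsto_neg_atTop_atBot tendsto_id

section taub

variable {B : ℝ → ℝ} {C : ℝ}

lemma integrable_BK (hBm : Measurable B) (hB0 : ∀ u, 0 ≤ B u) (hBC : ∀ u, B u ≤ C)
    {l : ℝ} (hl : 0 < l) (y : ℝ) : Integrable (fun u => B u * (l * fej (l * (y - u)))) := by
  have h1 : Integrable (fun u => l * fej (l * (y - u))) := (integrable_fejs hl).comp_sub_left y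
  apply Integrable.mono' (h1.const_mul C)
  · exact hBm.aestronglyMeasurable.mul h1.aestronglyMeasurable
  · filter_upwards with u
    have h2 : 0 ≤ l * fej (l * (y - u)) := mul_nonneg hl.le (fej_nonneg _)
    rw [norm_mul, Real.norm_of_nonneg h2, Real.norm_of_nonneg (hB0 u)]
    exact mul_le_mul_of_nonneg_right (hBC u) h2

lemma upper_window (hBm : Measurable B) (hB0 : ∀ u, 0 ≤ B u) (hBC : ∀ u, B u ≤ C)
    (hmono : ∀ u v, u ≤ v → B u * Real.exp u ≤ B v * Real.exp v)
    {l d : ℝ} (hl : 0 < l) (hd : 0 < d) {y : ℝ} (hy : 0 ≤ y) :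
    B y * Real.exp (-(2 * d)) * kw (l * d) ≤
      ∫ u in Ioi (0:ℝ), B u * (l * fej (l * (y + d - u))) := by
  have hint := integrable_BK hBm hB0 hBC hl (y + d)
  have h1 : Integrable (fun u => l * fej (l * (y + d - u))) :=
    (integrable_fejs hl).comp_sub_left (y + d)
  have hn : ∀ u, 0 ≤ l * fej (l * (y + d - u)) := fun u => mul_nonneg hl.le (fej_nonneg _)
  calc B y * Real.exp (-(2 * d)) * kw (l * d)
      = ∫ u in Ioc y (y + 2 * d), B y * Real.exp (-(2 * d)) * (l * fej (l * (y + d - u))) := by
        rw [integral_const_mul, ← intervalIntegral.integral_of_le (by linarith),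
          intervalIntegral.integral_comp_sub_left (fun v => l * fej (l * v)) (y + d)]
        have e1 : y + d - (y + 2 * d) = -d := by ring
        have e2 : y + d - y = d := by ring
        rw [e1, e2, window_fejs hl d]
        rfl
    _ ≤ ∫ u in Ioc y (y + 2 * d), B u * (l * fej (l * (y + d - u))) := by
        apply setIntegral_mono_on (h1.const_mul _).integrableOn hint.integrableOn measurableSet_Ioc
        intro u hu
        apply mul_le_mul_of_nonneg_right _ (hn u)
        have h2 := hmono y u hu.1.le
        have h3 : Real.exp (-(2 * d)) ≤ Real.exp (y - u) := Real.exp_le_exp.mpr (by linarith [hu.2])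
        calc B y * Real.exp (-(2 * d)) ≤ B y * Real.exp (y - u) :=
              mul_le_mul_of_nonneg_left h3 (hB0 y)
          _ = B y * Real.exp y * Real.exp (-u) := by
              rw [mul_assoc, ← Real.exp_add]; rfl
          _ ≤ B u * Real.exp u * Real.exp (-u) :=
              mul_le_mul_of_nonneg_right h2 (Real.exp_pos _).le
          _ = B u := by rw [mul_assoc, ← Real.exp_add]; simp
    _ ≤ ∫ u in Ioi (0:ℝ), B u * (l * fej (l * (y + d - u))) := by
        apply setIntegral_mono_set hint.integrableOn
        · filter_upwards with u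
          exact mul_nonneg (hB0 u) (hn u)
        · apply LE.le.eventuallyLE
          intro u hu
          exact lt_of_le_of_lt hy hu.1

lemma lower_window (hBm : Measurable B) (hB0 : ∀ u, 0 ≤ B u) (hBC : ∀ u, B u ≤ C)
    (hmono : ∀ u v, u ≤ v → B u * Real.exp u ≤ B v * Real.exp v)
    {l d : ℝ} (hl : 0 < l) (hd : 0 < d) (y : ℝ) :
    ∫ u in Ioi (0:ℝ), B u * (l * fej (l * (y - d - u))) ≤
      B y * Real.exp (2 * d) * kw (l * d) + C * (kt - kw (l * d)) := by
  have hC0 : 0 ≤ C := (hB0 0).trans (hBC 0)
  have hint := integrable_BK hBm hB0 hBC hl (y - d)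
  have h1 : Integrable (fun u => l * fej (l * (y - d - u))) :=
    (integrable_fejs hl).comp_sub_left (y - d)
  have hn : ∀ u, 0 ≤ l * fej (l * (y - d - u)) := fun u => mul_nonneg hl.le (fej_nonneg _)
  have hwin : ∫ u in Ioc (y - 2 * d) y, l * fej (l * (y - d - u)) = kw (l * d) := by
    rw [← intervalIntegral.integral_of_le (by linarith),
      intervalIntegral.integral_comp_sub_left (fun v => l * fej (l * v)) (y - d)]
    have e1 : y - d - y = -d := by ring
    have e2 : y - d - (y - 2 * d) = d := by ring
    rw [e1, e2, window_fejs hl d]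
    rfl
  have htot : ∫ u, l * fej (l * (y - d - u)) = kt := by
    rw [integral_sub_left_eq_self (fun v => l * fej (l * v)) volume (y - d), integral_fejs hl]
    rfl
  calc ∫ u in Ioi (0:ℝ), B u * (l * fej (l * (y - d - u)))
      ≤ ∫ u, B u * (l * fej (l * (y - d - u))) := by
        apply setIntegral_le_integral hint
        filter_upwards with u
        exact mul_nonneg (hB0 u) (hn u)
    _ = (∫ u in Ioc (y - 2 * d) y, B u * (l * fej (l * (y - d - u)))) +
        ∫ u in (Ioc (y - 2 * d) y)ᶜ, B u * (l * fej (l * (y - d - u))) :=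
        (integral_add_compl measurableSet_Ioc hint).symm
    _ ≤ (∫ u in Ioc (y - 2 * d) y, B y * Real.exp (2 * d) * (l * fej (l * (y - d - u)))) +
        ∫ u in (Ioc (y - 2 * d) y)ᶜ, C * (l * fej (l * (y - d - u))) := by
        apply add_le_add
        · apply setIntegral_mono_on hint.integrableOn (h1.const_mul _).integrableOn
            measurableSet_Ioc
          intro u hu
          apply mul_le_mul_of_nonneg_right _ (hn u)
          have h2 := hmono u y hu.2
          have h3 : Real.exp (y - u) ≤ Real.exp (2 * d) :=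
            Real.exp_le_exp.mpr (by linarith [hu.1])
          calc B u = B u * Real.exp u * Real.exp (-u) := by
                rw [mul_assoc, ← Real.exp_add]; simp
            _ ≤ B y * Real.exp y * Real.exp (-u) :=
                mul_le_mul_of_nonneg_right h2 (Real.exp_pos _).le
            _ = B y * Real.exp (y - u) := by rw [mul_assoc, ← Real.exp_add]; rfl
            _ ≤ B y * Real.exp (2 * d) := mul_le_mul_of_nonneg_left h3 (hB0 y)
        · apply setIntegral_mono_on hint.integrableOn (h1.const_mul _).integrableOn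
            measurableSet_Ioc.compl
          intro u _
          exact mul_le_mul_of_nonneg_right (hBC u) (hn u)
    _ = B y * Real.exp (2 * d) * kw (l * d) + C * (kt - kw (l * d)) := by
        rw [integral_const_mul (B y * Real.exp (2 * d)), integral_const_mul C, hwin]
        have h4 := integral_add_compl (μ := volume) (s := Ioc (y - 2 * d) y) measurableSet_Ioc h1
        rw [hwin, htot] at h4
        have h5 : ∫ u in (Ioc (y - 2 * d) y)ᶜ, l * fej (l * (y - d - u)) = kt - kw (l * d) := by
          linarith
        rw [h5]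

lemma norm_tendsto {l : ℝ} (hl : 0 < l) :
    Tendsto (fun y : ℝ => ∫ u in Ioi (0:ℝ), l * fej (l * (y - u))) atTop (𝓝 kt) := by
  have h1 : ∀ y : ℝ, ∫ u in Ioi (0:ℝ), l * fej (l * (y - u)) = ∫ v in Iio y, l * fej (l * v) := by
    intro y
    have := integral_sub_left_eq_self (fun v => (Iio y).indicator (fun v => l * fej (l * v)) v)
      volume y
    rw [integral_indicator measurableSet_Iio] at this
    rw [← this, ← integral_indicator measurableSet_Ioi]
    congr 1
    ext u
    by_cases hu : 0 < u
    · rw [indicator_of_mem (show u ∈ Ioi (0:ℝ) from hu),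
        indicator_of_mem (show y - u ∈ Iio y by simpa using hu)]
    · rw [indicator_of_notMem (show u ∉ Ioi (0:ℝ) from hu),
        indicator_of_notMem (show y - u ∉ Iio y by simpa using hu)]
  simp_rw [h1]
  have h2 : kt = ∫ v, l * fej (l * v) := (integral_fejs hl).symm
  rw [h2]
  have h3 := (aecover_Iio (μ := (volume : Measure ℝ)) (l := atTop) (b := fun y : ℝ => y) tendsto_id)
  exact h3.integral_tendsto_of_countably_generated (integrable_fejs hl)

theorem tauberian {A : ℝ} (hBm : Measurable B) (hB0 : ∀ u, 0 ≤ B u) (hBC : ∀ u, B u ≤ C)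
    (hmono : ∀ u v, u ≤ v → B u * Real.exp u ≤ B v * Real.exp v)
    (hconv : ∀ l : ℝ, 0 < l →
      Tendsto (fun y : ℝ => ∫ u in Ioi (0:ℝ), (B u - A) * (l * fej (l * (y - u)))) atTop (𝓝 0)) :
    Tendsto B atTop (𝓝 A) := by
  have hJ : ∀ l : ℝ, 0 < l →
      Tendsto (fun y : ℝ => ∫ u in Ioi (0:ℝ), B u * (l * fej (l * (y - u)))) atTop
        (𝓝 (A * kt)) := by
    intro l hl
    have h1 := (hconv l hl).add ((norm_tendsto hl).const_mul A)
    rw [zero_add] at h1
    refine h1.congr ?_
    intro y
    have hint := integrable_BK hBm hB0 hBC hl y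
    have h2 : Integrable (fun u => l * fej (l * (y - u))) := (integrable_fejs hl).comp_sub_left y
    rw [← integral_const_mul, ← integral_add]
    · congr 1
      ext u
      ring
    · have := (hint.sub (h2.const_mul A)).restrict (s := Ioi (0:ℝ))
      refine this.congr ?_
      filter_upwards with u
      simp only [Pi.sub_apply]
      ring
    · exact (h2.const_mul A).restrict
  -- the bounds
  have hkt := kt_pos
  have hinv : Tendsto (fun T : ℝ => 1 / T) atTop (𝓝 0) := by
    simpa using tendsto_inv_atTop_zero (𝕜 := ℝ)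
  have hf : Tendsto (fun T : ℝ => Real.exp (2 * (1 / T)) * (A * kt + 1 / T) / kw T) atTop
      (𝓝 A) := by
    have h1 : Tendsto (fun T : ℝ => Real.exp (2 * (1 / T))) atTop (𝓝 1) := by
      have := (Real.continuous_exp.tendsto (2 * 0)).comp (hinv.const_mul 2)
      simpa [Function.comp_def] using this
    have h2 := (h1.mul (hinv.const_add (A * kt))).div kw_tendsto hkt.ne'
    have e : (1 : ℝ) * (A * kt + 0) / kt = A := by field_simp; ring
    rw [e] at h2
    exact h2
  have hg : Tendsto (fun T : ℝ => Real.exp (-(2 * (1 / T))) *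
      (A * kt - 1 / T - C * (kt - kw T)) / kw T) atTop (𝓝 A) := by
    have h1 : Tendsto (fun T : ℝ => Real.exp (-(2 * (1 / T)))) atTop (𝓝 1) := by
      have := (Real.continuous_exp.tendsto (-(2 * 0))).comp (hinv.const_mul 2).neg
      simpa [Function.comp_def] using this
    have h2 := (h1.mul ((hinv.const_sub (A * kt)).sub
      ((kw_tendsto.const_sub kt).const_mul C))).div kw_tendsto hkt.ne'
    have e : (1 : ℝ) * (A * kt - 0 - C * (kt - kt)) / kt = A := by field_simp; ring
    rw [e] at h2
    exact h2
  rw [tendsto_order]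
  constructor
  · intro a ha
    have hkwpos : ∀ᶠ T in atTop, 0 < kw T := (tendsto_order.mp kw_tendsto).1 0 hkt
    obtain ⟨T, ⟨hT1, hT2⟩, hT3⟩ := ((((tendsto_order.mp hg).1 a ha).and hkwpos).and
      (eventually_gt_atTop 0)).exists
    set d : ℝ := 1 / T with hd
    have hdpos : 0 < d := by positivity
    set l : ℝ := T * T with hl
    have hlpos : 0 < l := by positivity
    have hld : l * d = T := by rw [hl, hd]; field_simp
    have hsh : Tendsto (fun y : ℝ => y - d) atTop atTop := tendsto_atTop_add_const_right _ _ tendsto_id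
    have h1 := (hJ l hlpos).comp hsh
    have h2 := (tendsto_order.mp h1).1 (A * kt - d) (by linarith)
    filter_upwards [h2] with y hy
    have h3 := lower_window hBm hB0 hBC hmono hlpos hdpos y
    rw [hld] at h3
    simp only [Function.comp] at hy
    have h4 : A * kt - d - C * (kt - kw T) < B y * Real.exp (2 * d) * kw T := by linarith
    refine hT1.trans ?_
    rw [div_lt_iff₀ hT2, Real.exp_neg, inv_mul_lt_iff₀ (Real.exp_pos _)]
    linarith
  · intro a ha
    have hkwpos : ∀ᶠ T in atTop, 0 < kw T := (tendsto_order.mp kw_tendsto).1 0 hkt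
    obtain ⟨T, ⟨hT1, hT2⟩, hT3⟩ := ((((tendsto_order.mp hf).2 a ha).and hkwpos).and
      (eventually_gt_atTop 0)).exists
    set d : ℝ := 1 / T with hd
    have hdpos : 0 < d := by positivity
    set l : ℝ := T * T with hl
    have hlpos : 0 < l := by positivity
    have hld : l * d = T := by rw [hl, hd]; field_simp
    have hsh : Tendsto (fun y : ℝ => y + d) atTop atTop := tendsto_atTop_add_const_right _ _ tendsto_id
    have h1 := (hJ l hlpos).comp hsh
    have h2 := (tendsto_order.mp h1).2 (A * kt + d) (by linarith)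
    filter_upwards [h2, eventually_ge_atTop 0] with y hy hy0
    have h3 := upper_window hBm hB0 hBC hmono hlpos hdpos hy0
    rw [hld] at h3
    simp only [Function.comp] at hy
    have h4 : B y * Real.exp (-(2 * d)) * kw T < A * kt + d := by linarith
    refine lt_trans ?_ hT1
    rw [lt_div_iff₀ hT2]
    rw [Real.exp_neg] at h4
    have h5 : 0 < Real.exp (2 * d) := Real.exp_pos _
    have h6 : B y * kw T = Real.exp (2 * d) * (B y * (Real.exp (2 * d))⁻¹ * kw T) := by
      field_simp
    rw [h6]
    exact mul_lt_mul_of_pos_left h4 h5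

end taub

end Vale.Agent.P021
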