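import Mathlib
import Vale.Agent.P021.WI2

open Filter Topology MeasureTheory Set Complex

namespace Vale.Agent.P021

/-- Partial sums. -/
noncomputable def psum (f : ℕ → ℝ) (x : ℝ) : ℝ := ∑ k ∈ Finset.Icc 1 ⌊x⌋₊, f k

lemma psum_mono {f : ℕ → ℝ} (hf : ∀ n, 0 ≤ f n) : Monotone (psum f) := by
  intro x y hxy
  unfold psum
  apply Finset.sum_le_sum_of_subset_of_nonneg
  · exact Finset.Icc_subset_Icc_right (Nat.floor_le_floor hxy)
  · intro i _ _
    exact hf i

lemma psum_nonneg {f : ℕ → ℝ} (hf : ∀ n, 0 ≤ f n) (x : ℝ) : 0 ≤ psum f x :=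
  Finset.sum_nonneg fun i _ => hf i

/-- Wiener-Ikehara theorem for Dirichlet series with nonnegative coefficients and a Chebyshev
bound. -/
theorem wiener_ikehara {f : ℕ → ℝ} {A C : ℝ} (hf : ∀ n, 0 ≤ f n)
    (hC : ∀ n : ℕ, ∑ k ∈ Finset.Icc 1 n, f k ≤ C * n) {G : ℂ → ℂ}
    (hG : ContinuousOn G {s | 1 ≤ s.re})
    (hfG : ∀ s : ℂ, 1 < s.re → LSeries (fun n => (f n : ℂ)) s - A / (s - 1) = G s) :
    Tendsto (fun x : ℝ => (∑ k ∈ Finset.Icc 1 ⌊x⌋₊, f k) / x) atTop (𝓝 A) := by
  have hC0 : 0 ≤ C := by
    have := hC 1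
    have h1 : 0 ≤ ∑ k ∈ Finset.Icc 1 1, f k := Finset.sum_nonneg fun i _ => hf i
    simp only [Nat.cast_one, mul_one] at this
    linarith
  have hPC : ∀ x : ℝ, 0 ≤ x → psum f x ≤ C * x := by
    intro x hx
    exact (hC _).trans (mul_le_mul_of_nonneg_left (Nat.floor_le hx) hC0)
  set B : ℝ → ℝ := fun u => psum f (Real.exp u) * Real.exp (-u) with hB
  have hBm : Measurable B := by
    have h1 : Measurable (psum f) := (psum_mono hf).measurable
    exact (h1.comp Real.measurable_exp).mul (by fun_prop)
  have hB0 : ∀ u, 0 ≤ B u := fun u => mul_nonneg (psum_nonneg hf _) (Real.exp_pos _).le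
  have hBC : ∀ u, B u ≤ C := by
    intro u
    calc B u ≤ C * Real.exp u * Real.exp (-u) :=
          mul_le_mul_of_nonneg_right (hPC _ (Real.exp_pos _).le) (Real.exp_pos _).le
      _ = C := by rw [mul_assoc, ← Real.exp_add]; simp
  have hBexp : ∀ u, B u * Real.exp u = psum f (Real.exp u) := by
    intro u
    simp only [hB]
    rw [mul_assoc, ← Real.exp_add]
    simp
  have hmono : ∀ u v, u ≤ v → B u * Real.exp u ≤ B v * Real.exp v := by
    intro u v huv
    rw [hBexp, hBexp]
    exact psum_mono hf (Real.exp_le_exp.mpr huv)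
  -- Laplace transform of B
  have hLap : ∀ s : ℂ, 0 < s.re → ∫ u in Ioi (0:ℝ), (B u : ℂ) * exp (-s * u)
      = LSeries (fun n => (f n : ℂ)) (s + 1) / (s + 1) := by
    intro s hs
    have hs1 : s + 1 ≠ 0 := by
      intro h
      have := congrArg Complex.re h
      simp at this
      linarith
    have h1 := LSeries_eq_mul_integral_of_nonneg f (r := 1) zero_le_one (s := s + 1)
      (by simpa using hs) (by
        apply Asymptotics.IsBigO.of_bound C
        filter_upwards with n
        rw [Real.norm_of_nonneg (Finset.sum_nonneg fun i _ => hf i), Real.rpow_one,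
          Real.norm_of_nonneg (Nat.cast_nonneg n)]
        exact hC n) hf
    rw [h1, mul_div_cancel_left₀ _ hs1]
    have himg : Real.exp '' Ioi 0 = Ioi 1 := by
      ext x
      constructor
      · rintro ⟨u, hu, rfl⟩
        exact Real.one_lt_exp_iff.mpr hu
      · intro hx
        have hx : 1 < x := hx
        exact ⟨Real.log x, Real.log_pos hx, Real.exp_log (by linarith)⟩
    have h2 := integral_image_eq_integral_abs_deriv_smul (s := Ioi (0:ℝ)) (f := Real.exp)
      (f' := Real.exp) measurableSet_Ioi (fun x _ => (Real.hasDerivAt_exp x).hasDerivWithinAt)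
      Real.exp_injective.injOn
      (fun t : ℝ => (∑ k ∈ Finset.Icc 1 ⌊t⌋₊, (f k : ℂ)) * (t : ℂ) ^ (-(s + 1 + 1)))
    rw [himg] at h2
    rw [h2]
    congr 1
    ext u
    rw [Real.abs_exp, Complex.real_smul]
    have e1 : ((Real.exp u : ℝ) : ℂ) ^ (-(s + 1 + 1)) = exp (u * (-(s + 1 + 1))) := by
      rw [Complex.cpow_def_of_ne_zero (by exact_mod_cast (Real.exp_pos u).ne'),
        ← Complex.ofReal_log (Real.exp_pos u).le, Real.log_exp]
    rw [e1]
    simp only [hB, psum]
    push_cast
    have e2 : exp (u : ℂ) * exp (u * (-(s + 1 + 1))) = exp (-u) * exp (-s * u) := by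
      rw [← Complex.exp_add, ← Complex.exp_add]
      congr 1
      ring
    calc (∑ k ∈ Finset.Icc 1 ⌊Real.exp u⌋₊, (f k : ℂ)) * exp (-u) * exp (-s * u)
        = (∑ k ∈ Finset.Icc 1 ⌊Real.exp u⌋₊, (f k : ℂ)) * (exp (-u) * exp (-s * u)) := by ring
      _ = _ := by rw [← e2]; ring
  set G0 : ℂ → ℂ := fun s => (G (s + 1) - A) / (s + 1) with hG0
  have hG0c : ContinuousOn G0 {s | 0 ≤ s.re} := by
    apply ContinuousOn.div
    · apply ContinuousOn.sub _ continuousOn_const
      apply hG.comp (by fun_prop)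
      intro s hs
      have hs : 0 ≤ s.re := hs
      show 1 ≤ (s + 1).re
      simp [hs]
    · fun_prop
    · intro s hs h
      have hs : 0 ≤ s.re := hs
      have := congrArg Complex.re h
      simp at this
      linarith
  have hSG : ∀ s : ℂ, 0 < s.re → ∫ u in Ioi (0:ℝ), ((B u - A : ℝ) : ℂ) * exp (-s * u) = G0 s := by
    intro s hs
    have hs0 : s ≠ 0 := by
      intro h
      rw [h] at hs
      simp at hs
    have hs1 : s + 1 ≠ 0 := by
      intro h
      have := congrArg Complex.re h
      simp at this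
      linarith
    have hexp : IntegrableOn (fun u : ℝ => exp (-s * u)) (Ioi (0:ℝ)) :=
      integrableOn_exp_mul_complex_Ioi (a := -s) (by simpa using hs) 0
    have hBexpi : IntegrableOn (fun u : ℝ => (B u : ℂ) * exp (-s * u)) (Ioi (0:ℝ)) := by
      apply Integrable.mono' (hexp.norm.const_mul C)
      · exact ((Complex.measurable_ofReal.comp hBm).mul (by fun_prop)).aestronglyMeasurable
      · filter_upwards with u
        rw [norm_mul, Complex.norm_real, Real.norm_of_nonneg (hB0 u)]
        exact mul_le_mul_of_nonneg_right (hBC u) (norm_nonneg _)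
    have h1 : ∫ u in Ioi (0:ℝ), ((B u - A : ℝ) : ℂ) * exp (-s * u)
        = (∫ u in Ioi (0:ℝ), (B u : ℂ) * exp (-s * u)) -
          ∫ u in Ioi (0:ℝ), (A : ℂ) * exp (-s * u) := by
      rw [← integral_sub hBexpi (hexp.const_mul _)]
      congr 1
      ext u
      push_cast
      ring
    rw [h1, hLap s hs, integral_const_mul, integral_exp_mul_complex_Ioi (a := -s)
      (by simpa using hs) 0]
    have h2 := hfG (s + 1) (by simpa using hs)
    simp only [hG0]
    rw [← h2]
    simp only [Complex.ofReal_zero, mul_zero, Complex.exp_zero, add_sub_cancel_right]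
    field_simp
    ring
  have hSM : ∀ u, |B u - A| ≤ C + |A| := by
    intro u
    calc |B u - A| ≤ |B u| + |A| := abs_sub _ _
      _ ≤ C + |A| := by rw [abs_of_nonneg (hB0 u)]; linarith [hBC u]
  have hlim : Tendsto B atTop (𝓝 A) := by
    apply tauberian hBm hB0 hBC hmono
    intro l hl
    have := conv_tendsto_zero (S := fun u => B u - A) (M := C + |A|) (hBm.sub_const A) hSM hG0c hSG
      (φ := fun t => tri (t / l)) (K := fun x => l * fej (l * x)) (R := l)
      (by have := continuous_tri; fun_prop)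
      (fun t ht => tri_eq_zero (by rw [abs_div, abs_of_pos hl]; exact (one_le_div hl).mpr ht))
      (integrable_fejs hl) (integral_tri_scaled hl)
    exact this
  have := hlim.comp Real.tendsto_log_atTop
  refine this.congr' ?_
  filter_upwards [eventually_gt_atTop 0] with x hx
  simp only [Function.comp, hB, psum]
  rw [Real.exp_log hx, Real.exp_neg, Real.exp_log hx, div_eq_mul_inv]

open ArithmeticFunction ArithmeticFunction.vonMangoldt in
/-- Prime number theorem in arithmetic progressions (von Mangoldt form). -/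
theorem pnt_ap {q : ℕ} [NeZero q] {a : ZMod q} (ha : IsUnit a) :
    Tendsto (fun x : ℝ => (∑ k ∈ Finset.Icc 1 ⌊x⌋₊, residueClass a k) / x) atTop
      (𝓝 ((q.totient : ℝ)⁻¹)) := by
  apply wiener_ikehara (C := Real.log 4 + 4) (residueClass_nonneg a) ?_
    (continuousOn_LFunctionResidueClassAux a)
  · intro s hs
    rw [eqOn_LFunctionResidueClassAux ha hs]
    push_cast
    rfl
  · intro n
    have h1 : ∑ k ∈ Finset.Icc 1 n, residueClass a k ≤ Chebyshev.psi n := by
      rw [Chebyshev.psi, Nat.floor_natCast]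
      exact Finset.sum_le_sum fun k _ => residueClass_le a k
    exact h1.trans (Chebyshev.psi_le_const_mul_self (Nat.cast_nonneg n))

open ArithmeticFunction ArithmeticFunction.vonMangoldt in
/-- The prime number theorem for the Chebyshev psi function. -/
theorem pnt_psi : Tendsto (fun x : ℝ => Chebyshev.psi x / x) atTop (𝓝 1) := by
  have h := pnt_ap (q := 1) (a := 1) isUnit_one
  simp only [Nat.totient_one, Nat.cast_one, inv_one] at h
  refine h.congr ?_
  intro x
  congr 1
  rw [Chebyshev.psi]
  refine Finset.sum_congr rfl fun k _ => ?_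
  exact Set.indicator_of_mem (s := {n : ℕ | (n : ZMod 1) = 1}) (Subsingleton.elim _ _) _

/-- The prime number theorem for the Chebyshev theta function. -/
theorem pnt_theta : Tendsto (fun x : ℝ => Chebyshev.theta x / x) atTop (𝓝 1) := by
  obtain ⟨C, hC⟩ := Chebyshev.psi_sub_theta_le_mul_sqrt
  have h1 : Tendsto (fun x : ℝ => C * (Real.sqrt x / x)) atTop (𝓝 0) := by
    have : Tendsto (fun x : ℝ => Real.sqrt x / x) atTop (𝓝 0) := by
      have h2 : Tendsto (fun x : ℝ => (Real.sqrt x)⁻¹) atTop (𝓝 0) :=
        tendsto_inv_atTop_zero.comp Real.tendsto_sqrt_atTop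
      refine h2.congr' ?_
      filter_upwards [eventually_gt_atTop 0] with x hx
      rw [Real.sqrt_div_self']
      simp
    simpa using this.const_mul C
  have h2 : Tendsto (fun x : ℝ => (Chebyshev.psi x - Chebyshev.theta x) / x) atTop (𝓝 0) := by
    refine squeeze_zero' ?_ ?_ h1
    · filter_upwards [eventually_gt_atTop 0] with x hx
      exact div_nonneg (sub_nonneg.mpr (Chebyshev.theta_le_psi x)) hx.le
    · filter_upwards [eventually_gt_atTop 0] with x hx
      rw [← mul_div_assoc]
      exact div_le_div_of_nonneg_right (hC x) hx.le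
  have h3 := pnt_psi.sub h2
  rw [sub_zero] at h3
  refine h3.congr ?_
  intro x
  ring

end Vale.Agent.P021
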