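import Mathlib

open MeasureTheory Set Filter Topology

namespace Vale.Agent.P021.PNTc

section

variable (k : ℝ → ℝ)

theorem integral_scaled (hki : Integrable k) (l : ℝ) (hl : 0 < l) :
    Integrable (fun v => l * k (l * v)) ∧ ∫ v, l * k (l * v) = ∫ v, k v := by
  constructor
  · exact (hki.comp_mul_left' hl.ne').const_mul l
  · rw [integral_const_mul, Measure.integral_comp_mul_left, smul_eq_mul, abs_of_pos (inv_pos.mpr hl)]
    field_simp

theorem tail_tendsto (hki : Integrable k) (l : ℝ) (hl : 0 < l) :
    Tendsto (fun y : ℝ => ∫ t in Ioi (0 : ℝ), l * k (l * (y - t))) atTop (𝓝 (∫ v, k v)) := by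
  obtain ⟨h1, h2⟩ := integral_scaled k hki l hl
  have h3 := (aecover_Iio (μ := volume) (l := (atTop : Filter ℝ)) (b := fun y : ℝ => y)
    tendsto_id).integral_tendsto_of_countably_generated h1
  rw [h2] at h3
  refine h3.congr ?_
  intro y
  rw [← integral_indicator measurableSet_Iio, ← integral_indicator measurableSet_Ioi,
    ← integral_sub_left_eq_self _ _ y]
  congr 1
  ext t
  by_cases ht : 0 < t
  · rw [indicator_of_mem (mem_Iio.mpr (by linarith)), indicator_of_mem (mem_Ioi.mpr ht)]
  · rw [indicator_of_notMem (by simp only [mem_Iio]; linarith), indicator_of_notMem (by simpa using ht)]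

/-- Tauberian step of the Wiener-Ikehara theorem -/
theorem tauberian (hk0 : ∀ v, 0 ≤ k v) (hki : Integrable k) (hkI : 0 < ∫ v, k v)
    (F : ℝ → ℝ) (C : ℝ) (hFm : Measurable F) (hF0 : ∀ t, 0 ≤ F t) (hFC : ∀ t, F t ≤ C)
    (hmono : ∀ s t, s ≤ t → F s * Real.exp (-(t - s)) ≤ F t)
    (hlim : ∀ l : ℝ, 0 < l →
      Tendsto (fun y : ℝ => ∫ t in Ioi (0 : ℝ), (F t - 1) * (l * k (l * (y - t)))) atTop (𝓝 0)) :
    Tendsto F atTop (𝓝 1) := by
  set I := ∫ v, k v with hI
  have hC0 : 0 ≤ C := (hF0 0).trans (hFC 0)
  -- integrability facts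
  have hKi : ∀ l : ℝ, 0 < l → ∀ y : ℝ, Integrable (fun t => l * k (l * (y - t))) := by
    intro l hl y
    exact (integral_scaled k hki l hl).1.comp_sub_left y
  have hKI : ∀ l : ℝ, 0 < l → ∀ y : ℝ, ∫ t, l * k (l * (y - t)) = I := by
    intro l hl y
    rw [integral_sub_left_eq_self (fun v => l * k (l * v)) volume y]
    exact (integral_scaled k hki l hl).2
  have hK0 : ∀ l : ℝ, 0 < l → ∀ y t : ℝ, 0 ≤ l * k (l * (y - t)) := by
    intro l hl y t
    exact mul_nonneg hl.le (hk0 _)
  have hFKi : ∀ l : ℝ, 0 < l → ∀ y : ℝ, Integrable (fun t => F t * (l * k (l * (y - t)))) := by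
    intro l hl y
    refine (hKi l hl y).bdd_mul (c := C) hFm.aestronglyMeasurable ?_
    filter_upwards with t
    rw [Real.norm_eq_abs, abs_of_nonneg (hF0 t)]
    exact hFC t
  -- A l y
  have hA : ∀ l : ℝ, 0 < l →
      Tendsto (fun y : ℝ => ∫ t in Ioi (0 : ℝ), F t * (l * k (l * (y - t)))) atTop (𝓝 I) := by
    intro l hl
    have h := (hlim l hl).add (tail_tendsto k hki l hl)
    rw [zero_add] at h
    refine h.congr ?_
    intro y
    have hi1 : IntegrableOn (fun t => (F t - 1) * (l * k (l * (y - t)))) (Ioi 0) := by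
      have := ((hFKi l hl y).sub (hKi l hl y)).integrableOn (s := Ioi (0 : ℝ))
      refine this.congr ?_
      filter_upwards with t
      simp only [Pi.sub_apply]
      ring
    rw [← integral_add hi1 (hKi l hl y).integrableOn]
    congr 1
    ext t
    ring
  -- J r
  set J : ℝ → ℝ := fun r => ∫ v in (-r)..r, k v with hJ
  have hJlim : Tendsto J atTop (𝓝 I) :=
    intervalIntegral_tendsto_integral hki tendsto_neg_atTop_atBot tendsto_id
  have hwin : ∀ l h y : ℝ, 0 < l → 0 < h → ∫ t in (y - h)..(y + h), l * k (l * (y - t)) = J (l * h) := by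
    intro l h y hl hh
    rw [intervalIntegral.integral_const_mul,
      intervalIntegral.integral_comp_sub_left (fun v => k (l * v)) y,
      intervalIntegral.mul_integral_comp_mul_left]
    simp only [hJ]
    congr 1 <;> ring
  -- upper
  have hup : ∀ l h y : ℝ, 0 < l → 0 < h → 0 < y →
      F y * Real.exp (-(2 * h)) * J (l * h) ≤ ∫ t in Ioi (0 : ℝ), F t * (l * k (l * (y + h - t))) := by
    intro l h y hl hh hy
    rw [← hwin l h (y + h) hl hh, ← intervalIntegral.integral_const_mul,
      intervalIntegral.integral_of_le (by linarith)]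
    calc ∫ t in Ioc (y + h - h) (y + h + h), F y * Real.exp (-(2 * h)) * (l * k (l * (y + h - t)))
        ≤ ∫ t in Ioc (y + h - h) (y + h + h), F t * (l * k (l * (y + h - t))) := by
          apply setIntegral_mono_on
          · exact ((hKi l hl (y + h)).const_mul _).integrableOn
          · exact (hFKi l hl (y + h)).integrableOn
          · exact measurableSet_Ioc
          · intro t ht
            apply mul_le_mul_of_nonneg_right _ (hK0 l hl _ _)
            refine le_trans ?_ (hmono y t (by linarith [ht.1]))
            apply mul_le_mul_of_nonneg_left _ (hF0 y)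
            apply Real.exp_le_exp.mpr
            linarith [ht.2]
      _ ≤ ∫ t in Ioi (0 : ℝ), F t * (l * k (l * (y + h - t))) := by
          apply setIntegral_mono_set (hFKi l hl (y + h)).integrableOn
          · filter_upwards with t
            exact mul_nonneg (hF0 t) (hK0 l hl _ _)
          · apply LE.le.eventuallyLE
            intro t ht
            simp only [mem_Ioi]
            linarith [ht.1]
  -- lower
  have hlow : ∀ l h y : ℝ, 0 < l → 0 < h →
      ∫ t in Ioi (0 : ℝ), F t * (l * k (l * (y - h - t))) ≤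
        F y * Real.exp (2 * h) * I + C * (I - J (l * h)) := by
    intro l h y hl hh
    set s : Set ℝ := Ioc (y - h - h) (y - h + h) with hs
    have hsm : MeasurableSet s := measurableSet_Ioc
    have hwin' : ∫ t in s, l * k (l * (y - h - t)) = J (l * h) := by
      rw [← hwin l h (y - h) hl hh, intervalIntegral.integral_of_le (by linarith)]
    have h1 : ∫ t in Ioi (0 : ℝ), F t * (l * k (l * (y - h - t))) ≤
        ∫ t, F t * (l * k (l * (y - h - t))) := by
      apply setIntegral_le_integral (hFKi l hl _)
      filter_upwards with t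
      exact mul_nonneg (hF0 t) (hK0 l hl _ _)
    have h2 : ∫ t, F t * (l * k (l * (y - h - t))) =
        (∫ t in s, F t * (l * k (l * (y - h - t)))) + ∫ t in sᶜ, F t * (l * k (l * (y - h - t))) :=
      (integral_add_compl hsm (hFKi l hl _)).symm
    have h3 : ∫ t in s, F t * (l * k (l * (y - h - t))) ≤
        ∫ t in s, F y * Real.exp (2 * h) * (l * k (l * (y - h - t))) := by
      apply setIntegral_mono_on (hFKi l hl _).integrableOn ((hKi l hl _).const_mul _).integrableOn hsm
      intro t ht
      apply mul_le_mul_of_nonneg_right _ (hK0 l hl _ _)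
      have h4 := hmono t y (by linarith [ht.2])
      have h5 : F t = F t * Real.exp (-(y - t)) * Real.exp (y - t) := by
        rw [mul_assoc, ← Real.exp_add]; simp
      rw [h5]
      apply mul_le_mul h4 _ (Real.exp_pos _).le (hF0 y)
      apply Real.exp_le_exp.mpr
      linarith [ht.1]
    have h4 : ∫ t in s, F y * Real.exp (2 * h) * (l * k (l * (y - h - t))) ≤
        F y * Real.exp (2 * h) * I := by
      rw [integral_const_mul]
      apply mul_le_mul_of_nonneg_left _ (mul_nonneg (hF0 y) (Real.exp_pos _).le)
      rw [← hKI l hl (y - h)]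
      apply setIntegral_le_integral (hKi l hl _)
      filter_upwards with t
      exact hK0 l hl _ _
    have h5 : ∫ t in sᶜ, F t * (l * k (l * (y - h - t))) ≤ C * (I - J (l * h)) := by
      have h6 : ∫ t in sᶜ, F t * (l * k (l * (y - h - t))) ≤
          ∫ t in sᶜ, C * (l * k (l * (y - h - t))) := by
        apply setIntegral_mono_on (hFKi l hl _).integrableOn ((hKi l hl _).const_mul _).integrableOn
          hsm.compl
        intro t _
        exact mul_le_mul_of_nonneg_right (hFC t) (hK0 l hl _ _)
      rw [integral_const_mul] at h6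
      have h7 := integral_add_compl hsm (hKi l hl (y - h))
      rw [hwin', hKI l hl (y - h)] at h7
      have h8 : ∫ t in sᶜ, l * k (l * (y - h - t)) = I - J (l * h) := by linarith
      rw [h8] at h6
      exact h6
    linarith
  rw [tendsto_order]
  constructor
  · intro b hb
    -- choose h
    obtain ⟨h, hh, hbh⟩ : ∃ h : ℝ, 0 < h ∧ b * Real.exp (2 * h) < 1 := by
      have hc : Tendsto (fun h : ℝ => b * Real.exp (2 * h)) (𝓝[>] 0) (𝓝 (b * Real.exp (2 * 0))) := by
        apply Tendsto.mono_left _ nhdsWithin_le_nhds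
        exact (by fun_prop : Continuous fun h : ℝ => b * Real.exp (2 * h)).tendsto 0
      rw [mul_zero, Real.exp_zero, mul_one] at hc
      have := ((hc.eventually_lt_const hb).and self_mem_nhdsWithin).exists
      obtain ⟨h, h1, h2⟩ := this
      exact ⟨h, h2, h1⟩
    -- choose r
    obtain ⟨r, hr, hbr⟩ : ∃ r : ℝ, 0 < r ∧ b * Real.exp (2 * h) * I + C * (I - J r) < I := by
      have hc : Tendsto (fun r => b * Real.exp (2 * h) * I + C * (I - J r)) atTop
          (𝓝 (b * Real.exp (2 * h) * I + C * (I - I))) :=
        tendsto_const_nhds.add ((tendsto_const_nhds.sub hJlim).const_mul C)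
      rw [sub_self, mul_zero, add_zero] at hc
      have hlt : b * Real.exp (2 * h) * I < I := by nlinarith
      obtain ⟨r, h1, h2⟩ := ((hc.eventually_lt_const hlt).and (eventually_gt_atTop 0)).exists
      exact ⟨r, h2, h1⟩
    have hl : 0 < r / h := div_pos hr hh
    have hrl : r / h * h = r := div_mul_cancel₀ r hh.ne'
    have hAh : Tendsto (fun y : ℝ => ∫ t in Ioi (0 : ℝ), F t * (r / h * k (r / h * (y - h - t))))
        atTop (𝓝 I) :=
      (hA (r / h) hl).comp (tendsto_atTop_add_const_right _ (-h) tendsto_id |>.congr (fun y => by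
        simp [sub_eq_add_neg]))
    filter_upwards [hAh.eventually_const_lt hbr] with y hy
    have h9 := hlow (r / h) h y hl hh
    rw [hrl] at h9
    by_contra hcon
    push Not at hcon
    have h10 : F y * Real.exp (2 * h) * I ≤ b * Real.exp (2 * h) * I := by gcongr
    linarith
  · intro a ha
    obtain ⟨h, hh, hbh⟩ : ∃ h : ℝ, 0 < h ∧ 1 < a * Real.exp (-(2 * h)) := by
      have hc : Tendsto (fun h : ℝ => a * Real.exp (-(2 * h))) (𝓝[>] 0) (𝓝 (a * Real.exp (-(2 * 0)))) := by
        apply Tendsto.mono_left _ nhdsWithin_le_nhds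
        exact (by fun_prop : Continuous fun h : ℝ => a * Real.exp (-(2 * h))).tendsto 0
      rw [mul_zero, neg_zero, Real.exp_zero, mul_one] at hc
      have := ((hc.eventually_const_lt ha).and self_mem_nhdsWithin).exists
      obtain ⟨h, h1, h2⟩ := this
      exact ⟨h, h2, h1⟩
    obtain ⟨r, hr, hbr⟩ : ∃ r : ℝ, 0 < r ∧ I < a * Real.exp (-(2 * h)) * J r := by
      have hc : Tendsto (fun r => a * Real.exp (-(2 * h)) * J r) atTop
          (𝓝 (a * Real.exp (-(2 * h)) * I)) := hJlim.const_mul _
      have hlt : I < a * Real.exp (-(2 * h)) * I := by nlinarith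
      obtain ⟨r, h1, h2⟩ := ((hc.eventually_const_lt hlt).and (eventually_gt_atTop 0)).exists
      exact ⟨r, h2, h1⟩
    have hl : 0 < r / h := div_pos hr hh
    have hrl : r / h * h = r := div_mul_cancel₀ r hh.ne'
    have hAh : Tendsto (fun y : ℝ => ∫ t in Ioi (0 : ℝ), F t * (r / h * k (r / h * (y + h - t))))
        atTop (𝓝 I) :=
      (hA (r / h) hl).comp (tendsto_atTop_add_const_right _ h tendsto_id)
    have hJr : 0 < J r := by
      by_contra hcon
      push Not at hcon
      have h1 : a * Real.exp (-(2 * h)) * J r ≤ 0 :=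
        mul_nonpos_of_nonneg_of_nonpos (by positivity) hcon
      linarith
    filter_upwards [hAh.eventually_lt_const hbr, eventually_gt_atTop 0] with y hy hy0
    have h9 := hup (r / h) h y hl hh hy0
    rw [hrl] at h9
    by_contra hcon
    push Not at hcon
    have h10 : a * Real.exp (-(2 * h)) * J r ≤ F y * Real.exp (-(2 * h)) * J r := by gcongr
    linarith

end

end Vale.Agent.P021.PNTc
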