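import Vale.Agent.P021.Den
import Vale.Agent.P021.Rec

open Polynomial

namespace Vale.Agent.P021

/-- `x` is `p`-integral -/
def PInt (p : ℕ) (x : ℚ) : Prop := ∃ m z : ℤ, ¬ (p : ℤ) ∣ m ∧ (m : ℚ) * x = z

theorem PInt.add {p : ℕ} (hp : p.Prime) {x y : ℚ} (hx : PInt p x) (hy : PInt p y) :
    PInt p (x + y) := by
  obtain ⟨m, z, hm, h⟩ := hx
  obtain ⟨m', z', hm', h'⟩ := hy
  refine ⟨m * m', m' * z + m * z', ?_, ?_⟩
  · intro hd
    rcases (Int.Prime.dvd_mul' hp hd) with h1 | h1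
    · exact hm h1
    · exact hm' h1
  · push_cast
    rw [← h, ← h']
    ring

theorem PInt.mul {p : ℕ} (hp : p.Prime) {x y : ℚ} (hx : PInt p x) (hy : PInt p y) :
    PInt p (x * y) := by
  obtain ⟨m, z, hm, h⟩ := hx
  obtain ⟨m', z', hm', h'⟩ := hy
  refine ⟨m * m', z * z', ?_, ?_⟩
  · intro hd
    rcases (Int.Prime.dvd_mul' hp hd) with h1 | h1
    · exact hm h1
    · exact hm' h1
  · push_cast
    rw [← h, ← h']
    ring

theorem PInt.int {p : ℕ} (hp : p.Prime) (z : ℤ) : PInt p z :=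
  ⟨1, z, by
    intro h
    have := Int.natAbs_dvd_natAbs.mpr h
    simp at this
    exact hp.one_lt.ne' this, by simp⟩

theorem PInt.sum {p : ℕ} (hp : p.Prime) {ι : Type*} (s : Finset ι) (f : ι → ℚ)
    (h : ∀ i ∈ s, PInt p (f i)) : PInt p (∑ i ∈ s, f i) := by
  classical
  induction s using Finset.induction_on with
  | empty => simpa using PInt.int hp 0
  | insert i s hi ih =>
    rw [Finset.sum_insert hi]
    exact PInt.add hp (h i (Finset.mem_insert_self _ _))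
      (ih fun j hj => h j (Finset.mem_insert_of_mem hj))

theorem PInt.of_mul {p : ℕ} (hp : p.Prime) {x : ℚ} {m : ℤ} (hm : ¬ (p : ℤ) ∣ m)
    (h : PInt p (m * x)) : PInt p x := by
  obtain ⟨m', z, hm', h⟩ := h
  refine ⟨m' * m, z, ?_, ?_⟩
  · intro hd
    rcases (Int.Prime.dvd_mul' hp hd) with h1 | h1
    · exact hm' h1
    · exact hm h1
  · push_cast
    rw [← h]
    ring

theorem PInt.not_dvd_den {p : ℕ} {x : ℚ} (h : PInt p x) : ¬ p ∣ x.den := by
  obtain ⟨m, z, hm, h⟩ := h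
  intro hd
  apply hm
  have h1 : (m : ℚ) * x.num = z * x.den := by
    rw [← h, ← Rat.mul_den_eq_num x]
    ring
  have h2 : m * x.num = z * x.den := by exact_mod_cast h1
  have h3 : (x.den : ℤ) ∣ m * x.num := ⟨z, by rw [h2]; ring⟩
  have h4 : IsCoprime (x.den : ℤ) x.num := by
    rw [Int.isCoprime_iff_gcd_eq_one, Int.gcd_comm]
    have := x.reduced
    simpa [Int.gcd, Nat.Coprime] using this
  have h5 : (x.den : ℤ) ∣ m := h4.dvd_of_dvd_mul_right h3
  exact (Int.natCast_dvd_natCast.mpr hd).trans h5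

theorem not_dvd_ten_pow {p : ℕ} (hp : p.Prime) (h7 : 7 ≤ p) (a b : ℕ) :
    ¬ (p : ℤ) ∣ 5 ^ a * 2 ^ b := by
  intro h
  have h' : p ∣ 5 ^ a * 2 ^ b := by exact_mod_cast h
  rcases (Nat.Prime.dvd_mul hp).mp h' with h1 | h1
  · have := Nat.le_of_dvd (by norm_num) (hp.dvd_of_dvd_pow h1); omega
  · have := Nat.le_of_dvd (by norm_num) (hp.dvd_of_dvd_pow h1); omega

theorem beta_PInt {p : ℕ} (hp : p.Prime) (h7 : 7 ≤ p) (j : ℤ) : PInt p (beta j) := by
  cases j with
  | ofNat j =>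
    refine ⟨5 ^ (1 + 2 * j) * 2 ^ 0, (⟨-1, -2⟩ * (⟨7, -1⟩ : GaussianInt) ^ j).im,
      not_dvd_ten_pow hp h7 _ _, ?_⟩
    simp only [beta]
    push_cast
    have : (5 : ℚ) ^ (1 + 2 * j) = 5 * 25 ^ j := by
      rw [pow_add, pow_mul]; norm_num
    rw [this]
    have h25 : (5 : ℚ) * 25 ^ j ≠ 0 := by positivity
    field_simp
  | negSucc l =>
    refine ⟨5 ^ 1 * 2 ^ (l + 1), (⟨-1, -2⟩ * (⟨7, 1⟩ : GaussianInt) ^ (l + 1)).im,
      not_dvd_ten_pow hp h7 _ _, ?_⟩
    simp only [beta]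
    push_cast
    have h25 : (5 : ℚ) * 2 ^ (l + 1) ≠ 0 := by positivity
    field_simp

theorem Bf_PInt {p : ℕ} (hp : p.Prime) (h7 : 7 ≤ p) (c : ℤ) (H : ℤ[X]) :
    PInt p (Bf c (H.map (Int.castRingHom ℚ))) := by
  rw [Bf_eq_sum]
  apply PInt.sum hp
  intro i _
  apply PInt.mul hp _ (beta_PInt hp h7 _)
  rw [Polynomial.coeff_map]
  exact PInt.int hp _

theorem not_sq_dvd_lcmUpto {p M : ℕ} (hp : p.Prime) (hM : M < p ^ 2) : ¬ p ^ 2 ∣ lcmUpto M := by
  intro h
  unfold lcmUpto at h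
  have hpp : Prime p := hp.prime
  have key : ∀ (s : Finset ℕ), (∀ m ∈ s, 0 < m ∧ m < p ^ 2) → ¬ p ^ 2 ∣ s.lcm id := by
    intro s
    induction s using Finset.induction_on with
    | empty =>
      intro _ h
      rw [Finset.lcm_empty] at h
      have h1 := Nat.dvd_one.mp h
      have h2 := hp.two_le
      nlinarith
    | insert a s ha ih =>
      intro hs h
      have h1 := ih fun m hm => hs m (Finset.mem_insert_of_mem hm)
      have h2 : ¬ p ^ 2 ∣ a := by
        intro h2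
        have := Nat.le_of_dvd (hs a (Finset.mem_insert_self _ _)).1 h2
        have := (hs a (Finset.mem_insert_self _ _)).2
        omega
      rw [Finset.lcm_insert] at h
      have h3 : p ^ 2 ∣ Nat.lcm a (s.lcm id) := h
      have ha0 : a ≠ 0 := by
        have := (hs a (Finset.mem_insert_self _ _)).1; omega
      have hs0 : s.lcm id ≠ 0 := by
        rw [Ne, Finset.lcm_eq_zero_iff]
        rintro ⟨x, hx, h0⟩
        have := (hs x (Finset.mem_insert_of_mem hx)).1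
        simp at h0; omega
      rw [hp.pow_dvd_iff_le_factorization (Nat.lcm_ne_zero ha0 hs0),
        Nat.factorization_lcm ha0 hs0] at h3
      rw [hp.pow_dvd_iff_le_factorization ha0] at h2
      rw [hp.pow_dvd_iff_le_factorization hs0] at h1
      simp only [Finsupp.sup_apply] at h3
      rcases le_max_iff.mp (show 2 ≤ max _ _ from h3) with h4 | h4
      · exact h2 h4
      · exact h1 h4
  refine key (Finset.Icc 1 M) ?_ h
  intro m hm
  have := Finset.mem_Icc.mp hm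
  omega

theorem rho_PInt_mul {p : ℕ} (hp : p.Prime) (h7 : 7 ≤ p) {M : ℕ} (hM : M < p ^ 2) (j : ℤ)
    (h1 : 2 * j + 1 ≤ M) (h2 : -j ≤ M) : PInt p (p * rho j) := by
  -- lcmUpto M = p * m' or not divisible by p
  have hL := not_sq_dvd_lcmUpto hp hM
  have hfac : ∃ m' : ℤ, ¬ (p : ℤ) ∣ m' ∧ ∃ t : ℤ, m' * p = lcmUpto M * t := by
    by_cases hd : p ∣ lcmUpto M
    · obtain ⟨m', hm'⟩ := hd
      refine ⟨m', ?_, 1, ?_⟩
      · intro h
        apply hL
        have h' : p ∣ m' := by exact_mod_cast h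
        obtain ⟨u, hu⟩ := h'
        exact ⟨u, by rw [hm', hu]; ring⟩
      · rw [hm']; push_cast; ring
    · exact ⟨lcmUpto M, by exact_mod_cast hd, p, by ring⟩
  obtain ⟨m', hm', t, ht⟩ := hfac
  have ht' : (m' : ℚ) * p = lcmUpto M * t := by exact_mod_cast ht
  rcases le_or_gt 0 j with hj | hj
  · obtain ⟨i, rfl⟩ := Int.eq_ofNat_of_zero_le hj
    obtain ⟨z, hz⟩ := rho_den_nonneg i M (by omega)
    refine ⟨m' * (5 ^ (2 * i + 1) * 2 ^ 0), t * (2 ^ ((i + 1) / 2) * z), ?_, ?_⟩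
    · intro hd
      rcases (Int.Prime.dvd_mul' hp hd) with h | h
      · exact hm' h
      · exact not_dvd_ten_pow hp h7 _ _ h
    · push_cast
      linear_combination (5 : ℚ) ^ (2 * i + 1) * rho i * ht' + (t : ℚ) * hz
  · obtain ⟨l, hl⟩ : ∃ l : ℕ, j = -(l + 1 : ℤ) := ⟨(-j - 1).toNat, by omega⟩
    subst hl
    obtain ⟨z, hz⟩ := rho_den_neg l M (by omega)
    refine ⟨m' * (5 ^ 0 * 2 ^ ((l + 1) / 2)), t * z, ?_, ?_⟩
    · intro hd
      rcases (Int.Prime.dvd_mul' hp hd) with h | h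
      · exact hm' h
      · exact not_dvd_ten_pow hp h7 _ _ h
    · push_cast
      linear_combination (2 : ℚ) ^ ((l + 1) / 2) * rho (-(l + 1 : ℤ)) * ht' + (t : ℚ) * hz

theorem Rf_PInt_mul {p : ℕ} (hp : p.Prime) (h7 : 7 ≤ p) {M : ℕ} (hM : M < p ^ 2) (c : ℕ)
    (R : ℤ[X]) (d : ℕ) (hd : R.natDegree ≤ d) (h1 : 2 * (d : ℤ) - 2 * c + 1 ≤ M) (h2 : c ≤ M) :
    PInt p (p * Rf c (R.map (Int.castRingHom ℚ))) := by
  rw [Rf_eq_sum_of_le c _ d ((Polynomial.natDegree_map_le).trans hd), Finset.mul_sum]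
  apply PInt.sum hp
  intro i hi
  have hi' := Finset.mem_range.mp hi
  have : (p : ℚ) * ((R.map (Int.castRingHom ℚ)).coeff i * rho (i - c)) =
      (R.coeff i : ℚ) * (p * rho (i - c)) := by
    rw [Polynomial.coeff_map]; simp; ring
  rw [this]
  exact PInt.mul hp (PInt.int hp _) (rho_PInt_mul hp h7 hM _ (by omega) (by omega))

theorem Rf_X_pow_mul (c : ℤ) (N : ℚ[X]) (m : ℕ) : Rf (c + m) (X ^ m * N) = Rf c N := by
  induction m with
  | zero => simp
  | succ m ih =>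
    rw [pow_succ', mul_assoc]
    have : c + ((m + 1 : ℕ) : ℤ) = (c + m) + 1 := by push_cast; ring
    rw [this, Rf_X_mul, ih]

/-- Version of `DD` over the integers -/
noncomputable def DZ (c : ℤ) (N : ℤ[X]) : ℤ[X] :=
  -2 * X * N + (1 - 4 * X) * (X * derivative N - C c * N)

theorem DZ_map (c : ℤ) (N : ℤ[X]) :
    (DZ c N).map (Int.castRingHom ℚ) = DD c (N.map (Int.castRingHom ℚ)) := by
  simp [DZ, DD, Polynomial.derivative_map]

/-- abstract criterion -/
theorem PInt_of_identity {p : ℕ} (hp : p.Prime) (h7 : 7 ≤ p) (N H R : ℤ[X]) (m : ℤ)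
    (hm : ¬ (p : ℤ) ∣ m) (c : ℤ) (c' s : ℕ) (hc : c + c' = s) (d M : ℕ) (hd : R.natDegree ≤ d)
    (hM : M < p ^ 2) (h1 : 2 * (d : ℤ) - 2 * s - 1 ≤ M) (h2 : s + 1 ≤ M)
    (hid : C m * N * X ^ (c' + 1) = DZ s H + C (p : ℤ) * R) :
    PInt p (Rf c (N.map (Int.castRingHom ℚ))) := by
  apply PInt.of_mul hp hm
  have h3 : (m : ℚ) * Rf c (N.map (Int.castRingHom ℚ)) =
      Bf s (H.map (Int.castRingHom ℚ)) + p * Rf ((s + 1 : ℕ) : ℤ) (R.map (Int.castRingHom ℚ)) := by
    have e1 : Rf c (N.map (Int.castRingHom ℚ)) =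
        Rf (s + 1 : ℤ) (X ^ (c' + 1) * N.map (Int.castRingHom ℚ)) := by
      rw [← Rf_X_pow_mul c _ (c' + 1)]
      congr 1
      have : c + ((c' + 1 : ℕ) : ℤ) = (s + 1 : ℤ) := by push_cast; omega
      rw [this]
    have e2 := congrArg (fun P : ℤ[X] => Rf (s + 1 : ℤ) (P.map (Int.castRingHom ℚ))) hid
    simp only [Polynomial.map_mul, Polynomial.map_add, Polynomial.map_pow, Polynomial.map_X,
      DZ_map, Polynomial.map_C] at e2
    rw [map_add, Rf_DD] at e2
    have e3 : (C ((Int.castRingHom ℚ) m) * N.map (Int.castRingHom ℚ) * X ^ (c' + 1) : ℚ[X]) =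
        (m : ℚ) • (X ^ (c' + 1) * N.map (Int.castRingHom ℚ)) := by
      rw [Polynomial.smul_eq_C_mul]
      simp
      ring
    have e4 : (C ((Int.castRingHom ℚ) (p : ℤ)) * R.map (Int.castRingHom ℚ) : ℚ[X]) =
        (p : ℚ) • (R.map (Int.castRingHom ℚ)) := by
      rw [Polynomial.smul_eq_C_mul]
      simp
    rw [e3, e4, map_smul, map_smul, smul_eq_mul, smul_eq_mul] at e2
    rw [e1, e2]
    push_cast
    ring
  rw [h3]
  exact PInt.add hp (Bf_PInt hp h7 _ _)
    (Rf_PInt_mul hp h7 hM (s + 1) R d hd (by push_cast; omega) h2)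

/-- the polynomial `q` over `ℤ` -/
noncomputable def qZ : ℤ[X] := 25 * X ^ 2 - 14 * X + 2

theorem DZ_product (c e b : ℕ) (G : ℤ[X]) :
    DZ c ((1 - 4 * X) ^ (e + 1) * qZ ^ (b + 1) * G) =
      (1 - 4 * X) ^ (e + 1) * qZ ^ (b + 1) * X * ((1 - 4 * X) * derivative G - 2 * G)
      + (C (-4 * ((e : ℤ) + 1)) * X * (1 - 4 * X) ^ (e + 1) * qZ ^ (b + 1) * G
      + C ((b : ℤ) + 1) * (1 - 4 * X) ^ (e + 2) * X * qZ ^ b * derivative qZ * G
      - C (c : ℤ) * (1 - 4 * X) ^ (e + 2) * qZ ^ (b + 1) * G) := by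
  unfold DZ
  have hd : derivative ((1 - 4 * X : ℤ[X]) ^ (e + 1) * qZ ^ (b + 1) * G) =
      C (-4 * ((e : ℤ) + 1)) * (1 - 4 * X) ^ e * qZ ^ (b + 1) * G +
      C ((b : ℤ) + 1) * (1 - 4 * X) ^ (e + 1) * qZ ^ b * derivative qZ * G +
      (1 - 4 * X) ^ (e + 1) * qZ ^ (b + 1) * derivative G := by
    rw [derivative_mul, derivative_mul, derivative_pow_succ, derivative_pow_succ]
    have h1 : derivative (1 - 4 * X : ℤ[X]) = C (-4) := by
      have h4 : (4 : ℤ[X]) = C 4 := rfl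
      rw [h4, derivative_sub, derivative_one, derivative_C_mul, derivative_X]
      simp
    rw [h1]
    have h2 : (C (-4 * ((e : ℤ) + 1)) : ℤ[X]) = C (-4) * (C (e : ℤ) + 1) := by
      simp
    have h3 : (C ((b : ℤ) + 1) : ℤ[X]) = C (b : ℤ) + 1 := by simp
    rw [h2, h3]
    simp only [map_add, map_natCast, map_one]
    ring
  rw [hd]
  ring

theorem exists_antideriv {p : ℕ} (hp : p.Prime) (g : ℤ[X]) (d : ℕ) (hg : g.natDegree ≤ d)
    (hd : d + 1 < p) : ∃ (Γ : ℤ[X]) (m : ℤ), ¬ (p : ℤ) ∣ m ∧ derivative Γ = C m * g ∧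
      Γ.natDegree ≤ d + 1 := by
  refine ⟨∑ i ∈ Finset.range (d + 1), C (((d + 1).factorial / (i + 1) : ℕ) * g.coeff i) * X ^ (i + 1),
    ((d + 1).factorial : ℕ), ?_, ?_, ?_⟩
  · intro h
    have h' : p ∣ (d + 1).factorial := by exact_mod_cast h
    have := (hp.dvd_factorial).mp h'
    omega
  · conv_rhs => rw [g.as_sum_range' (d + 1) (by omega)]
    rw [derivative_sum, Finset.mul_sum]
    apply Finset.sum_congr rfl
    intro i hi
    have hi' := Finset.mem_range.mp hi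
    have hdiv : (i + 1) ∣ (d + 1).factorial := Nat.dvd_factorial (by omega) (by omega)
    obtain ⟨u, hu⟩ := hdiv
    have hu' : (d + 1).factorial / (i + 1) = u := by
      rw [hu]; exact Nat.mul_div_cancel_left _ (by omega)
    rw [hu', hu, derivative_C_mul_X_pow, ← Polynomial.C_mul_X_pow_eq_monomial]
    simp only [Nat.add_sub_cancel]
    push_cast
    simp only [map_mul, map_add, map_natCast, map_one]
    ring
  · apply Polynomial.natDegree_sum_le_of_forall_le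
    intro i hi
    have hi' := Finset.mem_range.mp hi
    exact (Polynomial.natDegree_C_mul_X_pow_le _ _).trans (by omega)

theorem exists_invD {p : ℕ} (d : ℕ) (hd : 2 * d + 1 < p) (g : ℤ[X])
    (hg : g.natDegree ≤ d) : ∃ (h : ℤ[X]) (m : ℤ), m = ∏ k ∈ Finset.range (d + 1), (4 * (k : ℤ) + 2) ∧
      (1 - 4 * X) * derivative h - 2 * h = C m * g ∧ h.natDegree ≤ d := by
  induction d generalizing g with
  | zero =>
    rw [Polynomial.eq_C_of_natDegree_le_zero hg]
    refine ⟨C (-(g.coeff 0)), 2, by simp, ?_, by simp⟩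
    have h2 : (2 : ℤ[X]) = C 2 := rfl
    rw [derivative_C, mul_zero, zero_sub, h2, ← map_mul, ← map_mul, ← map_neg]
    congr 1
    ring
  | succ d ih =>
    -- split leading coefficient
    set a := g.coeff (d + 1) with ha
    have hsplit : g = C a * X ^ (d + 1) + (g - C a * X ^ (d + 1)) := by ring
    set gl := g - C a * X ^ (d + 1) with hgl
    have hgl_deg : gl.natDegree ≤ d := by
      rw [Polynomial.natDegree_le_iff_coeff_eq_zero]
      intro i hi
      rw [hgl, coeff_sub, coeff_C_mul, coeff_X_pow]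
      rcases eq_or_ne i (d + 1) with h | h
      · subst h; simp [ha]
      · rw [if_neg h, mul_zero, sub_zero]
        exact Polynomial.coeff_eq_zero_of_natDegree_lt (by omega)
    set g1 : ℤ[X] := C (4 * ((d : ℤ) + 1) + 2) * gl + C (((d : ℤ) + 1) * a) * X ^ d with hg1
    have hg1_deg : g1.natDegree ≤ d := by
      apply (Polynomial.natDegree_add_le _ _).trans
      apply max_le
      · exact (Polynomial.natDegree_C_mul_le _ _).trans hgl_deg
      · exact Polynomial.natDegree_C_mul_X_pow_le _ _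
    obtain ⟨h1, m1, hm1, hh1, hh1d⟩ := ih (by omega) g1 hg1_deg
    refine ⟨h1 - C (m1 * a) * X ^ (d + 1), m1 * (4 * ((d : ℤ) + 1) + 2), ?_, ?_, ?_⟩
    · rw [Finset.prod_range_succ, ← hm1]; push_cast; ring
    · rw [derivative_sub, derivative_C_mul_X_pow]
      have e1 : (1 - 4 * X) * (derivative h1 - C (m1 * a * ((d + 1 : ℕ) : ℤ)) * X ^ (d + 1 - 1)) -
          2 * (h1 - C (m1 * a) * X ^ (d + 1)) = ((1 - 4 * X) * derivative h1 - 2 * h1)
          - (1 - 4 * X) * (C (m1 * a * ((d + 1 : ℕ) : ℤ)) * X ^ d) + 2 * (C (m1 * a) * X ^ (d + 1)) := by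
        simp only [Nat.add_sub_cancel]; ring
      rw [e1, hh1, hg1, hsplit]
      have h4 : (4 : ℤ[X]) = C 4 := rfl
      have h2 : (2 : ℤ[X]) = C 2 := rfl
      simp only [map_mul, map_add, map_natCast, map_one, Nat.cast_add, Nat.cast_one, pow_succ, h4, h2]
      ring
    · refine (Polynomial.natDegree_sub_le _ _).trans (max_le (by omega) ?_)
      exact Polynomial.natDegree_C_mul_X_pow_le _ _

theorem not_dvd_prod {p : ℕ} (hp : p.Prime) (h7 : 7 ≤ p) (d : ℕ) (hd : 2 * d + 1 < p) :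
    ¬ (p : ℤ) ∣ ∏ k ∈ Finset.range (d + 1), (4 * (k : ℤ) + 2) := by
  intro h
  have hpi : Prime (p : ℤ) := Nat.prime_iff_prime_int.mp hp
  obtain ⟨k, hk, hdk⟩ := (Prime.dvd_finsetProd_iff hpi _).mp h
  have hk' := Finset.mem_range.mp hk
  have h1 : (4 * (k : ℤ) + 2) = 2 * ((2 * k + 1 : ℕ) : ℤ) := by push_cast; ring
  rw [h1] at hdk
  rcases (Int.Prime.dvd_mul' hp hdk) with h2 | h2
  · have : p ∣ 2 := by exact_mod_cast h2
    have := Nat.le_of_dvd (by norm_num) this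
    omega
  · have : p ∣ 2 * k + 1 := by exact_mod_cast h2
    have := Nat.le_of_dvd (by omega) this
    omega

theorem natDegree_lin_pow (e : ℕ) : ((1 - 4 * X : ℤ[X]) ^ e).natDegree ≤ e := by
  have h1 : (1 - 4 * X : ℤ[X]).natDegree ≤ 1 := by compute_degree
  simpa using Polynomial.natDegree_pow_le_of_le e h1

theorem natDegree_q_pow (e : ℕ) : (qZ ^ e).natDegree ≤ 2 * e := by
  have h1 : qZ.natDegree ≤ 2 := by unfold qZ; compute_degree
  have := Polynomial.natDegree_pow_le_of_le e h1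
  omega

theorem natDegree_dq : (derivative qZ).natDegree ≤ 1 := by
  have h1 : qZ.natDegree ≤ 2 := by unfold qZ; compute_degree
  have := Polynomial.natDegree_derivative_le qZ
  omega

theorem DZ_product' (c e b : ℤ) (E B : ℕ) (hE : 1 ≤ E) (hB : 1 ≤ B) (G G' : ℤ[X])
    (he : (E : ℤ) = e) (hb : (B : ℤ) = b) (hG' : (1 - 4 * X) * derivative G - 2 * G = G') :
    DZ c ((1 - 4 * X) ^ E * qZ ^ B * G) =
      (1 - 4 * X) ^ E * qZ ^ B * X * G'
      + (C (-4 * e) * X * (1 - 4 * X) ^ E * qZ ^ B * G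
      + C b * (1 - 4 * X) ^ (E + 1) * X * qZ ^ (B - 1) * derivative qZ * G
      - C c * (1 - 4 * X) ^ (E + 1) * qZ ^ B * G) := by
  obtain ⟨E', rfl⟩ : ∃ E', E = E' + 1 := ⟨E - 1, by omega⟩
  obtain ⟨B', rfl⟩ : ∃ B', B = B' + 1 := ⟨B - 1, by omega⟩
  rw [← hG', ← he, ← hb]
  have := DZ_product 0 E' B' G
  unfold DZ at this ⊢
  simp only [Nat.add_sub_cancel]
  push_cast at this ⊢
  simp only [map_zero, zero_mul, sub_zero] at this
  linear_combination this

theorem saved_odd {p : ℕ} (hp : p.Prime) (h7 : 7 ≤ p) (s e0 c' g v : ℕ) (c : ℤ)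
    (hv : v = s * p + (p + 1) / 2 + e0) (hdeg : 5 * e0 + 2 + c' ≤ p - 2)
    (hc : c + c' = g * p) (hsz : 100 * v < p ^ 2) (hg1 : g * p ≤ 3 * v + p)
    (hg2 : 2 * v + v / 2 ≤ g * p) :
    PInt p (Rf c (NQ v)) := by
  have hpodd : p % 2 = 1 := by
    rcases hp.eq_two_or_odd with h | h
    · omega
    · exact h
  obtain ⟨r, hr⟩ : ∃ r, p = 2 * r + 1 := ⟨p / 2, by omega⟩
  have hr3 : 3 ≤ r := by omega
  have hv' : v = s * p + (r + 1) + e0 := by rw [hv]; omega
  set g0 : ℤ[X] := (1 - 4 * X) ^ e0 * qZ ^ (2 * e0 + 1) * X ^ c' with hg0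
  have hg0d : g0.natDegree ≤ p - 2 := by
    have h1 := Polynomial.natDegree_mul_le_of_le (natDegree_lin_pow e0) (natDegree_q_pow (2 * e0 + 1))
    have h2 := Polynomial.natDegree_mul_le_of_le h1 (Polynomial.natDegree_X_pow_le (R := ℤ) c')
    rw [hg0]
    omega
  obtain ⟨Γ, m, hm, hΓ, hΓd⟩ := exists_antideriv hp g0 (p - 2) hg0d (by omega)
  -- parameters
  set E := s * p + r with hE
  set B := (2 * s + 1) * p with hB
  have hBpos : 1 ≤ B := by
    rw [hB]; nlinarith [hp.pos]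
  have hEB : 2 * v = B + (2 * e0 + 1) := by
    rw [hB, hv']
    have : (2 * s + 1) * p = 2 * (s * p) + p := by ring
    omega
  have hEv : v = E + 1 + e0 := by rw [hE, hv']; ring
  set H : ℤ[X] := (1 - 4 * X) ^ E * qZ ^ B * Γ with hH
  set R : ℤ[X] := C (4 * (s : ℤ) + 2) * X * (1 - 4 * X) ^ E * qZ ^ B * Γ
    - C (2 * (s : ℤ) + 1) * (1 - 4 * X) ^ (E + 1) * X * qZ ^ (B - 1) * derivative qZ * Γ
    + C (g : ℤ) * (1 - 4 * X) ^ (E + 1) * qZ ^ B * Γ with hR
  have hid : C m * NZ v * X ^ (c' + 1) = DZ ((g * p : ℕ) : ℤ) H + C (p : ℤ) * R := by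
    have h1 := DZ_product' ((g * p : ℕ) : ℤ) (E : ℤ) (B : ℤ) E B (by omega) hBpos Γ _ rfl rfl rfl
    have hN : NZ v = (1 - 4 * X) ^ v * qZ ^ (2 * v) := rfl
    rw [hH, h1, hN, hR, hΓ, hEB]
    have e1 : ((1 - 4 * X : ℤ[X])) ^ v = (1 - 4 * X) ^ E * (1 - 4 * X) * (1 - 4 * X) ^ e0 := by
      rw [hEv, pow_add, pow_add, pow_one]
    have e2 : (C (-4 * (E : ℤ)) : ℤ[X]) = 2 - C (p : ℤ) * C (4 * (s : ℤ) + 2) := by
      have h2 : (2 : ℤ[X]) = C 2 := rfl
      rw [h2, ← map_mul, ← map_sub]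
      congr 1
      have hpz : (p : ℤ) = 2 * r + 1 := by exact_mod_cast hr
      rw [hE]; push_cast; rw [hpz]; ring
    have e3 : (C (B : ℤ) : ℤ[X]) = C (p : ℤ) * C (2 * (s : ℤ) + 1) := by
      rw [← map_mul]; congr 1; rw [hB]; push_cast; ring
    have e4 : (C ((g * p : ℕ) : ℤ) : ℤ[X]) = C (p : ℤ) * C (g : ℤ) := by
      rw [← map_mul]; congr 1; push_cast; ring
    rw [e1, e2, e3, e4, hg0]
    ring
  have hprod : (2 * s + 1) * p = 2 * (s * p) + p := by ring
  have hRd : R.natDegree ≤ 5 * v + p + 2 := by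
    have hΓ' : Γ.natDegree ≤ p - 1 := by omega
    have d1 : (C (4 * (s : ℤ) + 2) * X * (1 - 4 * X) ^ E * qZ ^ B * Γ).natDegree ≤
        0 + 1 + E + 2 * B + (p - 1) :=
      Polynomial.natDegree_mul_le_of_le (Polynomial.natDegree_mul_le_of_le
        (Polynomial.natDegree_mul_le_of_le (Polynomial.natDegree_mul_le_of_le
          (Polynomial.natDegree_C _).le Polynomial.natDegree_X_le) (natDegree_lin_pow E))
        (natDegree_q_pow B)) hΓ'
    have d2 : (C (2 * (s : ℤ) + 1) * (1 - 4 * X) ^ (E + 1) * X * qZ ^ (B - 1) * derivative qZ * Γ).natDegree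
        ≤ 0 + (E + 1) + 1 + 2 * (B - 1) + 1 + (p - 1) :=
      Polynomial.natDegree_mul_le_of_le (Polynomial.natDegree_mul_le_of_le
        (Polynomial.natDegree_mul_le_of_le (Polynomial.natDegree_mul_le_of_le
          (Polynomial.natDegree_mul_le_of_le (Polynomial.natDegree_C _).le (natDegree_lin_pow (E + 1)))
          Polynomial.natDegree_X_le) (natDegree_q_pow (B - 1))) natDegree_dq) hΓ'
    have d3 : (C (g : ℤ) * (1 - 4 * X) ^ (E + 1) * qZ ^ B * Γ).natDegree ≤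
        0 + (E + 1) + 2 * B + (p - 1) :=
      Polynomial.natDegree_mul_le_of_le (Polynomial.natDegree_mul_le_of_le
        (Polynomial.natDegree_mul_le_of_le (Polynomial.natDegree_C _).le (natDegree_lin_pow (E + 1)))
        (natDegree_q_pow B)) hΓ'
    rw [hR]
    refine (Polynomial.natDegree_add_le _ _).trans (max_le
      ((Polynomial.natDegree_sub_le _ _).trans (max_le ?_ ?_)) ?_)
    · omega
    · omega
    · omega
  have hp2v : p ≤ 2 * v := by omega
  exact PInt_of_identity hp h7 (NZ v) H R m hm c c' (g * p) (by exact_mod_cast hc)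
    (5 * v + p + 2) (10 * v) hRd (by omega) (by push_cast; push_cast at *; omega) (by omega) hid

theorem saved_even {p : ℕ} (hp : p.Prime) (h7 : 7 ≤ p) (s e0 c' g v : ℕ) (c : ℤ) (hs : 1 ≤ s)
    (hv : v = s * p + e0) (hdeg : 2 * (5 * e0 + c') + 3 ≤ p)
    (hc : c + c' = g * p) (hsz : 100 * v < p ^ 2) (hg1 : g * p ≤ 3 * v + p)
    (hg2 : 2 * v + v / 2 ≤ g * p) :
    PInt p (Rf c (NQ v)) := by
  have hsp : p ≤ s * p := by nlinarith
  set g0 : ℤ[X] := (1 - 4 * X) ^ e0 * qZ ^ (2 * e0) * X ^ c' with hg0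
  have hg0d : g0.natDegree ≤ 5 * e0 + c' := by
    have h1 := Polynomial.natDegree_mul_le_of_le (natDegree_lin_pow e0) (natDegree_q_pow (2 * e0))
    have h2 := Polynomial.natDegree_mul_le_of_le h1 (Polynomial.natDegree_X_pow_le (R := ℤ) c')
    rw [hg0]
    omega
  obtain ⟨Γ, m, hm, hΓ, hΓd⟩ := exists_invD (p := p) (5 * e0 + c') (by omega) g0 hg0d
  have hm' : ¬ (p : ℤ) ∣ m := by
    rw [hm]; exact not_dvd_prod hp h7 _ (by omega)
  set E := s * p with hE
  set B := (2 * s) * p with hB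
  have hB2 : B = 2 * E := by rw [hB, hE]; ring
  have hEB : 2 * v = B + 2 * e0 := by
    omega
  set H : ℤ[X] := (1 - 4 * X) ^ E * qZ ^ B * Γ with hH
  set R : ℤ[X] := C (4 * (s : ℤ)) * X * (1 - 4 * X) ^ E * qZ ^ B * Γ
    - C (2 * (s : ℤ)) * (1 - 4 * X) ^ (E + 1) * X * qZ ^ (B - 1) * derivative qZ * Γ
    + C (g : ℤ) * (1 - 4 * X) ^ (E + 1) * qZ ^ B * Γ with hR
  have hid : C m * NZ v * X ^ (c' + 1) = DZ ((g * p : ℕ) : ℤ) H + C (p : ℤ) * R := by
    have h1 := DZ_product' ((g * p : ℕ) : ℤ) (E : ℤ) (B : ℤ) E B (by omega) (by omega) Γ _ rfl rfl rfl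
    have hN : NZ v = (1 - 4 * X) ^ v * qZ ^ (2 * v) := rfl
    rw [hH, h1, hN, hR, hΓ, hEB]
    have e1 : ((1 - 4 * X : ℤ[X])) ^ v = (1 - 4 * X) ^ E * (1 - 4 * X) ^ e0 := by
      rw [hv, pow_add]
    have e2 : (C (-4 * (E : ℤ)) : ℤ[X]) = - (C (p : ℤ) * C (4 * (s : ℤ))) := by
      rw [← map_mul, ← map_neg]
      congr 1
      rw [hE]; push_cast; ring
    have e3 : (C (B : ℤ) : ℤ[X]) = C (p : ℤ) * C (2 * (s : ℤ)) := by
      rw [← map_mul]; congr 1; rw [hB]; push_cast; ring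
    have e4 : (C ((g * p : ℕ) : ℤ) : ℤ[X]) = C (p : ℤ) * C (g : ℤ) := by
      rw [← map_mul]; congr 1; push_cast; ring
    rw [e1, e2, e3, e4, hg0]
    ring
  have hRd : R.natDegree ≤ 5 * v + p + 2 := by
    have d1 : (C (4 * (s : ℤ)) * X * (1 - 4 * X) ^ E * qZ ^ B * Γ).natDegree ≤
        0 + 1 + E + 2 * B + (5 * e0 + c') :=
      Polynomial.natDegree_mul_le_of_le (Polynomial.natDegree_mul_le_of_le
        (Polynomial.natDegree_mul_le_of_le (Polynomial.natDegree_mul_le_of_le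
          (Polynomial.natDegree_C _).le Polynomial.natDegree_X_le) (natDegree_lin_pow E))
        (natDegree_q_pow B)) hΓd
    have d2 : (C (2 * (s : ℤ)) * (1 - 4 * X) ^ (E + 1) * X * qZ ^ (B - 1) * derivative qZ * Γ).natDegree
        ≤ 0 + (E + 1) + 1 + 2 * (B - 1) + 1 + (5 * e0 + c') :=
      Polynomial.natDegree_mul_le_of_le (Polynomial.natDegree_mul_le_of_le
        (Polynomial.natDegree_mul_le_of_le (Polynomial.natDegree_mul_le_of_le
          (Polynomial.natDegree_mul_le_of_le (Polynomial.natDegree_C _).le (natDegree_lin_pow (E + 1)))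
          Polynomial.natDegree_X_le) (natDegree_q_pow (B - 1))) natDegree_dq) hΓd
    have d3 : (C (g : ℤ) * (1 - 4 * X) ^ (E + 1) * qZ ^ B * Γ).natDegree ≤
        0 + (E + 1) + 2 * B + (5 * e0 + c') :=
      Polynomial.natDegree_mul_le_of_le (Polynomial.natDegree_mul_le_of_le
        (Polynomial.natDegree_mul_le_of_le (Polynomial.natDegree_C _).le (natDegree_lin_pow (E + 1)))
        (natDegree_q_pow B)) hΓd
    rw [hR]
    refine (Polynomial.natDegree_add_le _ _).trans (max_le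
      ((Polynomial.natDegree_sub_le _ _).trans (max_le ?_ ?_)) ?_)
    · omega
    · omega
    · omega
  exact PInt_of_identity hp h7 (NZ v) H R m hm' c c' (g * p) (by exact_mod_cast hc)
    (5 * v + p + 2) (10 * v) hRd (by omega) (by push_cast; push_cast at *; omega) (by omega) hid

theorem Rf_saved (T n k p : ℕ) (hT : 10 ≤ T) (hn : 10 ≤ n) (hk : k ≤ 2) (hp : Saved T n p) (c : ℤ)
    (hc : c = 3 * (T * n : ℕ) - n + 1 - k) :
    ¬ (p ∣ (Rf c (NQ (T * n))).den) := by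
  obtain ⟨hpp, h7, hsz, a, g, ha, hg, hcase⟩ := hp
  apply PInt.not_dvd_den
  set v := T * n with hvdef
  have hnv : 10 * n ≤ v := by rw [hvdef]; nlinarith
  have e1 : 2 * T * n = 2 * v := by rw [hvdef]; ring
  have e2 : 3 * T * n = 3 * v := by rw [hvdef]; ring
  have e3 : 4 * T * n = 4 * v := by rw [hvdef]; ring
  have e4 : 100 * T * n = 100 * v := by rw [hvdef]; ring
  rw [e1] at ha
  rw [e2] at hg
  rw [e3] at hcase
  rw [e4] at hsz
  have hpodd : p % 2 = 1 := by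
    rcases hpp.eq_two_or_odd with h | h
    · omega
    · exact h
  have hlow : 2 * v + v / 2 ≤ g * p := by omega
  rcases hcase with ⟨hodd, hcond⟩ | ⟨heven, hcond⟩
  · obtain ⟨s, hs⟩ : ∃ s, a = 2 * s + 1 := ⟨a / 2, by omega⟩
    subst hs
    have q1 : (2 * s + 1) * p = 2 * (s * p) + p := by ring
    have q2 : (5 * (2 * s + 1) + 2) * p = 10 * (s * p) + 7 * p := by ring
    have q3 : 2 * g * p = 2 * (g * p) := by ring
    rw [q1] at ha
    rw [q2, q3] at hcond
    obtain ⟨e0, he0⟩ : ∃ e0, 2 * v = 2 * (s * p) + p + (2 * e0 + 1) :=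
      ⟨(2 * v - 2 * (s * p) - p) / 2, by omega⟩
    refine saved_odd hpp h7 s e0 ((g * p : ℤ) - c).toNat g v c (by omega) (by omega) ?_ hsz
      (by omega) hlow
    omega
  · obtain ⟨s, hs⟩ : ∃ s, a = 2 * s := ⟨a / 2, by omega⟩
    subst hs
    have q1 : (2 * s) * p = 2 * (s * p) := by ring
    have q2 : (5 * (2 * s) + 1) * p = 10 * (s * p) + p := by ring
    have q3 : 2 * g * p = 2 * (g * p) := by ring
    rw [q1] at ha
    rw [q2, q3] at hcond
    have hs1 : 1 ≤ s := by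
      rcases Nat.eq_zero_or_pos s with h0 | h0
      · exfalso
        subst h0
        simp only [zero_mul, mul_zero] at hcond
        have hg1 : 1 ≤ g := by
          rcases Nat.eq_zero_or_pos g with hg0 | hg0
          · subst hg0; omega
          · exact hg0
        have : p ≤ g * p := by nlinarith
        omega
      · exact h0
    obtain ⟨e0, he0⟩ : ∃ e0, v = s * p + e0 := ⟨v - s * p, by omega⟩
    refine saved_even hpp h7 s e0 ((g * p : ℤ) - c).toNat g v c hs1 he0 (by omega) ?_ hsz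
      (by omega) hlow
    omega

end Vale.Agent.P021
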