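import Vale.Agent.P021.Defs
import Vale.Agent.P021.PNT

open Filter Topology

namespace Vale.Agent.P021

/-- multiplier `g` attached to `a` -/
def gam (T a : ℕ) : ℕ := ((3 * T - 1) * a + 2 * T - 1) / (2 * T)

def kap (T a : ℕ) : ℕ := 5 * a + 1 + a % 2 - 2 * gam T a

noncomputable def lo (T a : ℕ) : ℝ :=
  max ((3 * T - 1 : ℕ) / (T * gam T a : ℕ)) ((4 * T + 2 : ℕ) / (T * kap T a : ℕ))

noncomputable def gap (T a : ℕ) : ℝ := 2 / a - lo T a

open Classical in
noncomputable def savedFinset (T n : ℕ) : Finset ℕ := (Finset.range (2 * T * n + 1)).filter (Saved T n)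

theorem gam_spec (T a : ℕ) (hT : 1 ≤ T) : (3 * T - 1) * a ≤ 2 * T * gam T a ∧
    2 * T * gam T a ≤ (3 * T - 1) * a + 2 * T - 1 := by
  unfold gam
  have h := Nat.div_add_mod ((3 * T - 1) * a + 2 * T - 1) (2 * T)
  have h2 := Nat.mod_lt ((3 * T - 1) * a + 2 * T - 1) (show 0 < 2 * T by omega)
  constructor
  · omega
  · omega

theorem gam_pos (T a : ℕ) (hT : 1 ≤ T) (ha : 1 ≤ a) : 1 ≤ gam T a := by
  have h := (gam_spec T a hT).1
  rcases Nat.eq_zero_or_pos (gam T a) with h0 | h0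
  · rw [h0, mul_zero] at h
    have : 0 < (3 * T - 1) * a := Nat.mul_pos (by omega) ha
    omega
  · exact h0

theorem kap_pos (T a : ℕ) (hT : 10 ≤ T) (ha : 1 ≤ a) : 1 ≤ kap T a ∧
    kap T a + 2 * gam T a = 5 * a + 1 + a % 2 := by
  have h := (gam_spec T a (by omega)).2
  have h1 : 2 * gam T a < 5 * a + 1 + a % 2 := by
    have h3 : (3 * T - 1) * a ≤ 3 * T * a := Nat.mul_le_mul_right _ (by omega)
    have h4 : 2 * T * gam T a < T * (3 * a + 2) := by
      have : T * (3 * a + 2) = 3 * T * a + 2 * T := by ring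
      omega
    have h5 : 2 * gam T a < 3 * a + 2 := by
      have : T * (2 * gam T a) < T * (3 * a + 2) := by
        calc T * (2 * gam T a) = 2 * T * gam T a := by ring
          _ < _ := h4
      exact Nat.lt_of_mul_lt_mul_left this
    omega
  unfold kap
  omega

/-- primes in the interval attached to `a` are saved -/
theorem saved_of_interval (T n p a : ℕ) (η : ℝ) (hT : 10 ≤ T) (ha : 1 ≤ a)
    (hp : p.Prime) (hn : 4 ≤ η * (T * n)) (hn2 : 7 ≤ (lo T a + η) * (T * n))
    (hn3 : 100 * T * n < ((lo T a + η) * (T * n)) ^ 2)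
    (h1 : (lo T a + η) * (T * n) < p) (h2 : (p : ℝ) ≤ 2 / a * (T * n)) :
    Saved T n p ∧ a * p ≤ 2 * T * n ∧ 2 * T * n < (a + 1) * p := by
  have ha' : (0 : ℝ) < a := by exact_mod_cast ha
  have hgp : (0 : ℝ) < gam T a := by exact_mod_cast gam_pos T a (by omega) ha
  have hkp : (1 : ℝ) ≤ kap T a := by exact_mod_cast (kap_pos T a hT ha).1
  have hT' : (0 : ℝ) < T := by exact_mod_cast (show 0 < T by omega)
  have hap : a * p ≤ 2 * T * n := by
    have : (a : ℝ) * p ≤ 2 * T * n := by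
      calc (a : ℝ) * p ≤ a * (2 / a * (T * n)) := by gcongr
        _ = 2 * T * n := by field_simp
    exact_mod_cast this
  have hg : 3 * T * n + 1 ≤ gam T a * p + n := by
    have e : ((3 * T - 1 : ℕ) : ℝ) * n < gam T a * p := by
      have hl : ((3 * T - 1 : ℕ) : ℝ) / (T * gam T a : ℕ) ≤ lo T a := le_max_left _ _
      have hpos : (0 : ℝ) < (T * gam T a : ℕ) := by
        push_cast; positivity
      have h3 : ((3 * T - 1 : ℕ) : ℝ) ≤ lo T a * (T * gam T a : ℕ) := (div_le_iff₀ hpos).mp hl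
      have h4 : ((3 * T - 1 : ℕ) : ℝ) * n ≤ lo T a * (T * n) * gam T a := by
        calc ((3 * T - 1 : ℕ) : ℝ) * n ≤ (lo T a * (T * gam T a : ℕ)) * n := by gcongr
          _ = lo T a * (T * n) * gam T a := by push_cast; ring
      have h5 : lo T a * (T * n) * gam T a < p * gam T a := by
        apply mul_lt_mul_of_pos_right _ hgp
        have : (lo T a + η) * (T * n) = lo T a * (T * n) + η * (T * n) := by ring
        linarith
      calc ((3 * T - 1 : ℕ) : ℝ) * n ≤ _ := h4
        _ < p * gam T a := h5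
        _ = gam T a * p := by ring
    have e' : (3 * T - 1) * n < gam T a * p := by exact_mod_cast e
    have : (3 * T - 1) * n + n = 3 * T * n := by
      obtain ⟨t, ht⟩ : ∃ t, 3 * T = t + 1 := ⟨3 * T - 1, by omega⟩
      rw [ht]; simp; ring
    omega
  have hk : 4 * T * n + 2 * n + 4 ≤ kap T a * p := by
    have hl : ((4 * T + 2 : ℕ) : ℝ) / (T * kap T a : ℕ) ≤ lo T a := le_max_right _ _
    have hpos : (0 : ℝ) < (T * kap T a : ℕ) := by
      push_cast; positivity
    have h3 : ((4 * T + 2 : ℕ) : ℝ) ≤ lo T a * (T * kap T a : ℕ) := (div_le_iff₀ hpos).mp hl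
    have h4 : ((4 * T + 2 : ℕ) : ℝ) * n ≤ lo T a * (T * n) * kap T a := by
      calc ((4 * T + 2 : ℕ) : ℝ) * n ≤ (lo T a * (T * kap T a : ℕ)) * n := by gcongr
        _ = lo T a * (T * n) * kap T a := by push_cast; ring
    have h5 : (lo T a * (T * n) + 4) * kap T a ≤ p * kap T a := by
      apply mul_le_mul_of_nonneg_right _ (by linarith)
      have : (lo T a + η) * (T * n) = lo T a * (T * n) + η * (T * n) := by ring
      linarith
    have e : ((4 * T + 2 : ℕ) : ℝ) * n + 4 ≤ kap T a * p := by nlinarith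
    have e' : (4 * T + 2) * n + 4 ≤ kap T a * p := by exact_mod_cast e
    have : (4 * T + 2) * n = 4 * T * n + 2 * n := by ring
    omega
  have hkk := (kap_pos T a hT ha).2
  have hmul : kap T a * p + 2 * gam T a * p = (5 * a + 1 + a % 2) * p := by
    rw [← hkk]; ring
  have hp7 : 7 ≤ p := by
    have : (7 : ℝ) ≤ p := by linarith
    exact_mod_cast this
  have hsz : 100 * T * n < p ^ 2 := by
    have h0 : (0 : ℝ) ≤ (lo T a + η) * (T * n) := by linarith
    have : (100 * T * n : ℝ) < (p : ℝ) ^ 2 := by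
      calc (100 * T * n : ℝ) < ((lo T a + η) * (T * n)) ^ 2 := hn3
        _ ≤ (p : ℝ) ^ 2 := by gcongr
    exact_mod_cast this
  refine ⟨⟨hp, hp7, hsz, a, gam T a, hap, hg, ?_⟩, hap, ?_⟩
  · rcases Nat.mod_two_eq_zero_or_one a with h | h
    · right
      refine ⟨h, ?_⟩
      rw [h] at hmul
      have : (5 * a + 1 + 0) * p = (5 * a + 1) * p := by ring
      omega
    · left
      refine ⟨h, ?_⟩
      rw [h] at hmul
      have : (5 * a + 1 + 1) * p = (5 * a + 2) * p := by ring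
      omega
  · -- 10 T n + 6 ≤ (5a+2) p
    have h3 : (5 * a + 1 + a % 2) * p ≤ (5 * a + 2) * p := Nat.mul_le_mul_right _ (by omega)
    have h4 : 2 * gam T a * p = 2 * (gam T a * p) := by ring
    have h5 : 4 * T * n = 2 * (2 * T * n) := by ring
    have h6 : 3 * T * n * 2 = 3 * (2 * T * n) := by ring
    have h7 : (5 * a + 2) * p = 5 * ((a + 1) * p) - 3 * p := by
      have : 5 * ((a + 1) * p) = (5 * a + 2) * p + 3 * p := by ring
      omega
    omega

theorem sum_theta_interval (x y : ℝ) (hxy : x ≤ y) :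
    Chebyshev.theta y - Chebyshev.theta x =
      ∑ p ∈ (Finset.Ioc ⌊x⌋₊ ⌊y⌋₊).filter Nat.Prime, Real.log p := by
  have hfl : ⌊x⌋₊ ≤ ⌊y⌋₊ := Nat.floor_mono hxy
  unfold Chebyshev.theta
  have hunion : (Finset.Ioc 0 ⌊y⌋₊).filter Nat.Prime =
      (Finset.Ioc 0 ⌊x⌋₊).filter Nat.Prime ∪ (Finset.Ioc ⌊x⌋₊ ⌊y⌋₊).filter Nat.Prime := by
    rw [← Finset.filter_union, Finset.Ioc_union_Ioc_eq_Ioc (Nat.zero_le _) hfl]
  have hdisj : Disjoint ((Finset.Ioc 0 ⌊x⌋₊).filter Nat.Prime)
      ((Finset.Ioc ⌊x⌋₊ ⌊y⌋₊).filter Nat.Prime) := by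
    apply Finset.disjoint_filter_filter
    rw [Finset.disjoint_left]
    intro a ha hb
    have h1 := Finset.mem_Ioc.mp ha
    have h2 := Finset.mem_Ioc.mp hb
    omega
  rw [hunion, Finset.sum_union hdisj]
  ring

theorem theta_diff_tendsto (x y : ℝ) (hx : 0 < x) (hy : 0 < y) (T : ℕ) (hT : 1 ≤ T) :
    Tendsto (fun n : ℕ => (Chebyshev.theta (y * (T * n)) - Chebyshev.theta (x * (T * n))) / (T * n : ℝ))
      atTop (𝓝 (y - x)) := by
  have hT' : (0 : ℝ) < T := by exact_mod_cast hT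
  have hlim : ∀ z : ℝ, 0 < z → Tendsto (fun n : ℕ => z * (T * n : ℝ)) atTop atTop := by
    intro z hz
    apply Tendsto.const_mul_atTop hz
    exact Tendsto.const_mul_atTop hT' tendsto_natCast_atTop_atTop
  have h1 : ∀ z : ℝ, 0 < z → Tendsto (fun n : ℕ => Chebyshev.theta (z * (T * n)) / (T * n : ℝ))
      atTop (𝓝 z) := by
    intro z hz
    have h := (pnt_theta.comp (hlim z hz)).mul_const z
    rw [one_mul] at h
    refine h.congr' ?_
    filter_upwards [eventually_gt_atTop 0] with n hn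
    have hn' : (0 : ℝ) < n := by exact_mod_cast hn
    simp only [Function.comp]
    field_simp
  have := (h1 y hy).sub (h1 x hx)
  refine this.congr ?_
  intro n
  ring

theorem lo_pos (T a : ℕ) (hT : 10 ≤ T) (ha : 1 ≤ a) : 0 < lo T a := by
  unfold lo
  apply lt_max_of_lt_left
  have hgp : 0 < gam T a := gam_pos T a (by omega) ha
  have h1 : 0 < 3 * T - 1 := by omega
  have : (0 : ℝ) < (T * gam T a : ℕ) := by
    exact_mod_cast Nat.mul_pos (by omega) hgp
  have : (0 : ℝ) < (3 * T - 1 : ℕ) := by exact_mod_cast h1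
  positivity

theorem saved_sum_aux (T A : ℕ) (hT : 10 ≤ T) (η : ℝ) (hη : 0 < η) :
    ∀ᶠ n : ℕ in atTop,
      (∑ a ∈ (Finset.Icc 1 A).filter (fun a => lo T a + η < 2 / a), (gap T a - 2 * η)) * (T * n : ℝ) ≤
        ∑ p ∈ savedFinset T n, Real.log p := by
  classical
  have hT' : (0 : ℝ) < T := by exact_mod_cast (show 0 < T by omega)
  set F := (Finset.Icc 1 A).filter (fun a : ℕ => lo T a + η < 2 / a) with hF
  have hlimT : Tendsto (fun n : ℕ => (T * n : ℝ)) atTop atTop :=
    Tendsto.const_mul_atTop hT' tendsto_natCast_atTop_atTop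
  -- eventually conditions
  have e1 : ∀ᶠ n : ℕ in atTop, 4 ≤ η * (T * n : ℝ) :=
    (Tendsto.const_mul_atTop hη hlimT).eventually_ge_atTop 4
  have e2 : ∀ᶠ n : ℕ in atTop, ∀ a ∈ F, 7 ≤ (lo T a + η) * (T * n : ℝ) := by
    rw [Filter.eventually_all_finset]
    intro a ha
    have ha1 : 1 ≤ a := (Finset.mem_Icc.mp (Finset.mem_filter.mp ha).1).1
    exact (Tendsto.const_mul_atTop (add_pos (lo_pos T a hT ha1) hη) hlimT).eventually_ge_atTop 7
  have e3 : ∀ᶠ n : ℕ in atTop, ∀ a ∈ F, (100 * T * n : ℝ) < ((lo T a + η) * (T * n)) ^ 2 := by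
    rw [Filter.eventually_all_finset]
    intro a ha
    have ha1 : 1 ≤ a := (Finset.mem_Icc.mp (Finset.mem_filter.mp ha).1).1
    have hpos := add_pos (lo_pos T a hT ha1) hη
    have h1 := (Tendsto.const_mul_atTop (pow_pos hpos 2) hlimT).eventually_gt_atTop 100
    filter_upwards [h1, hlimT.eventually_gt_atTop 0] with n hn hn0
    calc (100 * T * n : ℝ) = 100 * (T * n) := by ring
      _ < ((lo T a + η) ^ 2 * (T * n)) * (T * n) := by gcongr
      _ = _ := by ring
  have e4 : ∀ᶠ n : ℕ in atTop, ∀ a ∈ F, (gap T a - 2 * η) * (T * n : ℝ) ≤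
      Chebyshev.theta (2 / a * (T * n)) - Chebyshev.theta ((lo T a + η) * (T * n)) := by
    rw [Filter.eventually_all_finset]
    intro a ha
    have ha1 : 1 ≤ a := (Finset.mem_Icc.mp (Finset.mem_filter.mp ha).1).1
    have ha' : (0 : ℝ) < a := by exact_mod_cast ha1
    have hpos := add_pos (lo_pos T a hT ha1) hη
    have h1 := theta_diff_tendsto (lo T a + η) (2 / a) hpos (by positivity) T (by omega)
    have h2 : gap T a - 2 * η < 2 / a - (lo T a + η) := by unfold gap; linarith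
    filter_upwards [h1.eventually_const_lt h2, hlimT.eventually_gt_atTop 0] with n hn hn0
    exact ((le_div_iff₀ hn0).mp hn.le)
  filter_upwards [e1, e2, e3, e4, hlimT.eventually_gt_atTop 0] with n h1 h2 h3 h4 h0
  -- the sets
  set P : ℕ → Finset ℕ := fun a =>
    (Finset.Ioc ⌊(lo T a + η) * (T * n : ℝ)⌋₊ ⌊2 / (a : ℝ) * (T * n : ℝ)⌋₊).filter Nat.Prime with hP
  have hmem : ∀ a ∈ F, ∀ p ∈ P a, Saved T n p ∧ a * p ≤ 2 * T * n ∧ 2 * T * n < (a + 1) * p := by
    intro a ha p hp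
    have ha1 : 1 ≤ a := (Finset.mem_Icc.mp (Finset.mem_filter.mp ha).1).1
    have ha' : (0 : ℝ) < a := by exact_mod_cast ha1
    have hp1 := Finset.mem_filter.mp hp
    have hp2 := Finset.mem_Ioc.mp hp1.1
    have hlow := Nat.lt_of_floor_lt hp2.1
    have hup : (p : ℝ) ≤ 2 / a * (T * n) := by
      have := Nat.floor_le (show (0 : ℝ) ≤ 2 / (a : ℝ) * (T * n : ℝ) by positivity)
      have h5 : (p : ℝ) ≤ (⌊2 / (a : ℝ) * (T * n : ℝ)⌋₊ : ℝ) := by exact_mod_cast hp2.2
      linarith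
    exact saved_of_interval T n p a η hT ha1 hp1.2 h1 (h2 a ha) (h3 a ha) hlow hup
  have hdisj : (F : Set ℕ).PairwiseDisjoint P := by
    intro a ha b hb hab
    rw [Function.onFun, Finset.disjoint_left]
    intro p hpa hpb
    have ha2 := hmem a ha p hpa
    have hb2 := hmem b hb p hpb
    apply hab
    have h5 : a < b + 1 := Nat.lt_of_mul_lt_mul_right (lt_of_le_of_lt ha2.2.1 hb2.2.2)
    have h6 : b < a + 1 := Nat.lt_of_mul_lt_mul_right (lt_of_le_of_lt hb2.2.1 ha2.2.2)
    omega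
  have hsub : F.biUnion P ⊆ savedFinset T n := by
    intro p hp
    obtain ⟨a, ha, hpa⟩ := Finset.mem_biUnion.mp hp
    have h5 := hmem a ha p hpa
    have ha1 : 1 ≤ a := (Finset.mem_Icc.mp (Finset.mem_filter.mp ha).1).1
    unfold savedFinset
    rw [Finset.mem_filter, Finset.mem_range]
    refine ⟨?_, h5.1⟩
    have : p ≤ a * p := Nat.le_mul_of_pos_left _ ha1
    omega
  calc (∑ a ∈ F, (gap T a - 2 * η)) * (T * n : ℝ) = ∑ a ∈ F, (gap T a - 2 * η) * (T * n : ℝ) :=
        Finset.sum_mul _ _ _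
    _ ≤ ∑ a ∈ F, (Chebyshev.theta (2 / a * (T * n)) - Chebyshev.theta ((lo T a + η) * (T * n))) :=
        Finset.sum_le_sum h4
    _ = ∑ a ∈ F, ∑ p ∈ P a, Real.log p := by
        apply Finset.sum_congr rfl
        intro a ha
        have ha1 : 1 ≤ a := (Finset.mem_Icc.mp (Finset.mem_filter.mp ha).1).1
        have hlt := (Finset.mem_filter.mp ha).2
        have hpos := add_pos (lo_pos T a hT ha1) hη
        rw [sum_theta_interval _ _ (by gcongr)]
    _ = ∑ p ∈ F.biUnion P, Real.log p := (Finset.sum_biUnion hdisj).symm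
    _ ≤ ∑ p ∈ savedFinset T n, Real.log p := by
        apply Finset.sum_le_sum_of_subset_of_nonneg hsub
        intro p _ _
        exact Real.log_natCast_nonneg p

theorem saved_sum (T A : ℕ) (hT : 10 ≤ T) (ε : ℝ) (hε : 0 < ε) :
    ∀ᶠ n : ℕ in atTop,
      ((∑ a ∈ Finset.Icc 1 A, max 0 (gap T a)) - ε) * (T * n : ℝ) ≤
        ∑ p ∈ savedFinset T n, Real.log p := by
  set η : ℝ := ε / (2 * (A + 1)) with hη
  have hηpos : 0 < η := by positivity
  filter_upwards [saved_sum_aux T A hT η hηpos] with n hn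
  refine le_trans ?_ hn
  gcongr
  rw [sub_le_iff_le_add, Finset.sum_filter]
  have h1 : ∀ a ∈ Finset.Icc 1 A, max 0 (gap T a) ≤
      (if lo T a + η < 2 / a then (gap T a - 2 * η) else 0) + 2 * η := by
    intro a _
    split_ifs with h
    · have : 0 < gap T a := by unfold gap; linarith
      rw [max_eq_right this.le]; linarith
    · have : gap T a ≤ η := by unfold gap; linarith
      rw [zero_add]
      exact max_le (by linarith) (by linarith)
  have h2 := Finset.sum_le_sum h1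
  rw [Finset.sum_add_distrib] at h2
  refine h2.trans ?_
  gcongr
  rw [Finset.sum_const, Nat.card_Icc, nsmul_eq_mul]
  simp only [Nat.add_sub_cancel]
  rw [hη]
  have hA : (0 : ℝ) < 2 * (A + 1) := by positivity
  rw [mul_div_assoc', mul_div_assoc', div_le_iff₀ hA]
  nlinarith

end Vale.Agent.P021
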