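import Mathlib

/-!
# P021: one-variable sup bounds on the contours (real inequalities)
-/

namespace Vale.Agent.P021

/-- a quadratic -/
def qd (α β γ t : ℝ) : ℝ := α + β * t + γ * t ^ 2

theorem hasDerivAt_qd (α β γ t : ℝ) : HasDerivAt (qd α β γ) (β + 2 * γ * t) t := by
  unfold qd
  have h1 : HasDerivAt (fun t : ℝ => α + β * t + γ * t ^ 2) (0 + β * 1 + γ * (2 * t ^ 1 * 1)) t := by
    have := (((hasDerivAt_const t α).add ((hasDerivAt_id' t).const_mul β)).add
      (((hasDerivAt_id' t).pow 2).const_mul γ))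
    refine this.congr_deriv ?_
    norm_num
  refine h1.congr_deriv ?_
  ring

theorem qd_pos {α β γ t : ℝ} (h1 : 0 < α) (h2 : 0 ≤ 2 * α + β) (h3 : 0 < α + β + γ)
    (ht0 : 0 ≤ t) (ht1 : t ≤ 1) : 0 < qd α β γ t := by
  have e : qd α β γ t = α * (1 - t) ^ 2 + (2 * α + β) * ((1 - t) * t) + (α + β + γ) * t ^ 2 := by
    unfold qd; ring
  rw [e]
  have hs : 0 ≤ 1 - t := by linarith
  rcases eq_or_lt_of_le ht0 with h | h
  · rw [← h]; nlinarith
  · have h4 : 0 < (α + β + γ) * t ^ 2 := by positivity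
    have h5 : 0 ≤ α * (1 - t) ^ 2 := by positivity
    have h6 : 0 ≤ (2 * α + β) * ((1 - t) * t) := by positivity
    linarith

theorem log_qd {α β γ t : ℝ} (h : 0 < qd α β γ t) :
    HasDerivAt (fun t => Real.log (qd α β γ t)) ((β + 2 * γ * t) / qd α β γ t) t :=
  (hasDerivAt_qd α β γ t).log h.ne'

/-- abstract monotonicity -/
theorem le_start {H H' : ℝ → ℝ} (hd : ∀ t, 0 ≤ t → t < 1 → HasDerivAt H (H' t) t)
    (hn : ∀ t, 0 ≤ t → t < 1 → H' t ≤ 0) {t : ℝ} (h0 : 0 ≤ t) (h1 : t < 1) : H t ≤ H 0 := by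
  have hanti : AntitoneOn H (Set.Ico 0 1) := by
    apply antitoneOn_of_deriv_nonpos (convex_Ico 0 1)
    · intro x hx
      exact (hd x hx.1 hx.2).continuousAt.continuousWithinAt
    · intro x hx
      rw [interior_Ico] at hx
      exact (hd x hx.1.le hx.2).differentiableAt.differentiableWithinAt
    · intro x hx
      rw [interior_Ico] at hx
      rw [(hd x hx.1.le hx.2).deriv]
      exact hn x hx.1.le hx.2
  exact hanti ⟨le_rfl, by norm_num⟩ ⟨h0, h1⟩ h0

theorem le_start' {H H' : ℝ → ℝ} (hd : ∀ t, 0 ≤ t → t ≤ 1 → HasDerivAt H (H' t) t)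
    (hn : ∀ t, 0 ≤ t → t ≤ 1 → H' t ≤ 0) {t : ℝ} (h0 : 0 ≤ t) (h1 : t ≤ 1) : H t ≤ H 0 := by
  have hanti : AntitoneOn H (Set.Icc 0 1) := by
    apply antitoneOn_of_deriv_nonpos (convex_Icc 0 1)
    · intro x hx
      exact (hd x hx.1 hx.2).continuousAt.continuousWithinAt
    · intro x hx
      rw [interior_Icc] at hx
      exact (hd x hx.1.le hx.2.le).differentiableAt.differentiableWithinAt
    · intro x hx
      rw [interior_Icc] at hx
      rw [(hd x hx.1.le hx.2.le).deriv]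
      exact hn x hx.1.le hx.2.le
  exact hanti ⟨le_rfl, by norm_num⟩ ⟨h0, h1⟩ h0

theorem le_end {H H' : ℝ → ℝ} (hd : ∀ t, 0 < t → t ≤ 1 → HasDerivAt H (H' t) t)
    (hn : ∀ t, 0 < t → t ≤ 1 → 0 ≤ H' t) {t : ℝ} (h0 : 0 < t) (h1 : t ≤ 1) : H t ≤ H 1 := by
  have hmono : MonotoneOn H (Set.Ioc 0 1) := by
    apply monotoneOn_of_deriv_nonneg (convex_Ioc 0 1)
    · intro x hx
      exact (hd x hx.1 hx.2).continuousAt.continuousWithinAt
    · intro x hx
      rw [interior_Ioc] at hx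
      exact (hd x hx.1 hx.2.le).differentiableAt.differentiableWithinAt
    · intro x hx
      rw [interior_Ioc] at hx
      rw [(hd x hx.1 hx.2.le).deriv]
      exact hn x hx.1 hx.2.le
  exact hmono ⟨h0, h1⟩ ⟨by norm_num, le_rfl⟩ h1

/-! ### the circle -/

theorem alg4 (q1 q2 q3 q4 d1 d2 d3 d4 e1 e2 : ℝ) (h1 : 0 < q1) (h2 : 0 < q2) (h3 : 0 < q3)
    (h4 : 0 < q4)
    (hT : e1 * (d1 * q2 * q3 * q4 + q1 * d2 * q3 * q4 + q1 * q2 * d3 * q4)
      - e2 * (q1 * q2 * q3 * d4) ≤ 0) :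
    e1 * (d1 / q1 + d2 / q2 + d3 / q3) - e2 * (d4 / q4) ≤ 0 := by
  have e : e1 * (d1 / q1 + d2 / q2 + d3 / q3) - e2 * (d4 / q4) =
      (e1 * (d1 * q2 * q3 * q4 + q1 * d2 * q3 * q4 + q1 * q2 * d3 * q4)
      - e2 * (q1 * q2 * q3 * d4)) / (q1 * q2 * q3 * q4) := by
    field_simp
  rw [e]
  exact div_nonpos_of_nonpos_of_nonneg hT (by positivity)

theorem circ_T {t : ℝ} (ht0 : 0 ≤ t) (ht1 : t ≤ 1) :
    3600 * ((-3080 + 2 * 0 * t) * qd 1151329 (-2077768) 948640 t
        * qd 454276 (-925232) 474320 t * qd 2116 (-1540) 0 t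
      + qd 3249 (-3080) 0 t * (-2077768 + 2 * 948640 * t)
        * qd 454276 (-925232) 474320 t * qd 2116 (-1540) 0 t
      + qd 3249 (-3080) 0 t * qd 1151329 (-2077768) 948640 t
        * (-925232 + 2 * 474320 * t) * qd 2116 (-1540) 0 t)
      - 5399 * (qd 3249 (-3080) 0 t * qd 1151329 (-2077768) 948640 t
        * qd 454276 (-925232) 474320 t * (-1540 + 2 * 0 * t)) ≤ 0 := by
  have e : 3600 * ((-3080 + 2 * 0 * t) * qd 1151329 (-2077768) 948640 t
        * qd 454276 (-925232) 474320 t * qd 2116 (-1540) 0 t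
      + qd 3249 (-3080) 0 t * (-2077768 + 2 * 948640 * t)
        * qd 454276 (-925232) 474320 t * qd 2116 (-1540) 0 t
      + qd 3249 (-3080) 0 t * qd 1151329 (-2077768) 948640 t
        * (-925232 + 2 * 474320 * t) * qd 2116 (-1540) 0 t)
      - 5399 * (qd 3249 (-3080) 0 t * qd 1151329 (-2077768) 948640 t
        * qd 454276 (-925232) 474320 t * (-1540 + 2 * 0 * t)) =
      -(47867548387827562788240 * t ^ 0 * (1 - t) ^ 5
      + 24087340320729661415440 * t ^ 1 * (1 - t) ^ 4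
      + 3390930923006288458720 * t ^ 2 * (1 - t) ^ 3
      + 286221599919203268320 * t ^ 3 * (1 - t) ^ 2
      + 9108722628653457040 * t ^ 4 * (1 - t) ^ 1
      + 402699038392660240 * t ^ 5 * (1 - t) ^ 0) := by
    unfold qd; ring
  rw [e]
  have hs : 0 ≤ 1 - t := by linarith
  rw [neg_nonpos]
  positivity

theorem circ_mono {t : ℝ} (ht0 : 0 ≤ t) (ht1 : t ≤ 1) :
    3600 * (Real.log (qd 3249 (-3080) 0 t)
      + Real.log (qd 1151329 (-2077768) 948640 t)
      + Real.log (qd 454276 (-925232) 474320 t))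
      - 5399 * Real.log (qd 2116 (-1540) 0 t) ≤
    3600 * (Real.log (qd 3249 (-3080) 0 0)
      + Real.log (qd 1151329 (-2077768) 948640 0)
      + Real.log (qd 454276 (-925232) 474320 0))
      - 5399 * Real.log (qd 2116 (-1540) 0 0) := by
  have p1 : ∀ t : ℝ, 0 ≤ t → t ≤ 1 → 0 < qd 3249 (-3080) 0 t := fun t h0 h1 =>
    qd_pos (by norm_num) (by norm_num) (by norm_num) h0 h1
  have p2 : ∀ t : ℝ, 0 ≤ t → t ≤ 1 → 0 < qd 1151329 (-2077768) 948640 t :=
    fun t h0 h1 => qd_pos (by norm_num) (by norm_num) (by norm_num) h0 h1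
  have p3 : ∀ t : ℝ, 0 ≤ t → t ≤ 1 → 0 < qd 454276 (-925232) 474320 t :=
    fun t _ _ => by unfold qd; nlinarith [sq_nonneg (t - 9753 / 10000)]
  have p4 : ∀ t : ℝ, 0 ≤ t → t ≤ 1 → 0 < qd 2116 (-1540) 0 t := fun t h0 h1 =>
    qd_pos (by norm_num) (by norm_num) (by norm_num) h0 h1
  refine le_start' (H := fun t => 3600 * (Real.log (qd 3249 (-3080) 0 t)
      + Real.log (qd 1151329 (-2077768) 948640 t)
      + Real.log (qd 454276 (-925232) 474320 t))
      - 5399 * Real.log (qd 2116 (-1540) 0 t))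
    (H' := fun t => 3600 * ((-3080 + 2 * 0 * t) / qd 3249 (-3080) 0 t
      + (-2077768 + 2 * 948640 * t) / qd 1151329 (-2077768) 948640 t
      + (-925232 + 2 * 474320 * t) / qd 454276 (-925232) 474320 t)
      - 5399 * ((-1540 + 2 * 0 * t) / qd 2116 (-1540) 0 t)) ?_ ?_ ht0 ht1
  · intro t h0 h1
    exact ((((log_qd (p1 t h0 h1)).add (log_qd (p2 t h0 h1))).add (log_qd (p3 t h0 h1))).const_mul
      3600).sub ((log_qd (p4 t h0 h1)).const_mul 5399)
  · intro t h0 h1
    exact alg4 _ _ _ _ _ _ _ _ _ _ (p1 t h0 h1) (p2 t h0 h1) (p3 t h0 h1) (p4 t h0 h1)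
      (circ_T h0 h1)

/-! ### segment 2 -/

theorem alg7 (q1 q2 q3 q4 q5 q6 s d1 d2 d3 d4 d5 d6 e1 e2 : ℝ) (h1 : 0 < q1) (h2 : 0 < q2)
    (h3 : 0 < q3) (h4 : 0 < q4) (h5 : 0 < q5) (h6 : 0 < q6) (hs : 0 < s)
    (hT : e1 * (d1 * q2 * q3 * q4 * q5 * q6 + q1 * d2 * q3 * q4 * q5 * q6
        + q1 * q2 * d3 * q4 * q5 * q6 + q1 * q2 * q3 * d4 * q5 * q6) * s
      - 2 * e1 * (q1 * q2 * q3 * q4 * q5 * q6)
      - e2 * (q1 * q2 * q3 * q4 * d5 * q6 + q1 * q2 * q3 * q4 * q5 * d6) * s ≤ 0) :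
    e1 * (d1 / q1 + d2 / q2 + d3 / q3 + d4 / q4 + 2 * (-1 / s)) - e2 * (d5 / q5 + d6 / q6) ≤ 0 := by
  have e : e1 * (d1 / q1 + d2 / q2 + d3 / q3 + d4 / q4 + 2 * (-1 / s)) - e2 * (d5 / q5 + d6 / q6) =
      (e1 * (d1 * q2 * q3 * q4 * q5 * q6 + q1 * d2 * q3 * q4 * q5 * q6
        + q1 * q2 * d3 * q4 * q5 * q6 + q1 * q2 * q3 * d4 * q5 * q6) * s
      - 2 * e1 * (q1 * q2 * q3 * q4 * q5 * q6)
      - e2 * (q1 * q2 * q3 * q4 * d5 * q6 + q1 * q2 * q3 * q4 * q5 * d6) * s)
        / (q1 * q2 * q3 * q4 * q5 * q6 * s) := by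
    field_simp
    ring
  rw [e]
  exact div_nonpos_of_nonpos_of_nonneg hT (by positivity)

theorem seg2_T {t : ℝ} (ht0 : 0 ≤ t) (ht1 : t < 1) :
    3600 * ((834566 + 2 * 296917 * t) * qd 4874517 1228566 296917 t
        * qd 862517 440566 296917 t * qd 5440117 2262966 296917 t
        * qd 12282517 3420566 296917 t * qd 9454517 (-1751434) 296917 t
      + qd 868517 834566 296917 t * (1228566 + 2 * 296917 * t)
        * qd 862517 440566 296917 t * qd 5440117 2262966 296917 t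
        * qd 12282517 3420566 296917 t * qd 9454517 (-1751434) 296917 t
      + qd 868517 834566 296917 t * qd 4874517 1228566 296917 t
        * (440566 + 2 * 296917 * t) * qd 5440117 2262966 296917 t
        * qd 12282517 3420566 296917 t * qd 9454517 (-1751434) 296917 t
      + qd 868517 834566 296917 t * qd 4874517 1228566 296917 t
        * qd 862517 440566 296917 t * (2262966 + 2 * 296917 * t)
        * qd 12282517 3420566 296917 t * qd 9454517 (-1751434) 296917 t) * (1 - t)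
      - 2 * 3600 * (qd 868517 834566 296917 t * qd 4874517 1228566 296917 t
        * qd 862517 440566 296917 t * qd 5440117 2262966 296917 t
        * qd 12282517 3420566 296917 t * qd 9454517 (-1751434) 296917 t)
      - 5399 * (qd 868517 834566 296917 t * qd 4874517 1228566 296917 t
        * qd 862517 440566 296917 t * qd 5440117 2262966 296917 t
        * (3420566 + 2 * 296917 * t) * qd 9454517 (-1751434) 296917 t
      + qd 868517 834566 296917 t * qd 4874517 1228566 296917 t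
        * qd 862517 440566 296917 t * qd 5440117 2262966 296917 t
        * qd 12282517 3420566 296917 t * (-1751434 + 2 * 296917 * t)) * (1 - t) ≤ 0 := by
  have hs : 0 ≤ 1 - t := by linarith
  have hpos : 0 ≤ 1006512400548080692204655695631892294276 * t ^ 0 * (1 - t) ^ 12
      + 15098785487384192954753141970738578459671200 * t ^ 1 * (1 - t) ^ 11
      + 205692397952938949736214139591690215063680000 * t ^ 2 * (1 - t) ^ 10
      + 1272650612673768857950709014231564570816000000 * t ^ 3 * (1 - t) ^ 9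
      + 4720339820205597205395004854582322227200000000 * t ^ 4 * (1 - t) ^ 8
      + 11662312227430954248523354369863761920000000000 * t ^ 5 * (1 - t) ^ 7
      + 20152516174624177322281838714814464000000000000 * t ^ 6 * (1 - t) ^ 6
      + 24851965239075975742879760220160000000000000000 * t ^ 7 * (1 - t) ^ 5
      + 21869993354303364476917907456000000000000000000 * t ^ 8 * (1 - t) ^ 4
      + 13458115483923220953825280000000000000000000000 * t ^ 9 * (1 - t) ^ 3
      + 5514970458262863872000000000000000000000000000 * t ^ 10 * (1 - t) ^ 2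
      + 1354365797400576000000000000000000000000000000 * t ^ 11 * (1 - t) ^ 1
      + 150994944000000000000000000000000000000000000 * t ^ 12 * (1 - t) ^ 0 := by
    positivity
  rw [← neg_nonneg]
  refine hpos.trans (le_of_eq ?_)
  unfold qd
  ring

theorem seg2_mono {t : ℝ} (ht0 : 0 ≤ t) (ht1 : t < 1) :
    3600 * (Real.log (qd 868517 834566 296917 t) + Real.log (qd 4874517 1228566 296917 t)
      + Real.log (qd 862517 440566 296917 t) + Real.log (qd 5440117 2262966 296917 t)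
      + 2 * Real.log (1 - t))
      - 5399 * (Real.log (qd 12282517 3420566 296917 t)
        + Real.log (qd 9454517 (-1751434) 296917 t)) ≤
    3600 * (Real.log (qd 868517 834566 296917 0) + Real.log (qd 4874517 1228566 296917 0)
      + Real.log (qd 862517 440566 296917 0) + Real.log (qd 5440117 2262966 296917 0)
      + 2 * Real.log (1 - 0))
      - 5399 * (Real.log (qd 12282517 3420566 296917 0)
        + Real.log (qd 9454517 (-1751434) 296917 0)) := by
  have p1 : ∀ t : ℝ, 0 ≤ t → t < 1 → 0 < qd 868517 834566 296917 t := fun t h0 h1 =>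
    qd_pos (by norm_num) (by norm_num) (by norm_num) h0 h1.le
  have p2 : ∀ t : ℝ, 0 ≤ t → t < 1 → 0 < qd 4874517 1228566 296917 t := fun t h0 h1 =>
    qd_pos (by norm_num) (by norm_num) (by norm_num) h0 h1.le
  have p3 : ∀ t : ℝ, 0 ≤ t → t < 1 → 0 < qd 862517 440566 296917 t := fun t h0 h1 =>
    qd_pos (by norm_num) (by norm_num) (by norm_num) h0 h1.le
  have p4 : ∀ t : ℝ, 0 ≤ t → t < 1 → 0 < qd 5440117 2262966 296917 t := fun t h0 h1 =>
    qd_pos (by norm_num) (by norm_num) (by norm_num) h0 h1.le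
  have p5 : ∀ t : ℝ, 0 ≤ t → t < 1 → 0 < qd 12282517 3420566 296917 t := fun t h0 h1 =>
    qd_pos (by norm_num) (by norm_num) (by norm_num) h0 h1.le
  have p6 : ∀ t : ℝ, 0 ≤ t → t < 1 → 0 < qd 9454517 (-1751434) 296917 t := fun t h0 h1 =>
    qd_pos (by norm_num) (by norm_num) (by norm_num) h0 h1.le
  refine le_start (H := fun t => 3600 * (Real.log (qd 868517 834566 296917 t)
      + Real.log (qd 4874517 1228566 296917 t)
      + Real.log (qd 862517 440566 296917 t) + Real.log (qd 5440117 2262966 296917 t)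
      + 2 * Real.log (1 - t))
      - 5399 * (Real.log (qd 12282517 3420566 296917 t)
        + Real.log (qd 9454517 (-1751434) 296917 t)))
    (H' := fun t => 3600 * ((834566 + 2 * 296917 * t) / qd 868517 834566 296917 t
      + (1228566 + 2 * 296917 * t) / qd 4874517 1228566 296917 t
      + (440566 + 2 * 296917 * t) / qd 862517 440566 296917 t
      + (2262966 + 2 * 296917 * t) / qd 5440117 2262966 296917 t
      + 2 * (-1 / (1 - t)))
      - 5399 * ((3420566 + 2 * 296917 * t) / qd 12282517 3420566 296917 t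
        + (-1751434 + 2 * 296917 * t) / qd 9454517 (-1751434) 296917 t)) ?_ ?_ ht0 ht1
  · intro t h0 h1
    have hs : HasDerivAt (fun t : ℝ => Real.log (1 - t)) (-1 / (1 - t)) t := by
      have h2 : HasDerivAt (fun t : ℝ => 1 - t) (0 - 1) t :=
        (hasDerivAt_const t 1).sub (hasDerivAt_id' t)
      refine (h2.log (by linarith : (1 : ℝ) - t ≠ 0)).congr_deriv ?_
      norm_num
    exact ((((((log_qd (p1 t h0 h1)).add (log_qd (p2 t h0 h1))).add (log_qd (p3 t h0 h1))).add
      (log_qd (p4 t h0 h1))).add (hs.const_mul 2)).const_mul 3600).sub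
      (((log_qd (p5 t h0 h1)).add (log_qd (p6 t h0 h1))).const_mul 5399)
  · intro t h0 h1
    exact alg7 _ _ _ _ _ _ _ _ _ _ _ _ _ _ _ (p1 t h0 h1) (p2 t h0 h1) (p3 t h0 h1)
      (p4 t h0 h1) (p5 t h0 h1) (p6 t h0 h1) (by linarith) (seg2_T h0 h1)

end Vale.Agent.P021
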