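import Vale.Agent.P021.Sup

/-!
# P021: one-variable sup bounds, first segment
-/

namespace Vale.Agent.P021

/-- real and imaginary parts of `1.6 * 10^15 q` along the first segment -/
def rr (u : ℝ) : ℝ := qd 100000000000000 (-46112832000000) 10675195449167 u
def ii (u : ℝ) : ℝ := qd 0 24272724000000 (-15545611722144) u
def Qb (u : ℝ) : ℝ := rr u ^ 2 + ii u ^ 2
def Qc (u : ℝ) : ℝ := qd 2500000000000000 384273600000000 18858044482225 u

theorem Qb_pos (u : ℝ) : 0 < Qb u := by
  have h : 0 < rr u := by unfold rr qd; nlinarith [sq_nonneg (u - 2)]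
  unfold Qb
  positivity

theorem Qc_pos {u : ℝ} (hu : 0 ≤ u) : 0 < Qc u := by
  unfold Qc qd
  positivity

theorem alg3 (u qb qc db dc e1 e2 : ℝ) (h1 : 0 < u) (h2 : 0 < qb) (h3 : 0 < qc)
    (hT : 0 ≤ e1 * (qb * qc) + e1 * (u * db * qc) - e2 * (u * qb * dc)) :
    0 ≤ e1 * (1 / u) + e1 * (db / qb) - e2 * (dc / qc) := by
  have e : e1 * (1 / u) + e1 * (db / qb) - e2 * (dc / qc) =
      (e1 * (qb * qc) + e1 * (u * db * qc) - e2 * (u * qb * dc)) / (u * qb * qc) := by
    field_simp
  rw [e]
  exact div_nonneg hT (by positivity)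

theorem seg1_T {t : ℝ} (ht0 : 0 < t) (ht1 : t ≤ 1) :
    0 ≤ 3600 * (Qb t * Qc t) + 3600 * (t *
        (2 * rr t * (-46112832000000 + 2 * 10675195449167 * t)
          + 2 * ii t * (24272724000000 + 2 * (-15545611722144) * t)) * Qc t)
      - 5399 * (t * Qb t * (384273600000000 + 2 * 18858044482225 * t)) := by
  have hs : 0 ≤ 1 - t := by linarith
  have hpos : 0 ≤ 4 * (90000000000000000000000000000000000000000000000 * t ^ 0 * (1 - t) ^ 6
      + 367080722736000000000000000000000000000000000000 * t ^ 1 * (1 - t) ^ 5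
      + 608629620196589605460000000000000000000000000000 * t ^ 2 * (1 - t) ^ 4
      + 511793201151299207391483200000000000000000000000 * t ^ 3 * (1 - t) ^ 3
      + 214396844283986339391873915372770000000000000000 * t ^ 4 * (1 - t) ^ 2
      + 34132837139360273769702064356296503320000000000 * t ^ 5 * (1 - t) ^ 1
      + 28596096079560154087942735757811293842781250 * t ^ 6 * (1 - t) ^ 0) / 4 := by
    positivity
  refine hpos.trans (le_of_eq ?_)
  unfold Qb Qc rr ii qd
  ring

theorem seg1_mono {u : ℝ} (hu0 : 0 < u) (hu1 : u ≤ 1) :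
    3600 * Real.log u + 3600 * Real.log (Qb u) - 5399 * Real.log (Qc u) ≤
    3600 * Real.log 1 + 3600 * Real.log (Qb 1) - 5399 * Real.log (Qc 1) := by
  refine le_end (H := fun u => 3600 * Real.log u + 3600 * Real.log (Qb u)
      - 5399 * Real.log (Qc u))
    (H' := fun t => 3600 * (1 / t) + 3600 * ((2 * rr t * (-46112832000000 + 2 * 10675195449167 * t)
          + 2 * ii t * (24272724000000 + 2 * (-15545611722144) * t)) / Qb t)
      - 5399 * ((384273600000000 + 2 * 18858044482225 * t) / Qc t)) ?_ ?_ hu0 hu1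
  · intro t h0 h1
    have hr : HasDerivAt rr (-46112832000000 + 2 * 10675195449167 * t) t := hasDerivAt_qd _ _ _ t
    have hi : HasDerivAt ii (24272724000000 + 2 * (-15545611722144) * t) t := hasDerivAt_qd _ _ _ t
    have hb : HasDerivAt Qb (2 * rr t * (-46112832000000 + 2 * 10675195449167 * t)
          + 2 * ii t * (24272724000000 + 2 * (-15545611722144) * t)) t := by
      have : HasDerivAt (fun t => rr t ^ 2 + ii t ^ 2) _ t := (hr.pow 2).add (hi.pow 2)
      refine this.congr_deriv ?_
      norm_num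
    have hl : HasDerivAt (fun t : ℝ => Real.log t) (1 / t) t := by
      rw [one_div]; exact Real.hasDerivAt_log h0.ne'
    have hlb : HasDerivAt (fun t => Real.log (Qb t)) _ t := hb.log (Qb_pos t).ne'
    have hlc : HasDerivAt (fun t => Real.log (Qc t)) _ t :=
      (hasDerivAt_qd _ _ _ t).log (Qc_pos h0.le).ne'
    exact ((hl.const_mul 3600).add (hlb.const_mul 3600)).sub (hlc.const_mul 5399)
  · intro t h0 h1
    exact alg3 _ _ _ _ _ _ _ h0 (Qb_pos t) (Qc_pos h0.le) (seg1_T h0 h1)

end Vale.Agent.P021
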