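import Vale.Agent.P021.Sup1
import Vale.Agent.P021.Num

/-!
# P021: sup bounds on the contours (complex form)
-/

open Complex

namespace Vale.Agent.P021

noncomputable def na (w : ℂ) : ℝ := normSq (1 - 4 * (w * (1 - w)))
noncomputable def nb (w : ℂ) : ℝ := normSq (25 * (w * (1 - w)) ^ 2 - 14 * (w * (1 - w)) + 2)
noncomputable def nc (w : ℂ) : ℝ := normSq (w * (1 - w))

theorem combine {a b c a0 b0 c0 E : ℝ} (ha : 0 < a) (hb : 0 < b) (hc : 0 < c) (ha0 : 0 < a0)
    (hb0 : 0 < b0) (hc0 : 0 < c0) (hE : 0 < E)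
    (h : 1800 * Real.log a + 3600 * Real.log b - 5399 * Real.log c ≤
      1800 * Real.log a0 + 3600 * Real.log b0 - 5399 * Real.log c0)
    (h0 : a0 ^ 1800 * b0 ^ 3600 ≤ c0 ^ 5399 * E) : a ^ 1800 * b ^ 3600 ≤ c ^ 5399 * E := by
  have h1 : Real.log (a0 ^ 1800 * b0 ^ 3600) ≤ Real.log (c0 ^ 5399 * E) :=
    Real.log_le_log (by positivity) h0
  rw [Real.log_mul (by positivity) (by positivity), Real.log_mul (by positivity) (by positivity),
    Real.log_pow, Real.log_pow, Real.log_pow] at h1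
  push_cast at h1
  rw [← Real.log_le_log_iff (by positivity) (by positivity),
    Real.log_mul (by positivity) (by positivity), Real.log_mul (by positivity) (by positivity),
    Real.log_pow, Real.log_pow, Real.log_pow]
  push_cast
  linarith

theorem na_eq (x y : ℝ) : na ⟨x, y⟩ = ((1 - 2 * x) ^ 2 + (2 * y) ^ 2) ^ 2 := by
  simp [na, normSq_apply]
  ring

theorem nb_eq (x y : ℝ) : nb ⟨x, y⟩ =
    ((5 * (x ^ 2 - y ^ 2) - 6 * x + 2) ^ 2 + (10 * x * y - 6 * y) ^ 2) *
    ((5 * (x ^ 2 - y ^ 2) - 4 * x + 1) ^ 2 + (10 * x * y - 4 * y) ^ 2) := by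
  have e : (25 * ((⟨x, y⟩ : ℂ) * (1 - ⟨x, y⟩)) ^ 2 - 14 * ((⟨x, y⟩ : ℂ) * (1 - ⟨x, y⟩)) + 2) =
      (5 * (⟨x, y⟩ : ℂ) ^ 2 - 6 * ⟨x, y⟩ + 2) * (5 * (⟨x, y⟩ : ℂ) ^ 2 - 4 * ⟨x, y⟩ + 1) := by ring
  unfold nb
  rw [e, normSq_mul]
  congr 1
  · simp [normSq_apply, pow_two]; ring
  · simp [normSq_apply, pow_two]; ring

theorem nc_eq (x y : ℝ) : nc ⟨x, y⟩ = (x ^ 2 + y ^ 2) * ((1 - x) ^ 2 + y ^ 2) := by
  unfold nc
  rw [normSq_mul]
  simp [normSq_apply]
  ring

/-! ### numerical value at the saddle -/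

noncomputable def ka : ℝ := ((15370944 ^ 2 + 8090908 ^ 2 : ℕ) : ℝ) / ((4 * 10 ^ 16 : ℕ) : ℝ)
noncomputable def kb : ℝ := ((64562363449167 ^ 2 + 8727112277856 ^ 2 : ℕ) : ℝ) / ((256 * 10 ^ 28 : ℕ) : ℝ)
noncomputable def kc : ℝ := ((53842736 ^ 2 + 2022727 ^ 2 : ℕ) : ℝ) / ((4 * 10 ^ 16 : ℕ) : ℝ)

theorem ka_pos : 0 < ka := by unfold ka; norm_num
theorem kb_pos : 0 < kb := by unfold kb; norm_num
theorem kc_pos : 0 < kc := by unfold kc; norm_num

theorem saddle_num : ka ^ 1800 * kb ^ 3600 ≤ kc ^ 5399 * Real.exp (-(17682.462)) :=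
  num_small_real (15370944 ^ 2 + 8090908 ^ 2) (64562363449167 ^ 2 + 8727112277856 ^ 2)
    (53842736 ^ 2 + 2022727 ^ 2) (4 * 10 ^ 16) (256 * 10 ^ 28) (10 ^ 10) 1800 3600 5399 3599 17682
    27182818286 15873 num_small_nat rfl (by norm_num) (by norm_num) (by norm_num)
    (Real.exp (-(17682.462))) (Real.exp_pos _) exp_small_bound

/-! ### segment 1 -/

theorem seg1_na (θ : ℝ) : na ⟨1 / 2 + θ * (3535 / 100000), θ * (14305 / 100000)⟩ =
    ka * (θ ^ 2) ^ 2 := by
  rw [na_eq]; unfold ka; push_cast; ring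

theorem seg1_nb (θ : ℝ) : nb ⟨1 / 2 + θ * (3535 / 100000), θ * (14305 / 100000)⟩ =
    Qb (θ ^ 2) / (256 * 10 ^ 28) := by
  rw [nb_eq]; unfold Qb rr ii qd; ring

theorem seg1_nc (θ : ℝ) : nc ⟨1 / 2 + θ * (3535 / 100000), θ * (14305 / 100000)⟩ =
    Qc (θ ^ 2) / (4 * 10 ^ 16) := by
  rw [nc_eq]; unfold Qc qd; ring

theorem kb_eq : kb = Qb 1 / (256 * 10 ^ 28) := by unfold kb Qb rr ii qd; norm_num
theorem kc_eq : kc = Qc 1 / (4 * 10 ^ 16) := by unfold kc Qc qd; norm_num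

theorem seg1_bound {θ : ℝ} (h0 : 0 ≤ θ) (h1 : θ ≤ 1) (w : ℂ)
    (hw : w = ⟨1 / 2 + θ * (3535 / 100000), θ * (14305 / 100000)⟩) :
    na w ^ 1800 * nb w ^ 3600 ≤ nc w ^ 5399 * Real.exp (-(17682.462)) := by
  rcases eq_or_lt_of_le h0 with h | h
  · have e : na w = 0 := by rw [hw, seg1_na, ← h]; ring
    rw [e, zero_pow (by norm_num), zero_mul]
    have : 0 ≤ nc w := normSq_nonneg _
    positivity
  · have hu0 : 0 < θ ^ 2 := by positivity
    have hu1 : θ ^ 2 ≤ 1 := pow_le_one₀ h0 h1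
    have hm := seg1_mono hu0 hu1
    have hQb := Qb_pos (θ ^ 2)
    have hQc := Qc_pos hu0.le
    have hQb1 := Qb_pos 1
    have hQc1 := Qc_pos zero_le_one
    have hka := ka_pos
    refine combine (a0 := ka) (b0 := kb) (c0 := kc) ?_ ?_ ?_ ka_pos kb_pos kc_pos
      (Real.exp_pos _) ?_ saddle_num
    · rw [hw, seg1_na]; positivity
    · rw [hw, seg1_nb]; positivity
    · rw [hw, seg1_nc]; positivity
    · rw [hw, seg1_na, seg1_nb, seg1_nc, kb_eq, kc_eq,
        Real.log_mul (by positivity) (by positivity), Real.log_pow _ 2,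
        Real.log_div (by positivity) (by positivity), Real.log_div (by positivity) (by positivity),
        Real.log_div (by positivity) (by positivity), Real.log_div (by positivity) (by positivity)]
      rw [Real.log_one] at hm
      push_cast
      linarith

/-! ### segment 2 -/

noncomputable def zt (t : ℝ) : ℂ :=
  ⟨(53535 * (1 - t) + 60000 * t) / 100000, (14305 * (1 - t) + 20000 * t) / 100000⟩

theorem seg2_na (t : ℝ) : na (zt t) = 1 / 10 ^ 14 * (qd 868517 834566 296917 t) ^ 2 := by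
  unfold zt; rw [na_eq]; unfold qd; ring

theorem seg2_nb (t : ℝ) : nb (zt t) = 625 * 296917 / (4 * 10 ^ 7) ^ 4 * ((1 - t) ^ 2 *
    (qd 4874517 1228566 296917 t * qd 862517 440566 296917 t *
      qd 5440117 2262966 296917 t)) := by
  unfold zt; rw [nb_eq]; unfold qd; ring

theorem seg2_nc (t : ℝ) : nc (zt t) = 1 / (4 * 10 ^ 7) ^ 2 *
    (qd 12282517 3420566 296917 t * qd 9454517 (-1751434) 296917 t) := by
  unfold zt; rw [nc_eq]; unfold qd; ring

theorem zt_zero_a : na (zt 0) = ka := by rw [seg2_na]; unfold ka qd; norm_num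
theorem zt_zero_b : nb (zt 0) = kb := by rw [seg2_nb]; unfold kb qd; norm_num
theorem zt_zero_c : nc (zt 0) = kc := by rw [seg2_nc]; unfold kc qd; norm_num

theorem seg2_bound {t : ℝ} (h0 : 0 ≤ t) (h1 : t ≤ 1) (w : ℂ) (hw : w = zt t) :
    na w ^ 1800 * nb w ^ 3600 ≤ nc w ^ 5399 * Real.exp (-(17682.462)) := by
  subst hw
  rcases eq_or_lt_of_le h1 with h | h
  · have e : nb (zt t) = 0 := by rw [seg2_nb, h]; ring
    rw [e, zero_pow (by norm_num), mul_zero]
    have : 0 ≤ nc (zt t) := normSq_nonneg _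
    positivity
  · have hm := seg2_mono h0 h
    have p1 : ∀ t : ℝ, 0 ≤ t → t ≤ 1 → 0 < qd 868517 834566 296917 t := fun t h0 h1 =>
      qd_pos (by norm_num) (by norm_num) (by norm_num) h0 h1
    have p2 : ∀ t : ℝ, 0 ≤ t → t ≤ 1 → 0 < qd 4874517 1228566 296917 t := fun t h0 h1 =>
      qd_pos (by norm_num) (by norm_num) (by norm_num) h0 h1
    have p3 : ∀ t : ℝ, 0 ≤ t → t ≤ 1 → 0 < qd 862517 440566 296917 t := fun t h0 h1 =>
      qd_pos (by norm_num) (by norm_num) (by norm_num) h0 h1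
    have p4 : ∀ t : ℝ, 0 ≤ t → t ≤ 1 → 0 < qd 5440117 2262966 296917 t := fun t h0 h1 =>
      qd_pos (by norm_num) (by norm_num) (by norm_num) h0 h1
    have p5 : ∀ t : ℝ, 0 ≤ t → t ≤ 1 → 0 < qd 12282517 3420566 296917 t := fun t h0 h1 =>
      qd_pos (by norm_num) (by norm_num) (by norm_num) h0 h1
    have p6 : ∀ t : ℝ, 0 ≤ t → t ≤ 1 → 0 < qd 9454517 (-1751434) 296917 t := fun t h0 h1 =>
      qd_pos (by norm_num) (by norm_num) (by norm_num) h0 h1
    have key : ∀ t : ℝ, 0 ≤ t → t < 1 → 0 < na (zt t) ∧ 0 < nb (zt t) ∧ 0 < nc (zt t) ∧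
        1800 * Real.log (na (zt t)) + 3600 * Real.log (nb (zt t)) - 5399 * Real.log (nc (zt t)) =
        1800 * Real.log (1 / 10 ^ 14) + 3600 * Real.log (625 * 296917 / (4 * 10 ^ 7) ^ 4)
          - 5399 * Real.log (1 / (4 * 10 ^ 7) ^ 2) +
        (3600 * (Real.log (qd 868517 834566 296917 t) + Real.log (qd 4874517 1228566 296917 t)
      + Real.log (qd 862517 440566 296917 t) + Real.log (qd 5440117 2262966 296917 t)
      + 2 * Real.log (1 - t))
      - 5399 * (Real.log (qd 12282517 3420566 296917 t)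
        + Real.log (qd 9454517 (-1751434) 296917 t))) := by
      intro t h0 h1
      have q1 := p1 t h0 h1.le
      have q2 := p2 t h0 h1.le
      have q3 := p3 t h0 h1.le
      have q4 := p4 t h0 h1.le
      have q5 := p5 t h0 h1.le
      have q6 := p6 t h0 h1.le
      have q7 : 0 < 1 - t := by linarith
      refine ⟨?_, ?_, ?_, ?_⟩
      · rw [seg2_na]; positivity
      · rw [seg2_nb]; positivity
      · rw [seg2_nc]; positivity
      · rw [seg2_na, seg2_nb, seg2_nc,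
          Real.log_mul (x := 1 / 10 ^ 14) (by norm_num) (by positivity),
          Real.log_pow _ 2,
          Real.log_mul (x := 625 * 296917 / (4 * 10 ^ 7) ^ 4) (by norm_num) (by positivity),
          Real.log_mul (x := (1 - t) ^ 2) (by positivity) (by positivity), Real.log_pow _ 2,
          Real.log_mul (y := qd 5440117 2262966 296917 t) (by positivity) (by positivity),
          Real.log_mul (y := qd 862517 440566 296917 t) (by positivity) (by positivity),
          Real.log_mul (x := 1 / (4 * 10 ^ 7) ^ 2) (by norm_num) (by positivity),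
          Real.log_mul (y := qd 9454517 (-1751434) 296917 t) (by positivity) (by positivity)]
        push_cast
        ring
    obtain ⟨ka1, kb1, kc1, hlog⟩ := key t h0 h
    obtain ⟨ka2, kb2, kc2, hlog0⟩ := key 0 le_rfl zero_lt_one
    refine combine (a0 := na (zt 0)) (b0 := nb (zt 0)) (c0 := nc (zt 0)) ka1 kb1 kc1 ka2 kb2 kc2
      (Real.exp_pos _) ?_ ?_
    · rw [hlog, hlog0]; exact add_le_add le_rfl hm
    · rw [zt_zero_a, zt_zero_b, zt_zero_c]; exact saddle_num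

end Vale.Agent.P021
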